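import Vale.Agent.Lib.P154.TM.TabLem
import Vale.Agent.Lib.P154.Neg.Frame2

/-!
The assembly: from the certificates on the cells to the row on the whole simplex and to the theorem on
the tree.
-/

namespace Vale.Agent.Lib.P154.TM

open Vale.Agent.Lib.P154 Vale.Agent.Lib.P154.Neg
open Filter Topology

noncomputable section

/-- the certificates for a cell of `t` -/
structure RootOK (gn gd : ℕ) (tab : List ACell) (tc et : ℕ) : Prop where
  near : NearOK gn gd hBox tab (4 * K) 62 (8 * K) 63 tc et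
  far : FarOK gn gd eabN eGN tab (4 * K) 62 tc et
  vertex : VertexOK gn gd eabN eGN tab tc et

theorem cast4K : ((4 * K : ℕ) : ℝ) / (K : ℝ) = 4 := by
  have := K_pos.ne'
  push_cast
  field_simp

theorem pow62 : ((Nat.pow 2 62 : ℕ) : ℝ) / (K : ℝ) = 4 := by
  norm_num [K, Nat.pow_eq]

theorem cast8K : ((8 * K : ℕ) : ℝ) / (K : ℝ) = 8 := by
  have := K_pos.ne'
  push_cast
  field_simp

theorem pow63 : ((Nat.pow 2 63 : ℕ) : ℝ) / (K : ℝ) = 8 := by
  norm_num [K, Nat.pow_eq]

theorem hBox_div : (hBox : ℝ) / (K : ℝ) = 1 / 32 := by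
  norm_num [hBox, K]

theorem eab_div : (eabN : ℝ) / (K : ℝ) = 1 / 2 ^ 30 := by
  norm_num [eabN, K]

theorem eG_ge : (1 / 1000 : ℝ) ≤ (eGN : ℝ) / (K : ℝ) := by
  norm_num [eGN, K]

/-- exponentials are small: `exp (-24) <= 2 ^ (-30)` -/
theorem exp_neg_24 : Real.exp (-24) ≤ 1 / 2 ^ 30 := by
  have h1 : (2 : ℝ) ≤ Real.exp 1 := by
    have := Real.exp_one_gt_d9
    linarith
  have h2 : Real.exp 24 = Real.exp 1 ^ 24 := by
    rw [← Real.exp_nat_mul]
    norm_num
  have h3 : (2.7 : ℝ) ^ 24 ≤ Real.exp 1 ^ 24 := by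
    have := Real.exp_one_gt_d9
    exact pow_le_pow_left₀ (by norm_num) (by linarith) 24
  have h4 : (2 : ℝ) ^ 30 ≤ Real.exp 24 := by
    rw [h2]
    refine le_trans ?_ h3
    norm_num
  rw [Real.exp_neg, one_div]
  exact inv_anti₀ (by positivity) h4

/-- the row on a sorted point of the simplex -/
theorem row_sorted {gn gd : ℕ} {tab : List ACell} {tc et : ℕ} (h : RootOK gn gd tab tc et)
    {t : ℝ} (ht : |t - (tc : ℝ) / (K : ℝ)| ≤ ((Nat.pow 2 et : ℕ) : ℝ) / (K : ℝ)) (ht0 : 0 < t)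
    (ht2 : t < 1 / 2) {a b c A m : ℝ} (hs : Simp a b c) (hba : b ≤ a) (hcb : c ≤ b)
    (hA : InTab tab A m) :
    (0 < c ∧ Real.log (a / b) / 3 ≤ 1 / 32 ∧ Real.log (b / c) / 3 ≤ 1 / 32) ∨
      0 ≤ rowD (1 / t ^ 2) t A m ((gn : ℝ) / (gd : ℝ)) a b c := by
  have ha : 0 < a := by
    have := hs.hs
    have := hs.hc
    linarith
  have hfin : ∀ al ab GP : ℝ, al = b / a → ab = c / a → GP = rD (b / a) (c / a) * (c0R - PhiC a b c) →
      0 ≤ rT al ab t GP A m ((gn : ℝ) / (gd : ℝ)) →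
      0 ≤ rowD (1 / t ^ 2) t A m ((gn : ℝ) / (gd : ℝ)) a b c := by
    intro al ab GP e1 e2 e3 hT
    rw [e1, e2, e3, rT_eq hs ha ht0 ht2] at hT
    have hp : 0 < 1 / a * t ^ 2 := by positivity
    exact nonneg_of_mul_nonneg_right hT hp
  have heG : (1 / 1000 : ℝ) ≤ (eGN : ℝ) / (K : ℝ) := eG_ge
  have hab0 : |c / a| ≤ (eabN : ℝ) / (K : ℝ) ∨ True := Or.inr trivial
  rcases lt_or_eq_of_le hs.hc with hc0 | hc0
  · -- positive third coordinate
    obtain ⟨hx, he, e1, e2, e3⟩ := near_coord hs hc0 hba hcb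
    set x := Real.log (a / b) / 3 with hxd
    set e := Real.log (b / c) / 3 with hed
    by_cases hx8 : 8 ≤ x
    · -- vertex
      right
      have hw : 16 ≤ 2 * x + e := by linarith
      have hG := far_gp hx he hw
      have hal : |alN x| ≤ (eabN : ℝ) / (K : ℝ) := by
        unfold alN
        rw [eab_div, abs_of_pos (Real.exp_pos _)]
        refine le_trans (Real.exp_le_exp.2 (by linarith)) exp_neg_24
      have hab : |abN x e| ≤ (eabN : ℝ) / (K : ℝ) := by
        unfold abN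
        rw [eab_div, abs_of_pos (Real.exp_pos _)]
        refine le_trans (Real.exp_le_exp.2 (by linarith)) exp_neg_24
      have := h.vertex t (alN x) (abN x e) (gpN x e) ht hal hab (hG.trans heG) A m hA
      exact hfin _ _ _ e1.symm e2.symm e3.symm this
    · have hx8' : x < 8 := lt_of_not_ge hx8
      have hxc : |x - ((4 * K : ℕ) : ℝ) / (K : ℝ)| ≤ ((Nat.pow 2 62 : ℕ) : ℝ) / (K : ℝ) := by
        rw [cast4K, pow62, abs_le]
        constructor <;> linarith
      by_cases he16 : 16 ≤ e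
      · -- far
        right
        have hw : 16 ≤ 2 * x + e := by linarith
        have hG := far_gp hx he hw
        have hab : |abN x e| ≤ (eabN : ℝ) / (K : ℝ) := by
          unfold abN
          rw [eab_div, abs_of_pos (Real.exp_pos _)]
          refine le_trans (Real.exp_le_exp.2 (by linarith)) exp_neg_24
        have := h.far x t (abN x e) (gpN x e) hxc ht hab (hG.trans heG) A m hA
        exact hfin _ _ _ e1.symm e2.symm e3.symm this
      · have he16' : e < 16 := lt_of_not_ge he16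
        have hec : |e - ((8 * K : ℕ) : ℝ) / (K : ℝ)| ≤ ((Nat.pow 2 63 : ℕ) : ℝ) / (K : ℝ) := by
          rw [cast8K, pow63, abs_le]
          constructor <;> linarith
        rcases h.near x e t hxc hec ht A m hA with hb | hT
        · left
          rw [hBox_div] at hb
          exact ⟨hc0, hb.1, hb.2⟩
        · right
          exact hfin _ _ _ e1.symm e2.symm e3.symm hT
  · -- third coordinate zero
    right
    have hc00 : c = 0 := hc0.symm
    subst hc00
    have hs0 : Simp a b 0 := hs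
    have hG : rD (b / a) (0 / a) * (c0R - PhiC a b 0) = 0 := bdry_gp hs0 ha
    have hG0 : |(0 : ℝ)| ≤ (eGN : ℝ) / (K : ℝ) := by
      rw [abs_zero]
      positivity
    have hab0' : |(0 : ℝ)| ≤ (eabN : ℝ) / (K : ℝ) := by
      rw [abs_zero]
      positivity
    have hfin0 : 0 ≤ rT (b / a) 0 t 0 A m ((gn : ℝ) / (gd : ℝ)) →
        0 ≤ rowD (1 / t ^ 2) t A m ((gn : ℝ) / (gd : ℝ)) a b 0 :=
      hfin _ _ _ rfl (by simp) (by rw [hG])
    apply hfin0
    rcases lt_or_eq_of_le hs.hb with hb0 | hb0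
    · -- two positive coordinates
      have hx0 : 0 ≤ Real.log (a / b) / 3 := by
        have : 1 ≤ a / b := (one_le_div hb0).2 hba
        have := Real.log_nonneg this
        positivity
      have e1 : b / a = alN (Real.log (a / b) / 3) := by
        unfold alN
        have e2 : -(3 * (Real.log (a / b) / 3)) = Real.log (b / a) := by
          have : Real.log (a / b) = - Real.log (b / a) := by
            rw [← Real.log_inv, inv_div]
          rw [this]
          ring
        rw [e2, Real.exp_log (by positivity)]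
      set x := Real.log (a / b) / 3 with hxd
      by_cases hx8 : 8 ≤ x
      · have hal : |b / a| ≤ (eabN : ℝ) / (K : ℝ) := by
          rw [e1]
          unfold alN
          rw [eab_div, abs_of_pos (Real.exp_pos _)]
          refine le_trans (Real.exp_le_exp.2 (by linarith)) exp_neg_24
        exact h.vertex t (b / a) 0 0 ht hal hab0' hG0 A m hA
      · have hx8' : x < 8 := lt_of_not_ge hx8
        have hxc : |x - ((4 * K : ℕ) : ℝ) / (K : ℝ)| ≤ ((Nat.pow 2 62 : ℕ) : ℝ) / (K : ℝ) := by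
          rw [cast4K, pow62, abs_le]
          constructor <;> linarith
        rw [e1]
        exact h.far x t 0 0 hxc ht hab0' hG0 A m hA
    · have hb00 : b = 0 := hb0.symm
      subst hb00
      have e0 : (0 : ℝ) / a = 0 := by simp
      rw [e0]
      exact h.vertex t 0 0 0 ht hab0' hab0' hG0 A m hA

/-- the central box is in the ball -/
theorem box_ball {a b c : ℝ} (hs : Simp a b c) (hc : 0 < c) (hba : b ≤ a) (hcb : c ≤ b)
    (hx : Real.log (a / b) / 3 ≤ 1 / 32) (he : Real.log (b / c) / 3 ≤ 1 / 32) :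
    I2 a b c ≤ 1 / 450 := by
  have hb : 0 < b := by linarith
  have ha : 0 < a := by linarith
  obtain ⟨α, hα⟩ : ∃ α, α = b / a := ⟨_, rfl⟩
  obtain ⟨β, hβ⟩ : ∃ β, β = c / b := ⟨_, rfl⟩
  have hlo : ∀ u v : ℝ, 0 < u → 0 < v → Real.log (u / v) / 3 ≤ 1 / 32 → 29 / 32 ≤ v / u := by
    intro u v hu hv h1
    have h2 : Real.log (v / u) = - Real.log (u / v) := by
      rw [← Real.log_inv, inv_div]
    have h3 : - (3 / 32) ≤ Real.log (v / u) := by
      rw [h2]
      linarith
    have h4 : Real.exp (- (3 / 32)) ≤ v / u := by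
      rw [← Real.exp_log (by positivity : 0 < v / u)]
      exact Real.exp_le_exp.2 h3
    have h5 := Real.add_one_le_exp (-(3 / 32 : ℝ))
    linarith
  have h1 := hlo a b ha hb hx
  have h2 := hlo b c hb hc he
  rw [← hα] at h1
  rw [← hβ] at h2
  have hα1 : α ≤ 1 := by
    rw [hα, div_le_one ha]
    exact hba
  have hβ1 : β ≤ 1 := by
    rw [hβ, div_le_one hb]
    exact hcb
  have ebb : b = α * a := by rw [hα]; field_simp
  have ecc : c = α * β * a := by
    rw [hα, hβ]
    field_simp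
  have hsum := hs.hs
  rw [ebb, ecc] at hsum
  have hD : a * (1 + α + α * β) = 1 := by linarith
  have hDpos : 0 < 1 + α + α * β := by positivity
  have ea : a = 1 / (1 + α + α * β) := by
    field_simp
    linarith
  have hI : I2 a b c
      = ((1 - α) ^ 2 + (α - α * β) ^ 2 + (1 - α * β) ^ 2) / (3 * (1 + α + α * β) ^ 2) := by
    unfold I2
    rw [ebb, ecc, ea]
    field_simp
    ring
  rw [hI, div_le_iff₀ (by positivity)]
  have hα0 : 0 ≤ α := by linarith
  have hβ0 : 0 ≤ β := by linarith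
  have h3 : 0 ≤ 1 - α := by linarith
  have h4 : 29 / 32 * (29 / 32) ≤ α * β := mul_le_mul h1 h2 (by norm_num) hα0
  have h5 : α * β ≤ 1 * 1 := mul_le_mul hα1 hβ1 hβ0 (by norm_num)
  have h6 : (1 - α) ^ 2 ≤ (3 / 32) ^ 2 := pow_le_pow_left₀ h3 (by linarith) 2
  have h7 : (α - α * β) ^ 2 ≤ (3 / 32) ^ 2 := by
    have e : α - α * β = α * (1 - β) := by ring
    have h8 : 0 ≤ α * (1 - β) := mul_nonneg hα0 (by linarith)
    have h9 : α * (1 - β) ≤ 1 * (3 / 32) := mul_le_mul hα1 (by linarith) (by linarith) (by norm_num)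
    rw [e]
    exact pow_le_pow_left₀ h8 (by linarith) 2
  have h8 : (1 - α * β) ^ 2 ≤ (1 - 29 / 32 * (29 / 32)) ^ 2 :=
    pow_le_pow_left₀ (by linarith) (by linarith) 2
  have h9 : 1 + 29 / 32 + 29 / 32 * (29 / 32) ≤ 1 + α + α * β := by linarith
  have h10 : (1 + 29 / 32 + 29 / 32 * (29 / 32) : ℝ) ^ 2 ≤ (1 + α + α * β) ^ 2 :=
    pow_le_pow_left₀ (by norm_num) h9 2
  norm_num at h6 h7 h8 h10 ⊢
  linarith

theorem Wc_swap23 (a b c : ℝ) : Wc a c b = Wc a b c := by
  calc Wc a c b = Wc c a b := Wc_swap c a b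
    _ = Wc b c a := Wc_cyc b c a
    _ = Wc a b c := Wc_cyc a b c

theorem PhiC_swap12 (a b c : ℝ) : PhiC b a c = PhiC a b c := by
  simp only [PhiC, PhiD, wP2, wP3, v1]
  rw [Wc_swap]
  ring

theorem PhiC_swap23 (a b c : ℝ) : PhiC a c b = PhiC a b c := by
  simp only [PhiC, PhiD, wP2, wP3, v1]
  rw [Wc_swap23]
  ring

theorem phiC_swap12 (a b c : ℝ) : phiC b a c = phiC a b c := by
  simp only [phiC, phiD, wP2, wP3, v1]
  rw [Wc_swap]
  ring

theorem phiC_swap23 (a b c : ℝ) : phiC a c b = phiC a b c := by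
  simp only [phiC, phiD, wP2, wP3, v1]
  rw [Wc_swap23]
  ring

/-- the symmetries of the row -/
theorem rowD_swap12 (d t A m g a b c : ℝ) : rowD d t A m g b a c = rowD d t A m g a b c := by
  unfold rowD
  rw [PhiC_swap12, phiC_swap12, Wc_swap]

theorem rowD_swap23 (d t A m g a b c : ℝ) : rowD d t A m g a c b = rowD d t A m g a b c := by
  unfold rowD
  rw [PhiC_swap23, phiC_swap23, Wc_swap23]

theorem Simp.swap23 {a b c : ℝ} (h : Simp a b c) : Simp a c b :=
  ⟨h.ha, h.hc, h.hb, by linarith [h.hs]⟩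

/-- the row on the whole simplex -/
theorem row_all {tc et : ℕ} (h : RootOK 1 512 tabU tc et)
    {t : ℝ} (ht : |t - (tc : ℝ) / (K : ℝ)| ≤ ((Nat.pow 2 et : ℕ) : ℝ) / (K : ℝ)) (ht0 : 0 < t)
    (ht2 : t < 1 / 2) {A m : ℝ} (hA0 : 0 ≤ A) (hm : MOK A m) :
    ∀ a b c, Simp a b c → 0 ≤ rowD (1 / t ^ 2) t A m (1 / 512) a b c := by
  obtain ⟨hT, hm1, hE⟩ := hm
  have e512 : ((1 : ℕ) : ℝ) / ((512 : ℕ) : ℝ) = 1 / 512 := by norm_num
  refine sort_all (P := fun a b c => Simp a b c → 0 ≤ rowD (1 / t ^ 2) t A m (1 / 512) a b c)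
    (fun a b c hP hs => ?_) (fun a b c hP hs => ?_) (fun a b c hba hcb hs => ?_)
  · rw [rowD_swap12]
    exact hP (simp_swap hs)
  · rw [rowD_swap23]
    exact hP (Simp.swap23 hs)
  · rcases row_sorted h ht ht0 ht2 hs hba hcb hT with ⟨hc, hx, he⟩ | hr
    · have hI := box_ball hs hc hba hcb hx he
      exact row_ball hs hI ht0 ht2.le hA0 hm1 hE
    · rwa [e512] at hr

/-- the multiplier at the exponent zero -/
theorem MOK_zero : MOK 0 c0R := by
  refine ⟨?_, le_rfl, Or.inl ⟨by norm_num, by ring, le_rfl⟩⟩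
  have h := cellU0 (A := 0) (by norm_num) (by norm_num)
  have e : c0R = (369 / 256 : ℝ) - 594 / 1024 * 0 := by
    unfold c0R
    norm_num
  rw [e]
  exact h

theorem I2_le_two_thirds {a b c : ℝ} (hs : Simp a b c) : I2 a b c ≤ 2 / 3 := by
  have h1 := simp_le_one hs
  have hc : c = 1 - a - b := by linarith [hs.hs]
  have h2 : a ^ 2 ≤ a := by nlinarith [hs.ha, h1.1]
  have h3 : b ^ 2 ≤ b := by nlinarith [hs.hb, h1.2.1]
  have h4 : c ^ 2 ≤ c := by nlinarith [hs.hc, h1.2.2]
  have e : I2 a b c = a ^ 2 + b ^ 2 + c ^ 2 - 1 / 3 := by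
    unfold I2
    rw [hc]
    ring
  rw [e]
  linarith [hs.hs]

/-- the potential is nonnegative -/
theorem PhiC_nonneg {tc et : ℕ} (h : RootOK 1 512 tabU tc et)
    {t : ℝ} (ht : |t - (tc : ℝ) / (K : ℝ)| ≤ ((Nat.pow 2 et : ℕ) : ℝ) / (K : ℝ)) (ht0 : 0 < t)
    (ht2 : t < 1 / 2) : ∀ a b c, Simp a b c → 0 ≤ PhiC a b c := by
  have hl : Adm (-t) := ⟨by linarith, by linarith⟩
  have hr := row_all h ht ht0 ht2 le_rfl MOK_zero
  have hd0 : 0 < 1 / t ^ 2 := by positivity
  have hstep : ∀ a b c, Simp a b c →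
      (1 / t ^ 2) * PhiC (chanPt (-t) a) (chanPt (-t) b) (chanPt (-t) c) ≤ PhiC a b c := by
    intro a b c hs
    have h1 := hr a b c hs
    unfold rowD at h1
    have ephi : PhiC (chanPt (-t) a) (chanPt (-t) b) (chanPt (-t) c)
        = phiC (chanPt (-t) a) (chanPt (-t) b) (chanPt (-t) c)
          + c0R * (1 - Wc (chanPt (-t) a) (chanPt (-t) b) (chanPt (-t) c)) := by
      simp only [PhiC, phiC, PhiD, phiD]
      ring
    rw [ephi]
    simp only [neg_zero, Real.exp_zero, one_mul, mul_zero, sub_self, sub_zero, zero_pow, ne_eq,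
      OfNat.ofNat_ne_zero, not_false_eq_true, add_zero] at h1
    linarith
  have hind : ∀ n : ℕ, ∀ a b c, Simp a b c → I2 a b c ≤ 1 / 450 * 4 ^ n → 0 ≤ PhiC a b c := by
    intro n
    induction n with
    | zero =>
      intro a b c hs hI
      have hI' : I2 a b c ≤ 1 / 450 := by simpa using hI
      have h1 := phi_ball hs hI'
      have h2 := (abs_le.1 h1).1
      have h3 := I2_nonneg a b c
      have h4 := sq_nonneg (I2 a b c)
      unfold KR at h2
      nlinarith
    | succ n ih =>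
      intro a b c hs hI
      have h1 := hstep a b c hs
      have hsT := chan_simp hl hs
      have h2 : I2 (chanPt (-t) a) (chanPt (-t) b) (chanPt (-t) c) ≤ 1 / 450 * 4 ^ n := by
        rw [I2_chan hs.hs t]
        have ht4 : t ^ 2 ≤ 1 / 4 := by nlinarith
        have h5 := I2_nonneg a b c
        have h6 : t ^ 2 * I2 a b c ≤ 1 / 4 * I2 a b c := mul_le_mul_of_nonneg_right ht4 h5
        have h7 : (4 : ℝ) ^ (n + 1) = 4 * 4 ^ n := by ring
        rw [h7] at hI
        linarith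
      have h3 := ih _ _ _ hsT h2
      have h4 : 0 ≤ (1 / t ^ 2) * PhiC (chanPt (-t) a) (chanPt (-t) b) (chanPt (-t) c) :=
        mul_nonneg hd0.le h3
      linarith
  intro a b c hs
  refine hind 5 a b c hs ?_
  have := I2_le_two_thirds hs
  norm_num
  linarith

/-- the exponent part of the row is nonnegative -/
theorem E_nonneg {A m : ℝ} (hA0 : 0 ≤ A) (hm : MOK A m) :
    0 ≤ m * A - c0R * (1 - Real.exp (-A)) - 1 / 512 * A ^ 2 := by
  rcases hm.2.2 with ⟨hA1, hm1, _⟩ | h2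
  · obtain ⟨hh1, _⟩ := exp_small hA0 hA1
    rw [hm1]
    have hc0 : c0R = 369 / 256 := rfl
    rw [hc0]
    have hA3 : A ^ 3 ≤ A ^ 2 * (1 / 8) := by
      have e : A ^ 3 = A ^ 2 * A := by ring
      rw [e]
      exact mul_le_mul_of_nonneg_left hA1 (sq_nonneg A)
    nlinarith [sq_nonneg A]
  · have : 0 ≤ A / 256 := by positivity
    linarith

/-- the row for all degrees up to the critical one -/
theorem row_all_d {tc et : ℕ} (h : RootOK 1 512 tabU tc et)
    {t d : ℝ} (ht : |t - (tc : ℝ) / (K : ℝ)| ≤ ((Nat.pow 2 et : ℕ) : ℝ) / (K : ℝ)) (ht0 : 0 < t)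
    (ht2 : t < 1 / 2) (hd : 0 ≤ d) (hKS : d * t ^ 2 ≤ 1) {A m : ℝ} (hA0 : 0 ≤ A) (hm : MOK A m)
    {a b c : ℝ} (hs : Simp a b c) : 0 ≤ rowD d t A m (1 / 512) a b c := by
  have h1 := row_all h ht ht0 ht2 hA0 hm a b c hs
  have h2 := PhiC_nonneg h ht ht0 ht2 a b c hs
  have h3 := E_nonneg hA0 hm
  have ht20 : 0 < t ^ 2 := by positivity
  set lam := d * t ^ 2 with hlam
  have hl0 : 0 ≤ lam := by positivity
  have e : rowD d t A m (1 / 512) a b c
      = (1 - lam) * (PhiC a b c + (m * A - c0R * (1 - Real.exp (-A)) - 1 / 512 * A ^ 2))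
        + lam * rowD (1 / t ^ 2) t A m (1 / 512) a b c := by
    unfold rowD
    have e2 : lam * (1 / t ^ 2) = d := by
      rw [hlam]
      field_simp
    have e3 : lam * (1 / t ^ 2 * (Real.exp (-A) * phiC (chanPt (-t) a) (chanPt (-t) b) (chanPt (-t) c)
        + m * (1 - Wc (chanPt (-t) a) (chanPt (-t) b) (chanPt (-t) c))))
        = d * (Real.exp (-A) * phiC (chanPt (-t) a) (chanPt (-t) b) (chanPt (-t) c)
        + m * (1 - Wc (chanPt (-t) a) (chanPt (-t) b) (chanPt (-t) c))) := by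
      rw [← mul_assoc, e2]
    rw [← e3]
    ring
  rw [e]
  have h4 : 0 ≤ 1 - lam := by linarith
  positivity

/-- The theorem on the tree for a cell of `t` with certificates. -/
theorem tendsto_of_root {tc et : ℕ} (h : RootOK 1 512 tabU tc et)
    {t d : ℝ} (ht : |t - (tc : ℝ) / (K : ℝ)| ≤ ((Nat.pow 2 et : ℕ) : ℝ) / (K : ℝ)) (ht0 : 0 < t)
    (ht2 : t < 1 / 2) (hd : 0 ≤ d) (hKS : d * t ^ 2 ≤ 1) (hd16 : d ≤ 16) :
    Tendsto (fun n => gwEx (poissonLaw d) (-t) n I2) atTop (𝓝 0) := by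
  have hl : Adm (-t) := ⟨by linarith, by linarith⟩
  refine potential_global (c0 := c0R) (c2 := -c2R) (c3 := c3R) (g := 1 / 512) hd hl (by norm_num) ?_
  intro A h0 h1
  obtain ⟨m, hm⟩ := exists_m h0 (h1.trans hd16)
  refine ⟨m - c0R, c0R * (Real.exp (-A) - 1 + A) - 1 / 512 * A ^ 2, by linarith, ?_⟩
  intro a b c hs
  rw [sFam_eq d t A m (1 / 512) a b c]
  have := row_all_d h ht ht0 ht2 hd hKS h0 hm hs
  linarith

end

end Vale.Agent.Lib.P154.TM
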