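import Vale.Agent.Lib.P154.TM.Link

/-!
The potential in the middle of the simplex: `Phi = I2 + K I2^2` up to a small multiple of `I2^2`.
-/

namespace Vale.Agent.Lib.P154.TM

open Vale.Agent.Lib.P154 Vale.Agent.Lib.P154.Neg

noncomputable section

/-- the constant of the expansion -/
def KR : ℝ := 1785 / 4096

namespace BallAux

/-- a monomial -/
def monoE (t : ℚ × ℕ × ℕ × ℕ × ℕ) (x y z w : ℝ) : ℝ :=
  (t.1 : ℝ) * (x ^ t.2.1 * y ^ t.2.2.1 * z ^ t.2.2.2.1 * w ^ t.2.2.2.2)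

/-- a polynomial given by its monomials -/
def polyE (L : List (ℚ × ℕ × ℕ × ℕ × ℕ)) (x y z w : ℝ) : ℝ :=
  (L.map (fun t => monoE t x y z w)).sum

/-- the sum of the absolute values of the monomials on a box -/
def polyB (L : List (ℚ × ℕ × ℕ × ℕ × ℕ)) (X Y Z W : ℚ) : ℚ :=
  (L.map (fun t => |t.1| * (X ^ t.2.1 * Y ^ t.2.2.1 * Z ^ t.2.2.2.1 * W ^ t.2.2.2.2))).sum

theorem abs_polyE_le (L : List (ℚ × ℕ × ℕ × ℕ × ℕ)) {x y z w : ℝ} {X Y Z W : ℚ}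
    (hx : |x| ≤ X) (hy : |y| ≤ Y) (hz : |z| ≤ Z) (hw : |w| ≤ W) :
    |polyE L x y z w| ≤ (polyB L X Y Z W : ℝ) := by
  induction L with
  | nil => simp [polyE, polyB]
  | cons t L ih =>
    have e1 : polyE (t :: L) x y z w = monoE t x y z w + polyE L x y z w := by
      simp [polyE]
    have e2 : polyB (t :: L) X Y Z W
        = |t.1| * (X ^ t.2.1 * Y ^ t.2.2.1 * Z ^ t.2.2.2.1 * W ^ t.2.2.2.2) + polyB L X Y Z W := by
      simp [polyB]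
    rw [e1, e2]
    push_cast
    refine (abs_add_le _ _).trans (add_le_add ?_ ih)
    unfold monoE
    rw [abs_mul, abs_mul, abs_mul, abs_mul, abs_pow, abs_pow, abs_pow, abs_pow]
    have hX : (0 : ℝ) ≤ X := (abs_nonneg x).trans hx
    have hY : (0 : ℝ) ≤ Y := (abs_nonneg y).trans hy
    have hZ : (0 : ℝ) ≤ Z := (abs_nonneg z).trans hz
    have hW : (0 : ℝ) ≤ W := (abs_nonneg w).trans hw
    refine mul_le_mul_of_nonneg_left ?_ (abs_nonneg _)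
    have h1 := pow_le_pow_left₀ (abs_nonneg x) hx t.2.1
    have h2 := pow_le_pow_left₀ (abs_nonneg y) hy t.2.2.1
    have h3 := pow_le_pow_left₀ (abs_nonneg z) hz t.2.2.2.1
    have h4 := pow_le_pow_left₀ (abs_nonneg w) hw t.2.2.2.2
    have h12 := mul_le_mul h1 h2 (by positivity) (by positivity)
    have h123 := mul_le_mul h12 h3 (by positivity) (by positivity)
    exact mul_le_mul h123 h4 (by positivity) (by positivity)

def LM : List (ℚ × ℕ × ℕ × ℕ × ℕ) := [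
  ((-9 : ℚ), 1, 0, 0, 1),
  ((-1785 / 4096 : ℚ), 4, 0, 0, 2),
  ((14571 / 256 : ℚ), 1, 0, 1, 0),
  ((-4359 / 1024 : ℚ), 4, 0, 1, 1),
  ((53427 / 1024 : ℚ), 4, 0, 2, 0),
  ((-1453 / 2048 : ℚ), 7, 0, 2, 1),
  ((16785 / 1024 : ℚ), 7, 0, 3, 0),
  ((7071 / 4096 : ℚ), 10, 0, 4, 0),
  ((-3833 / 2048 : ℚ), 2, 1, 0, 1),
  ((14571 / 1024 : ℚ), 2, 1, 1, 0),
  ((-1453 / 6144 : ℚ), 5, 1, 1, 1),
  ((49691 / 6144 : ℚ), 5, 1, 2, 0),
  ((7643 / 6144 : ℚ), 8, 1, 3, 0),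
  ((1813 / 12288 : ℚ), 0, 2, 0, 0),
  ((-1453 / 73728 : ℚ), 3, 2, 0, 1),
  ((49027 / 36864 : ℚ), 3, 2, 1, 0),
  ((8215 / 24576 : ℚ), 6, 2, 2, 0),
  ((16121 / 221184 : ℚ), 1, 3, 0, 0),
  ((2929 / 73728 : ℚ), 4, 3, 1, 0),
  ((9359 / 5308416 : ℚ), 2, 4, 0, 0),
  ((-7929 / 2048 : ℚ), 2, 0, 0, 1),
  ((33999 / 1024 : ℚ), 2, 0, 1, 0),
  ((-1453 / 2048 : ℚ), 5, 0, 1, 1),
  ((40309 / 2048 : ℚ), 5, 0, 2, 0),
  ((18833 / 6144 : ℚ), 8, 0, 3, 0),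
  ((97 / 4096 : ℚ), 0, 1, 0, 0),
  ((-5595 / 16384 : ℚ), 3, 1, 0, 1),
  ((51047 / 8192 : ℚ), 3, 1, 1, 0),
  ((-1453 / 147456 : ℚ), 6, 1, 1, 1),
  ((273695 / 147456 : ℚ), 6, 1, 2, 0),
  ((2357 / 49152 : ℚ), 9, 1, 3, 0),
  ((31205 / 147456 : ℚ), 1, 2, 0, 0),
  ((-1453 / 884736 : ℚ), 4, 2, 0, 1),
  ((160033 / 442368 : ℚ), 4, 2, 1, 0),
  ((7643 / 294912 : ℚ), 7, 2, 2, 0),
  ((121703 / 5308416 : ℚ), 2, 3, 0, 0),
  ((8215 / 1769472 : ℚ), 5, 3, 1, 0),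
  ((2929 / 10616832 : ℚ), 3, 4, 0, 0),
  ((-9119 / 16384 : ℚ), 3, 0, 0, 1),
  ((66711 / 8192 : ℚ), 3, 0, 1, 0),
  ((-1453 / 49152 : ℚ), 6, 0, 1, 1),
  ((137449 / 49152 : ℚ), 6, 0, 2, 0),
  ((2357 / 16384 : ℚ), 9, 0, 3, 0),
  ((2025 / 8192 : ℚ), 1, 1, 0, 0),
  ((-1453 / 147456 : ℚ), 4, 1, 0, 1),
  ((9119 / 8192 : ℚ), 4, 1, 1, 0),
  ((20881 / 147456 : ℚ), 7, 1, 2, 0),
  ((577021 / 7077888 : ℚ), 2, 2, 0, 0),
  ((-1453 / 42467328 : ℚ), 5, 2, 0, 1),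
  ((792775 / 21233664 : ℚ), 5, 2, 1, 0),
  ((2357 / 4718592 : ℚ), 8, 2, 2, 0),
  ((125273 / 42467328 : ℚ), 3, 3, 0, 0),
  ((7643 / 42467328 : ℚ), 6, 3, 1, 0),
  ((8215 / 509607936 : ℚ), 4, 4, 0, 0),
  ((3667 / 16384 : ℚ), 1, 0, 0, 0),
  ((-1453 / 98304 : ℚ), 4, 0, 0, 1),
  ((56831 / 49152 : ℚ), 4, 0, 1, 0),
  ((18833 / 98304 : ℚ), 7, 0, 2, 0),
  ((159203 / 1179648 : ℚ), 2, 1, 0, 0),
  ((-1453 / 7077888 : ℚ), 5, 1, 0, 1),
  ((120263 / 1179648 : ℚ), 5, 1, 1, 0),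
  ((2357 / 786432 : ℚ), 8, 1, 2, 0),
  ((169553 / 14155776 : ℚ), 3, 2, 0, 0),
  ((64691 / 42467328 : ℚ), 6, 2, 1, 0),
  ((535865 / 3057647616 : ℚ), 4, 3, 0, 0),
  ((2357 / 1019215872 : ℚ), 7, 3, 1, 0),
  ((7643 / 18345885696 : ℚ), 5, 4, 0, 0),
  ((77809 / 786432 : ℚ), 2, 0, 0, 0),
  ((-1453 / 4718592 : ℚ), 5, 0, 0, 1),
  ((224543 / 2359296 : ℚ), 5, 0, 1, 0),
  ((2357 / 524288 : ℚ), 8, 0, 2, 0),
  ((103879 / 4718592 : ℚ), 3, 1, 0, 0),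
  ((60595 / 14155776 : ℚ), 6, 1, 1, 0),
  ((731999 / 1019215872 : ℚ), 4, 2, 0, 0),
  ((2357 / 113246208 : ℚ), 7, 2, 1, 0),
  ((21905 / 4586471424 : ℚ), 5, 3, 0, 0),
  ((2357 / 587068342272 : ℚ), 6, 4, 0, 0),
  ((24451 / 1572864 : ℚ), 3, 0, 0, 0),
  ((18833 / 4718592 : ℚ), 6, 0, 1, 0),
  ((447883 / 339738624 : ℚ), 4, 1, 0, 0),
  ((2357 / 37748736 : ℚ), 7, 1, 1, 0),
  ((20881 / 1019215872 : ℚ), 5, 2, 0, 0),
  ((2357 / 48922361856 : ℚ), 6, 3, 0, 0),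
  ((103879 / 113246208 : ℚ), 4, 0, 0, 0),
  ((2357 / 37748736 : ℚ), 7, 0, 1, 0),
  ((6619 / 169869312 : ℚ), 5, 1, 0, 0),
  ((2357 / 10871635968 : ℚ), 6, 2, 0, 0),
  ((18833 / 679477248 : ℚ), 5, 0, 0, 0),
  ((2357 / 5435817984 : ℚ), 6, 1, 0, 0),
  ((2357 / 7247757312 : ℚ), 6, 0, 0, 0)]

def LT : List (ℚ × ℕ × ℕ × ℕ × ℕ) := [
  ((1 : ℚ), 2, 0, 0, 1),
  ((-2 : ℚ), 2, 0, 1, 0),
  ((-1 / 3 : ℚ), 5, 0, 2, 0),
  ((1 : ℚ), 0, 1, 0, 0),
  ((-1 / 9 : ℚ), 3, 1, 1, 0),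
  ((-1 / 108 : ℚ), 1, 2, 0, 0),
  ((-1 / 3 : ℚ), 3, 0, 1, 0),
  ((11 / 72 : ℚ), 1, 1, 0, 0),
  ((-1 / 216 : ℚ), 4, 1, 1, 0),
  ((-1 / 1296 : ℚ), 2, 2, 0, 0),
  ((5 / 24 : ℚ), 1, 0, 0, 0),
  ((-1 / 72 : ℚ), 4, 0, 1, 0),
  ((-1 / 216 : ℚ), 2, 1, 0, 0),
  ((-1 / 62208 : ℚ), 3, 2, 0, 0),
  ((-1 / 144 : ℚ), 2, 0, 0, 0),
  ((-1 / 10368 : ℚ), 3, 1, 0, 0),
  ((-1 / 6912 : ℚ), 3, 0, 0, 0)]

theorem LM_bound : polyB LM (2 / 75) (1 / 15) (7 / 9720) (64 * (7 / 9720)) ≤ 22 / 1000 := by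
  decide +kernel

theorem LT_bound : polyB LT (2 / 75) (1 / 15) (7 / 9720) (64 * (7 / 9720)) ≤ 73 / 1000 := by
  decide +kernel

def S1f (p q r : ℝ) : ℝ := 3 + p / 2 + q / 6 + p ^ 2 / 48 + p * q / 144 + r
def S2f (p q r : ℝ) : ℝ := 3 + 2 * p + 4 / 3 * q + p ^ 2 / 3 + 2 / 9 * (p * q) + r
def Tf (p q r1 r2 : ℝ) : ℝ := S2f p q r2 - S1f p q r1 ^ 2 / 3
def Nf (p q r1 r2 : ℝ) : ℝ :=
  c0R * S1f p q r1 ^ 4 - 3 * S1f p q r1 ^ 3 * (c0R + c2R * p - c3R * q)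
    - S1f p q r1 ^ 2 * Tf p q r1 r2 - KR * Tf p q r1 r2 ^ 2

theorem N_eq (p u e1 e2 : ℝ) :
    Nf p (p * u) (p ^ 3 * e1) (p ^ 3 * e2) = p ^ 2 * polyE LM p u e1 e2 := by
  simp only [Nf, Tf, S1f, S2f, polyE, monoE, LM, List.map_cons, List.map_nil, List.sum_cons,
    List.sum_nil, c0R, c2R, c3R, KR]
  push_cast
  ring

theorem T_eq (p u e1 e2 : ℝ) :
    Tf p (p * u) (p ^ 3 * e1) (p ^ 3 * e2) = p * (1 + polyE LT p u e1 e2) := by
  simp only [Tf, S1f, S2f, polyE, monoE, LT, List.map_cons, List.map_nil, List.sum_cons,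
    List.sum_nil]
  push_cast
  ring

theorem poly_bound {p q r1 r2 : ℝ} (hp0 : 0 ≤ p) (hp : p ≤ 2 / 75) (hq : |q| ≤ p / 15)
    (h1 : |r1| ≤ 7 / 9720 * p ^ 3) (h2 : |r2| ≤ 64 * (7 / 9720) * p ^ 3) :
    |Nf p q r1 r2| ≤ 1 / 25 * Tf p q r1 r2 ^ 2 := by
  rcases hp0.eq_or_lt with hz | hpos
  · subst hz
    have hq0 : q = 0 := by simpa using hq
    have h10 : r1 = 0 := by simpa using h1
    have h20 : r2 = 0 := by simpa using h2
    subst hq0 h10 h20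
    have e1 : Nf 0 0 0 0 = 0 := by
      simp only [Nf, Tf, S1f, S2f, c0R, c2R, c3R, KR]
      norm_num
    rw [e1]
    simp only [abs_zero]
    positivity
  · have hp3 : 0 < p ^ 3 := by positivity
    have hq' : q = p * (q / p) := by field_simp
    have h1' : r1 = p ^ 3 * (r1 / p ^ 3) := by field_simp
    have h2' : r2 = p ^ 3 * (r2 / p ^ 3) := by field_simp
    set u := q / p with hu
    set e1 := r1 / p ^ 3 with he1
    set e2 := r2 / p ^ 3 with he2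
    have hP : |p| ≤ ((2 / 75 : ℚ) : ℝ) := by
      rw [abs_of_pos hpos]; push_cast; exact hp
    have hU : |u| ≤ ((1 / 15 : ℚ) : ℝ) := by
      rw [hu, abs_div, abs_of_pos hpos, div_le_iff₀ hpos]
      push_cast
      linarith
    have hE1 : |e1| ≤ ((7 / 9720 : ℚ) : ℝ) := by
      rw [he1, abs_div, abs_of_pos hp3, div_le_iff₀ hp3]
      push_cast
      linarith
    have hE2 : |e2| ≤ ((64 * (7 / 9720) : ℚ) : ℝ) := by
      rw [he2, abs_div, abs_of_pos hp3, div_le_iff₀ hp3]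
      push_cast
      linarith
    have bM := abs_polyE_le LM hP hU hE1 hE2
    have bT := abs_polyE_le LT hP hU hE1 hE2
    have cM : ((polyB LM (2 / 75) (1 / 15) (7 / 9720) (64 * (7 / 9720)) : ℚ) : ℝ) ≤ 22 / 1000 := by
      have := (Rat.cast_le (K := ℝ)).2 LM_bound
      push_cast at this ⊢
      simpa using this
    have cT : ((polyB LT (2 / 75) (1 / 15) (7 / 9720) (64 * (7 / 9720)) : ℚ) : ℝ) ≤ 73 / 1000 := by
      have := (Rat.cast_le (K := ℝ)).2 LT_bound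
      push_cast at this ⊢
      simpa using this
    have eN : Nf p q r1 r2 = p ^ 2 * polyE LM p u e1 e2 := by
      rw [← N_eq, ← hq', ← h1', ← h2']
    have eT : Tf p q r1 r2 = p * (1 + polyE LT p u e1 e2) := by
      rw [← T_eq, ← hq', ← h1', ← h2']
    have bM' := bM.trans cM
    have bT' := bT.trans cT
    rw [eN, eT, abs_mul, abs_of_nonneg (by positivity : (0 : ℝ) ≤ p ^ 2), mul_pow]
    have hlow : (927 / 1000 : ℝ) ≤ 1 + polyE LT p u e1 e2 := by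
      have := (abs_le.1 bT').1
      linarith
    have hsq : (927 / 1000 : ℝ) ^ 2 ≤ (1 + polyE LT p u e1 e2) ^ 2 :=
      pow_le_pow_left₀ (by norm_num) hlow 2
    have hp2 : 0 ≤ p ^ 2 := by positivity
    have : |polyE LM p u e1 e2| ≤ 1 / 25 * (1 + polyE LT p u e1 e2) ^ 2 := by
      nlinarith
    nlinarith [mul_le_mul_of_nonneg_left this hp2]


theorem exp_six {z : ℝ} (hz : |z| ≤ 1) :
    |Real.exp z - (1 + z + z ^ 2 / 2 + z ^ 3 / 6 + z ^ 4 / 24 + z ^ 5 / 120)| ≤ 7 / 4320 * z ^ 6 := by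
  have h := Real.exp_bound hz (n := 6) (by norm_num)
  have e1 : ∑ m ∈ Finset.range 6, z ^ m / (m.factorial : ℝ)
      = 1 + z + z ^ 2 / 2 + z ^ 3 / 6 + z ^ 4 / 24 + z ^ 5 / 120 := by
    simp only [Finset.sum_range_succ, Finset.sum_range_zero, Nat.factorial]
    norm_num
  have e2 : |z| ^ 6 = z ^ 6 := by
    rw [← abs_pow]
    exact abs_of_nonneg (by positivity)
  have e3 : ((Nat.succ 6 : ℕ) : ℝ) / ((Nat.factorial 6 : ℕ) * (6 : ℕ)) = 7 / 4320 := by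
    simp only [Nat.factorial]
    norm_num
  rw [e1, e2, e3] at h
  linarith

theorem exp_data {v w z : ℝ} (hs : v + w + z = 0) (hp : v ^ 2 + w ^ 2 + z ^ 2 ≤ 2 / 75) :
    |Real.exp v + Real.exp w + Real.exp z
        - (3 + (v ^ 2 + w ^ 2 + z ^ 2) / 2 + (v ^ 3 + w ^ 3 + z ^ 3) / 6 + (v ^ 2 + w ^ 2 + z ^ 2) ^ 2 / 48
          + (v ^ 2 + w ^ 2 + z ^ 2) * (v ^ 3 + w ^ 3 + z ^ 3) / 144)|
      ≤ 7 / 9720 * (v ^ 2 + w ^ 2 + z ^ 2) ^ 3 ∧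
    |Real.exp (2 * v) + Real.exp (2 * w) + Real.exp (2 * z)
        - (3 + 2 * (v ^ 2 + w ^ 2 + z ^ 2) + 4 / 3 * (v ^ 3 + w ^ 3 + z ^ 3)
          + (v ^ 2 + w ^ 2 + z ^ 2) ^ 2 / 3
          + 2 / 9 * ((v ^ 2 + w ^ 2 + z ^ 2) * (v ^ 3 + w ^ 3 + z ^ 3)))|
      ≤ 64 * (7 / 9720) * (v ^ 2 + w ^ 2 + z ^ 2) ^ 3 ∧
    |v ^ 3 + w ^ 3 + z ^ 3| ≤ (v ^ 2 + w ^ 2 + z ^ 2) / 15 := by
  have hz : z = -v - w := by linarith
  set p := v ^ 2 + w ^ 2 + z ^ 2 with hpdef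
  set q := v ^ 3 + w ^ 3 + z ^ 3 with hqdef
  have hp0 : 0 ≤ p := by positivity
  -- coordinates are small
  have hv2 : v ^ 2 ≤ 2 / 3 * p := by rw [hpdef, hz]; nlinarith [sq_nonneg (v + 2 * w)]
  have hw2 : w ^ 2 ≤ 2 / 3 * p := by rw [hpdef, hz]; nlinarith [sq_nonneg (2 * v + w)]
  have hz2 : z ^ 2 ≤ 2 / 3 * p := by
    rw [hpdef, hz]; nlinarith [sq_nonneg (v - w)]
  have small : ∀ t : ℝ, t ^ 2 ≤ 2 / 3 * p → |t| ≤ 2 / 15 := by
    intro t ht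
    apply abs_le_of_sq_le_sq _ (by norm_num)
    nlinarith
  have hv := small v hv2
  have hw := small w hw2
  have hzz := small z hz2
  have two : ∀ t : ℝ, |t| ≤ 2 / 15 → |2 * t| ≤ 1 := by
    intro t ht
    rw [abs_mul, abs_of_pos (by norm_num : (0 : ℝ) < 2)]
    linarith
  have one : ∀ t : ℝ, |t| ≤ 2 / 15 → |t| ≤ 1 := fun t ht => by linarith
  -- sixth moments
  have hsix : v ^ 6 + w ^ 6 + z ^ 6 ≤ 4 / 9 * p ^ 3 := by
    have key : ∀ t : ℝ, t ^ 2 ≤ 2 / 3 * p → t ^ 6 ≤ 4 / 9 * p ^ 2 * t ^ 2 := by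
      intro t ht
      have h1 : (t ^ 2) ^ 2 ≤ (2 / 3 * p) ^ 2 := pow_le_pow_left₀ (by positivity) ht 2
      have h2 : t ^ 6 = (t ^ 2) ^ 2 * t ^ 2 := by ring
      rw [h2]
      have h3 : (2 / 3 * p) ^ 2 = 4 / 9 * p ^ 2 := by ring
      rw [← h3]
      exact mul_le_mul_of_nonneg_right h1 (by positivity)
    have h1 := key v hv2
    have h2 := key w hw2
    have h3 := key z hz2
    have : 4 / 9 * p ^ 3 = 4 / 9 * p ^ 2 * (v ^ 2 + w ^ 2 + z ^ 2) := by rw [← hpdef]; ring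
    rw [this]
    nlinarith
  have R1 := exp_six (one v hv)
  have R2 := exp_six (one w hw)
  have R3 := exp_six (one z hzz)
  have R4 := exp_six (two v hv)
  have R5 := exp_six (two w hw)
  have R6 := exp_six (two z hzz)
  refine ⟨?_, ?_, ?_⟩
  · have e : Real.exp v + Real.exp w + Real.exp z
        - (3 + p / 2 + q / 6 + p ^ 2 / 48 + p * q / 144)
        = (Real.exp v - (1 + v + v ^ 2 / 2 + v ^ 3 / 6 + v ^ 4 / 24 + v ^ 5 / 120))
          + (Real.exp w - (1 + w + w ^ 2 / 2 + w ^ 3 / 6 + w ^ 4 / 24 + w ^ 5 / 120))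
          + (Real.exp z - (1 + z + z ^ 2 / 2 + z ^ 3 / 6 + z ^ 4 / 24 + z ^ 5 / 120)) := by
      rw [hpdef, hqdef, hz]
      ring
    rw [e]
    refine (abs_add_le _ _).trans ?_
    have := abs_add_le (Real.exp v - (1 + v + v ^ 2 / 2 + v ^ 3 / 6 + v ^ 4 / 24 + v ^ 5 / 120))
      (Real.exp w - (1 + w + w ^ 2 / 2 + w ^ 3 / 6 + w ^ 4 / 24 + w ^ 5 / 120))
    nlinarith
  · have e : Real.exp (2 * v) + Real.exp (2 * w) + Real.exp (2 * z)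
        - (3 + 2 * p + 4 / 3 * q + p ^ 2 / 3 + 2 / 9 * (p * q))
        = (Real.exp (2 * v) - (1 + 2 * v + (2 * v) ^ 2 / 2 + (2 * v) ^ 3 / 6 + (2 * v) ^ 4 / 24
              + (2 * v) ^ 5 / 120))
          + (Real.exp (2 * w) - (1 + 2 * w + (2 * w) ^ 2 / 2 + (2 * w) ^ 3 / 6 + (2 * w) ^ 4 / 24
              + (2 * w) ^ 5 / 120))
          + (Real.exp (2 * z) - (1 + 2 * z + (2 * z) ^ 2 / 2 + (2 * z) ^ 3 / 6 + (2 * z) ^ 4 / 24
              + (2 * z) ^ 5 / 120)) := by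
      rw [hpdef, hqdef, hz]
      ring
    rw [e]
    refine (abs_add_le _ _).trans ?_
    have := abs_add_le (Real.exp (2 * v) - (1 + 2 * v + (2 * v) ^ 2 / 2 + (2 * v) ^ 3 / 6 + (2 * v) ^ 4 / 24
              + (2 * v) ^ 5 / 120))
      (Real.exp (2 * w) - (1 + 2 * w + (2 * w) ^ 2 / 2 + (2 * w) ^ 3 / 6 + (2 * w) ^ 4 / 24
              + (2 * w) ^ 5 / 120))
    have e4 : (2 * v) ^ 6 = 64 * v ^ 6 := by ring
    have e5 : (2 * w) ^ 6 = 64 * w ^ 6 := by ring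
    have e6 : (2 * z) ^ 6 = 64 * z ^ 6 := by ring
    rw [e4] at R4
    rw [e5] at R5
    rw [e6] at R6
    nlinarith
  · -- the third moment
    have hid : p ^ 3 - 6 * q ^ 2 = 2 * ((v - w) * (2 * v + w) * (v + 2 * w)) ^ 2 := by
      rw [hpdef, hqdef, hz]
      ring
    have hq2 : q ^ 2 ≤ p ^ 3 / 6 := by
      nlinarith [sq_nonneg ((v - w) * (2 * v + w) * (v + 2 * w))]
    apply abs_le_of_sq_le_sq _ (by positivity)
    have : p ^ 3 ≤ 2 / 75 * p ^ 2 := by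
      have h1 : p ^ 3 = p * p ^ 2 := by ring
      rw [h1]
      exact mul_le_mul_of_nonneg_right hp (by positivity)
    have h2 : (p / 15) ^ 2 = p ^ 2 / 225 := by ring
    rw [h2]
    linarith

theorem log_sq_le {y : ℝ} (hy : 87 / 100 ≤ y) : Real.log y ^ 2 ≤ 4 / 3 * (y - 1) ^ 2 := by
  have hy0 : 0 < y := by linarith
  have h1 := Real.log_le_sub_one_of_pos hy0
  have h2 := Real.one_sub_inv_le_log_of_pos hy0
  rcases le_total 1 y with h | h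
  · have h3 : 0 ≤ Real.log y := Real.log_nonneg h
    have h4 : Real.log y ^ 2 ≤ (y - 1) ^ 2 := pow_le_pow_left₀ h3 h1 2
    nlinarith [sq_nonneg (y - 1)]
  · have h3 : Real.log y ≤ 0 := Real.log_nonpos hy0.le h
    have h4 : 1 - y⁻¹ = -((1 - y) / y) := by field_simp; ring
    rw [h4] at h2
    have h5 : 0 ≤ -Real.log y := by linarith
    have h6 : -Real.log y ≤ (1 - y) / y := by linarith
    have h7 : (-Real.log y) ^ 2 ≤ ((1 - y) / y) ^ 2 := pow_le_pow_left₀ h5 h6 2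
    have h8 : ((1 - y) / y) ^ 2 = (1 - y) ^ 2 / y ^ 2 := by rw [div_pow]
    have h9 : (1 - y) ^ 2 / y ^ 2 ≤ 4 / 3 * (1 - y) ^ 2 := by
      rw [div_le_iff₀ (by positivity)]
      have : (3 : ℝ) / 4 ≤ y ^ 2 := by nlinarith
      nlinarith [sq_nonneg (1 - y), mul_le_mul_of_nonneg_left this (sq_nonneg (1 - y))]
    have h10 : (-Real.log y) ^ 2 = Real.log y ^ 2 := by ring
    have h11 : (1 - y) ^ 2 = (y - 1) ^ 2 := by ring
    rw [h10, h8] at h7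
    rw [h11] at h7 h9
    linarith


theorem ball_core {a b c v w z E τ Φ : ℝ} (hE : 0 < E) (hsum : a + b + c = 1)
    (hv : Real.exp v = a / E) (hw : Real.exp w = b / E) (hz : Real.exp z = c / E)
    (hs0 : v + w + z = 0) (hp : v ^ 2 + w ^ 2 + z ^ 2 ≤ 2 / 75)
    (hτ : τ = a ^ 2 + b ^ 2 + c ^ 2 - 1 / 3)
    (hΦ : Φ = c0R - 3 * E * (c0R + c2R * (v ^ 2 + w ^ 2 + z ^ 2) - c3R * (v ^ 3 + w ^ 3 + z ^ 3))) :
    |Φ - τ - KR * τ ^ 2| ≤ 1 / 25 * τ ^ 2 := by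
  obtain ⟨h1, h2, h3⟩ := exp_data hs0 hp
  have e2v : Real.exp (2 * v) = (a / E) ^ 2 := by rw [two_mul, Real.exp_add, hv]; ring
  have e2w : Real.exp (2 * w) = (b / E) ^ 2 := by rw [two_mul, Real.exp_add, hw]; ring
  have e2z : Real.exp (2 * z) = (c / E) ^ 2 := by rw [two_mul, Real.exp_add, hz]; ring
  rw [hv, hw, hz] at h1
  rw [e2v, e2w, e2z] at h2
  have hp0 : 0 ≤ v ^ 2 + w ^ 2 + z ^ 2 := by positivity
  generalize v ^ 2 + w ^ 2 + z ^ 2 = p at *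
  generalize v ^ 3 + w ^ 3 + z ^ 3 = q at *
  have hS : a / E + b / E + c / E = 1 / E := by rw [← add_div, ← add_div, hsum]
  have hS2 : (a / E) ^ 2 + (b / E) ^ 2 + (c / E) ^ 2 = (a ^ 2 + b ^ 2 + c ^ 2) / E ^ 2 := by
    field_simp
  rw [hS] at h1
  rw [hS2] at h2
  have main := poly_bound hp0 hp h3 h1 h2
  generalize hr1 : 1 / E - (3 + p / 2 + q / 6 + p ^ 2 / 48 + p * q / 144) = r1 at main
  generalize hr2 : (a ^ 2 + b ^ 2 + c ^ 2) / E ^ 2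
    - (3 + 2 * p + 4 / 3 * q + p ^ 2 / 3 + 2 / 9 * (p * q)) = r2 at main
  have eS : S1f p q r1 = 1 / E := by
    rw [← hr1]; simp only [S1f]; ring
  have eS2 : S2f p q r2 = (a ^ 2 + b ^ 2 + c ^ 2) / E ^ 2 := by
    rw [← hr2]; simp only [S2f]; ring
  have eT : Tf p q r1 r2 = τ / E ^ 2 := by
    simp only [Tf]
    rw [eS, eS2, hτ]
    field_simp
  have eN : Nf p q r1 r2 = (Φ - τ - KR * τ ^ 2) / E ^ 4 := by
    simp only [Nf]
    rw [eS, eT, hΦ]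
    field_simp
  rw [eN, eT, abs_div, abs_of_pos (by positivity : (0 : ℝ) < E ^ 4)] at main
  have e4 : 1 / 25 * (τ / E ^ 2) ^ 2 = (1 / 25 * τ ^ 2) / E ^ 4 := by
    field_simp
  rw [e4] at main
  exact (div_le_div_iff_of_pos_right (by positivity)).1 main

theorem coord_low {a b c : ℝ} (hsum : a + b + c = 1)
    (hI : (a - 1 / 3) ^ 2 + (b - 1 / 3) ^ 2 + (c - 1 / 3) ^ 2 ≤ 1 / 450) : 29 / 100 ≤ a := by
  by_contra h
  push Not at h
  have hc : c = 1 - a - b := by linarith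
  subst hc
  have key : 3 / 2 * (a - 1 / 3) ^ 2 ≤ 1 / 450 := by nlinarith [sq_nonneg (2 * b + a - 1)]
  nlinarith

end BallAux

open BallAux in
/-- BALL. The expansion of the potential. -/
theorem phi_ball {a b c : ℝ} (hs : Simp a b c) (hI : I2 a b c ≤ 1 / 450) :
    |PhiC a b c - I2 a b c - KR * I2 a b c ^ 2| ≤ 1 / 25 * I2 a b c ^ 2 := by
  have hsum := hs.hs
  have hI' : (a - 1 / 3) ^ 2 + (b - 1 / 3) ^ 2 + (c - 1 / 3) ^ 2 ≤ 1 / 450 := hI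
  have ha : 29 / 100 ≤ a := coord_low hsum hI'
  have hb : 29 / 100 ≤ b := coord_low (a := b) (b := c) (c := a) (by linarith) (by linarith)
  have hc : 29 / 100 ≤ c := coord_low (a := c) (b := a) (c := b) (by linarith) (by linarith)
  have pa : 0 < a := by linarith
  have pb : 0 < b := by linarith
  have pc : 0 < c := by linarith
  have hE : 0 < Real.exp ((Real.log a + Real.log b + Real.log c) / 3) := Real.exp_pos _
  have ev : v1 a b c = Real.log a - (Real.log a + Real.log b + Real.log c) / 3 := rfl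
  have ew : v1 b c a = Real.log b - (Real.log a + Real.log b + Real.log c) / 3 := by
    unfold v1; ring
  have ez : v1 c a b = Real.log c - (Real.log a + Real.log b + Real.log c) / 3 := by
    unfold v1; ring
  have xv : Real.exp (v1 a b c) = a / Real.exp ((Real.log a + Real.log b + Real.log c) / 3) := by
    rw [ev, Real.exp_sub, Real.exp_log pa]
  have xw : Real.exp (v1 b c a) = b / Real.exp ((Real.log a + Real.log b + Real.log c) / 3) := by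
    rw [ew, Real.exp_sub, Real.exp_log pb]
  have xz : Real.exp (v1 c a b) = c / Real.exp ((Real.log a + Real.log b + Real.log c) / 3) := by
    rw [ez, Real.exp_sub, Real.exp_log pc]
  -- the bound of the second moment
  have hp12 : (v1 a b c) ^ 2 + (v1 b c a) ^ 2 + (v1 c a b) ^ 2 ≤ 12 * I2 a b c := by
    have la : Real.log (3 * a) = Real.log 3 + Real.log a :=
      Real.log_mul (by norm_num) pa.ne'
    have lb : Real.log (3 * b) = Real.log 3 + Real.log b :=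
      Real.log_mul (by norm_num) pb.ne'
    have lc : Real.log (3 * c) = Real.log 3 + Real.log c :=
      Real.log_mul (by norm_num) pc.ne'
    have h1 := log_sq_le (y := 3 * a) (by linarith)
    have h2 := log_sq_le (y := 3 * b) (by linarith)
    have h3 := log_sq_le (y := 3 * c) (by linarith)
    rw [la] at h1
    rw [lb] at h2
    rw [lc] at h3
    have e : (v1 a b c) ^ 2 + (v1 b c a) ^ 2 + (v1 c a b) ^ 2
        = (Real.log 3 + Real.log a) ^ 2 + (Real.log 3 + Real.log b) ^ 2 + (Real.log 3 + Real.log c) ^ 2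
          - ((Real.log 3 + Real.log a) + (Real.log 3 + Real.log b) + (Real.log 3 + Real.log c)) ^ 2 / 3 := by
      rw [ev, ew, ez]
      ring
    rw [e]
    have e2 : 12 * I2 a b c = 4 / 3 * (3 * a - 1) ^ 2 + 4 / 3 * (3 * b - 1) ^ 2 + 4 / 3 * (3 * c - 1) ^ 2 := by
      unfold I2
      ring
    rw [e2]
    have := sq_nonneg ((Real.log 3 + Real.log a) + (Real.log 3 + Real.log b) + (Real.log 3 + Real.log c))
    linarith
  have hp : (v1 a b c) ^ 2 + (v1 b c a) ^ 2 + (v1 c a b) ^ 2 ≤ 2 / 75 := by linarith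
  have hW : Wc a b c = 3 * Real.exp ((Real.log a + Real.log b + Real.log c) / 3) := by
    unfold Wc
    rw [mc_eq_exp pa pb pc]
    congr 2
    ring
  have hτ : I2 a b c = a ^ 2 + b ^ 2 + c ^ 2 - 1 / 3 := by
    have hc' : c = 1 - a - b := by linarith
    unfold I2
    rw [hc']
    ring
  refine ball_core hE hsum xv xw xz (v1_sum a b c) hp hτ ?_
  simp only [PhiC, PhiD, wP2, wP3]
  rw [hW]
  ring

end

end Vale.Agent.Lib.P154.TM
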