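import Vale.Agent.Lib.P154.TM.Ball

/-!
The row in the middle of the simplex, from the expansion of the potential.
-/

namespace Vale.Agent.Lib.P154.TM

open Vale.Agent.Lib.P154 Vale.Agent.Lib.P154.Neg

noncomputable section

/-- the moments at the channel -/
theorem I2_chan {a b c : ℝ} (hs : a + b + c = 1) (t : ℝ) :
    I2 (chanPt (-t) a) (chanPt (-t) b) (chanPt (-t) c) = t ^ 2 * I2 a b c := by
  unfold I2 chanPt
  ring

theorem I3_chan {a b c : ℝ} (hs : a + b + c = 1) (t : ℝ) :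
    I3 (chanPt (-t) a) (chanPt (-t) b) (chanPt (-t) c) = - (t ^ 3 * I3 a b c) := by
  have hc : c = 1 - a - b := by linarith
  unfold I3 chanPt
  rw [hc]
  ring

/-- the third moment against the second -/
theorem I3_sq_le {a b c : ℝ} (hs : a + b + c = 1) : I3 a b c ^ 2 ≤ I2 a b c ^ 3 / 6 := by
  have hc : c = 1 - a - b := by linarith
  have e : I2 a b c ^ 3 - 6 * I3 a b c ^ 2
      = 2 * ((a - b) * (2 * (a - 1 / 3) + (b - 1 / 3)) * ((a - 1 / 3) + 2 * (b - 1 / 3))) ^ 2 := by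
    unfold I2 I3
    rw [hc]
    ring
  have := sq_nonneg ((a - b) * (2 * (a - 1 / 3) + (b - 1 / 3)) * ((a - 1 / 3) + 2 * (b - 1 / 3)))
  nlinarith

theorem I2_nonneg (a b c : ℝ) : 0 ≤ I2 a b c := by
  unfold I2
  positivity

/-- the third moment in the ball -/
theorem I3_ball {a b c : ℝ} (hs : a + b + c = 1) (hI : I2 a b c ≤ 1 / 450) :
    |I3 a b c| ≤ I2 a b c / 51 := by
  have h1 := I3_sq_le hs
  have h0 := I2_nonneg a b c
  apply abs_le_of_sq_le_sq' _ (by positivity) |> abs_le.2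
  have h2 : I2 a b c ^ 3 ≤ I2 a b c ^ 2 * (1 / 450) :=
    by
      have : I2 a b c ^ 3 = I2 a b c ^ 2 * I2 a b c := by ring
      rw [this]
      exact mul_le_mul_of_nonneg_left hI (by positivity)
  have h3 : (I2 a b c) ^ 2 ≥ 0 := by positivity
  nlinarith

/-- the cube of the central character -/
theorem Wc_cube {a b c : ℝ} (hs : Simp a b c) :
    Wc a b c ^ 3 = 1 - 9 / 2 * I2 a b c + 9 * I3 a b c := by
  have cube : ∀ u : ℝ, 0 ≤ u → (u ^ ((1 : ℝ) / 3)) ^ 3 = u := by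
    intro u hu
    rw [← Real.rpow_natCast, ← Real.rpow_mul hu]
    norm_num
  have h1 : Wc a b c ^ 3 = 27 * (a * b * c) := by
    unfold Wc mc mono
    have e : (3 * (a ^ ((1 : ℝ) / 3) * b ^ ((1 : ℝ) / 3) * c ^ ((1 : ℝ) / 3))) ^ 3
        = 27 * ((a ^ ((1 : ℝ) / 3)) ^ 3 * (b ^ ((1 : ℝ) / 3)) ^ 3 * (c ^ ((1 : ℝ) / 3)) ^ 3) := by
      ring
    rw [e, cube a hs.ha, cube b hs.hb, cube c hs.hc]
  rw [h1]
  have hc : c = 1 - a - b := by linarith [hs.hs]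
  unfold I2 I3
  rw [hc]
  ring

/-- the expansion of the defect of the central character -/
theorem u_ball {a b c : ℝ} (hs : Simp a b c) (hI : I2 a b c ≤ 1 / 450) :
    |1 - Wc a b c - (3 / 2 * I2 a b c - 3 * I3 a b c)| ≤ 3 * I2 a b c ^ 2 := by
  have hz := I3_ball hs.hs hI
  have hz' := abs_le.1 hz
  have h0 := I2_nonneg a b c
  have hW := Wc_cube hs
  have hW1 := Wc_le_one hs
  have hW0 := Wc_nonneg hs
  set τ := I2 a b c with hτ
  set ζ := I3 a b c with hζ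
  set W := Wc a b c with hWd
  set δ := 1 - W with hδ
  have hδ0 : 0 ≤ δ := by linarith
  have hδ1 : δ ≤ 1 := by linarith
  set s := 9 / 2 * τ - 9 * ζ with hs'
  have hid : s = 3 * δ - 3 * δ ^ 2 + δ ^ 3 := by
    have : W = 1 - δ := by rw [hδ]; ring
    have h3 : W ^ 3 = 1 - s := by rw [hW, hs']; ring
    rw [this] at h3
    nlinarith
  have hs0 : 0 ≤ s := by rw [hs']; linarith [hz'.2]
  have hsu : s ≤ 468 / 100 * τ := by rw [hs']; linarith [hz'.1]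
  have hsu2 : s ≤ 11 / 1000 := by linarith
  have hδ2 : δ ≤ 1 / 2 := by
    by_contra hc
    have hc' : 1 / 2 < δ := lt_of_not_ge hc
    have : 7 / 8 ≤ s := by
      rw [hid]
      have : (1 - δ) ^ 3 ≤ 1 / 8 := by
        have h5 : 0 ≤ 1 - δ := by linarith
        have h6 : 1 - δ ≤ 1 / 2 := by linarith
        calc (1 - δ) ^ 3 ≤ (1 / 2) ^ 3 := pow_le_pow_left₀ h5 h6 3
          _ = 1 / 8 := by norm_num
      nlinarith
    linarith
  have hδ3 : δ ≤ s / 3 * (100 / 99) := by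
    have h1 : 3 * δ * (1 - δ) ≤ s := by
      rw [hid]
      have := pow_nonneg hδ0 3
      nlinarith
    have h2 : δ ≤ 3 / 100 := by nlinarith
    nlinarith
  have hdiff : δ - s / 3 = δ ^ 2 * (1 - δ / 3) := by
    rw [hid]
    ring
  have hab : |δ - s / 3| ≤ δ ^ 2 := by
    rw [hdiff, abs_mul, abs_of_nonneg (sq_nonneg δ)]
    have h1 : |1 - δ / 3| ≤ 1 := by
      rw [abs_le]
      constructor <;> linarith
    calc δ ^ 2 * |1 - δ / 3| ≤ δ ^ 2 * 1 := mul_le_mul_of_nonneg_left h1 (sq_nonneg δ)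
      _ = δ ^ 2 := mul_one _
  have e1 : 1 - W - (3 / 2 * τ - 3 * ζ) = δ - s / 3 := by
    rw [hδ, hs']
    ring
  rw [e1]
  refine hab.trans ?_
  have h4 : δ ≤ 158 / 100 * τ := by
    have : s / 3 * (100 / 99) ≤ 158 / 100 * τ := by linarith
    linarith
  calc δ ^ 2 ≤ (158 / 100 * τ) ^ 2 := pow_le_pow_left₀ hδ0 h4 2
    _ ≤ 3 * τ ^ 2 := by
      have := sq_nonneg τ
      nlinarith

/-- the numbers of the quadratic form -/
theorem quad_form {τ A : ℝ} {K0 c e : ℝ} (hK : 0 < K0) (hc : c ^ 2 ≤ 4 * K0 * e) :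
    0 ≤ K0 * τ ^ 2 - c * τ * A + e * A ^ 2 := by
  have h1 : 0 ≤ (2 * K0 * τ - c * A) ^ 2 := sq_nonneg _
  have h2 : 4 * K0 * (K0 * τ ^ 2 - c * τ * A + e * A ^ 2)
      = (2 * K0 * τ - c * A) ^ 2 + (4 * K0 * e - c ^ 2) * A ^ 2 := by ring
  have h3 : 0 ≤ (4 * K0 * e - c ^ 2) * A ^ 2 :=
    mul_nonneg (by linarith) (sq_nonneg _)
  have h4 : 0 ≤ 4 * K0 * (K0 * τ ^ 2 - c * τ * A + e * A ^ 2) := by
    rw [h2]
    positivity
  exact nonneg_of_mul_nonneg_right h4 (by positivity)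

/-- the first step in the ball: the main terms, with errors -/
theorem ball_step {τ ζ t d F Fb ub : ℝ} (hτ0 : 0 ≤ τ) (ht0 : 0 < t) (ht2 : t ≤ 1 / 2)
    (hdt : d * t ^ 2 = 1)
    (h1 : |F - τ - KR * τ ^ 2| ≤ 1 / 25 * τ ^ 2)
    (h3 : |Fb - t ^ 2 * τ - KR * (t ^ 2 * τ) ^ 2| ≤ 1 / 25 * (t ^ 2 * τ) ^ 2)
    (h2 : |ub - (3 / 2 * (t ^ 2 * τ) - 3 * (-(t ^ 3 * ζ)))| ≤ 3 * (t ^ 2 * τ) ^ 2) :
    (2768 / 10000) * τ ^ 2 ≤ F - d * Fb ∧
    ∃ E2 Rest : ℝ, |E2| ≤ 3 / 4 * τ ^ 2 ∧ |Rest| ≤ 121 / 100 * τ ^ 2 ∧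
      d * ub = 3 / 2 * τ + 3 * t * ζ + E2 ∧
      d * Fb - c0R * (d * ub) = (1 - 3 / 2 * c0R) * τ - 3 * c0R * t * ζ + Rest := by
  have ht4 : t ^ 2 ≤ 1 / 4 := by nlinarith
  have ht20 : 0 < t ^ 2 := by positivity
  have hd0 : 0 < d := by
    by_contra hc
    have : d ≤ 0 := le_of_not_gt hc
    nlinarith
  have hs2 : 0 ≤ τ ^ 2 := sq_nonneg τ
  obtain ⟨e1, he1⟩ : ∃ e1, e1 = F - τ - KR * τ ^ 2 := ⟨_, rfl⟩
  obtain ⟨e3, he3⟩ : ∃ e3, e3 = Fb - t ^ 2 * τ - KR * (t ^ 2 * τ) ^ 2 := ⟨_, rfl⟩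
  obtain ⟨e2, he2⟩ : ∃ e2, e2 = ub - (3 / 2 * (t ^ 2 * τ) - 3 * (-(t ^ 3 * ζ))) := ⟨_, rfl⟩
  rw [← he1] at h1
  rw [← he3] at h3
  rw [← he2] at h2
  have hE3b : |d * e3| ≤ 1 / 100 * τ ^ 2 := by
    rw [abs_mul, abs_of_pos hd0]
    have h5 : d * |e3| ≤ d * (1 / 25 * (t ^ 2 * τ) ^ 2) := mul_le_mul_of_nonneg_left h3 hd0.le
    have h6 : d * (1 / 25 * (t ^ 2 * τ) ^ 2) = (d * t ^ 2) * (1 / 25 * t ^ 2 * τ ^ 2) := by ring
    rw [h6, hdt, one_mul] at h5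
    nlinarith
  have hE2b : |d * e2| ≤ 3 / 4 * τ ^ 2 := by
    rw [abs_mul, abs_of_pos hd0]
    have h5 : d * |e2| ≤ d * (3 * (t ^ 2 * τ) ^ 2) := mul_le_mul_of_nonneg_left h2 hd0.le
    have h6 : d * (3 * (t ^ 2 * τ) ^ 2) = (d * t ^ 2) * (3 * t ^ 2 * τ ^ 2) := by ring
    rw [h6, hdt, one_mul] at h5
    nlinarith
  have eF : F = τ + KR * τ ^ 2 + e1 := by rw [he1]; ring
  have eFb : d * Fb = τ + KR * t ^ 2 * τ ^ 2 + d * e3 := by
    have h7 : Fb = t ^ 2 * τ + KR * (t ^ 2 * τ) ^ 2 + e3 := by rw [he3]; ring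
    have h8 : d * (t ^ 2 * τ + KR * (t ^ 2 * τ) ^ 2 + e3)
        = (d * t ^ 2) * (τ + KR * t ^ 2 * τ ^ 2) + d * e3 := by ring
    rw [h7, h8, hdt, one_mul]
  have eub : d * ub = 3 / 2 * τ + 3 * t * ζ + d * e2 := by
    have h7 : ub = 3 / 2 * (t ^ 2 * τ) - 3 * (-(t ^ 3 * ζ)) + e2 := by rw [he2]; ring
    have h8 : d * (3 / 2 * (t ^ 2 * τ) - 3 * (-(t ^ 3 * ζ)) + e2)
        = (d * t ^ 2) * (3 / 2 * τ + 3 * t * ζ) + d * e2 := by ring
    rw [h7, h8, hdt, one_mul]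
  constructor
  · rw [eF, eFb]
    have h5 := (abs_le.1 h1).1
    have h6 := (abs_le.1 hE3b).2
    have h7 : KR * t ^ 2 * τ ^ 2 ≤ KR * (1 / 4) * τ ^ 2 := by
      have h8 : 0 ≤ KR * τ ^ 2 := by unfold KR; positivity
      nlinarith
    have hK : KR = 1785 / 4096 := rfl
    rw [hK] at h7 ⊢
    nlinarith
  · refine ⟨d * e2, KR * t ^ 2 * τ ^ 2 + d * e3 - c0R * (d * e2), hE2b, ?_, eub, ?_⟩
    · have h5 : |KR * t ^ 2 * τ ^ 2| ≤ 11 / 100 * τ ^ 2 := by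
        have h8 : 0 ≤ KR * t ^ 2 * τ ^ 2 := by unfold KR; positivity
        rw [abs_of_nonneg h8]
        have hK : KR = 1785 / 4096 := rfl
        rw [hK]
        nlinarith
      have h6 : |c0R * (d * e2)| ≤ c0R * (3 / 4 * τ ^ 2) := by
        rw [abs_mul, abs_of_pos (by unfold c0R; norm_num)]
        exact mul_le_mul_of_nonneg_left hE2b (by unfold c0R; norm_num)
      have h7 : |KR * t ^ 2 * τ ^ 2 + d * e3 - c0R * (d * e2)|
          ≤ |KR * t ^ 2 * τ ^ 2| + |d * e3| + |c0R * (d * e2)| :=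
        (abs_sub _ _).trans (add_le_add (abs_add_le _ _) le_rfl)
      have h6' : c0R * (3 / 4 * τ ^ 2) = 369 / 256 * (3 / 4 * τ ^ 2) := rfl
      linarith
    · rw [eFb, eub]
      ring

/-- the case of a small exponent, for real numbers -/
theorem ball_small {τ ζ t A h E2 Rest g : ℝ} (hτ0 : 0 ≤ τ) (hI : τ ≤ 1 / 450) (ht0 : 0 < t)
    (ht2 : t ≤ 1 / 2) (hA : 0 ≤ A) (hA1 : A ≤ 1 / 8) (hg : g ≤ 1 / 512)
    (hE2 : |E2| ≤ 3 / 4 * τ ^ 2) (hR : |Rest| ≤ 121 / 100 * τ ^ 2) (hz : |ζ| ≤ τ / 51)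
    (hh0 : 0 ≤ h) (hhA : h ≤ A) (hh1 : h ≤ A - A ^ 2 / 2 + A ^ 3 * (1733 / 10000))
    (hh2 : 15 / 16 * A ≤ h) :
    0 ≤ (2768 / 10000) * τ ^ 2
      + (h * ((1 - 3 / 2 * c0R) * τ - 3 * c0R * t * ζ + Rest)
        + 594 / 1024 * A * (3 / 2 * τ + 3 * t * ζ + E2))
      + ((c0R - 594 / 1024 * A) * A - c0R * h - g * A ^ 2) := by
  have hc0 : c0R = 369 / 256 := rfl
  rw [hc0]
  have hA3 : A ^ 3 ≤ A ^ 2 * (1 / 8) := by
    have e : A ^ 3 = A ^ 2 * A := by ring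
    rw [e]
    exact mul_le_mul_of_nonneg_left hA1 (sq_nonneg A)
  have hA20 : 0 ≤ A ^ 2 := sq_nonneg A
  have hτA : 0 ≤ τ * A := mul_nonneg hτ0 hA
  have hζ1 : |3 * t * ζ| ≤ 3 / 2 * (τ / 51) := by
    rw [abs_mul, abs_of_pos (by positivity : (0 : ℝ) < 3 * t)]
    exact mul_le_mul (by linarith) hz (abs_nonneg _) (by norm_num)
  have hl1 : -(2920 / 10000 * A) * τ
      ≤ ((1 - 3 / 2 * (369 / 256)) * h + 3 / 2 * (594 / 1024 * A)) * τ := by
    apply mul_le_mul_of_nonneg_right _ hτ0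
    nlinarith
  have hl2 : -(2534 / 100000 * (τ * A)) ≤ 3 * t * ζ * (594 / 1024 * A - 369 / 256 * h) := by
    have h5 : |594 / 1024 * A - 369 / 256 * h| ≤ 8614 / 10000 * A := by
      rw [abs_le]
      constructor <;> nlinarith
    have h6 : |3 * t * ζ * (594 / 1024 * A - 369 / 256 * h)|
        ≤ 3 / 2 * (τ / 51) * (8614 / 10000 * A) := by
      rw [abs_mul]
      exact mul_le_mul hζ1 h5 (abs_nonneg _) (by positivity)
    have h7 := (abs_le.1 h6).1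
    nlinarith
  have hτ2A : τ ^ 2 * A ≤ τ * A / 450 := by
    have e : τ ^ 2 * A = τ * A * τ := by ring
    rw [e]
    nlinarith
  have hl3 : -(121 / 100 * (τ ^ 2 * A)) ≤ h * Rest := by
    have h5 := (abs_le.1 hR).1
    have h6 : h * (-(121 / 100 * τ ^ 2)) ≤ h * Rest := mul_le_mul_of_nonneg_left h5 hh0
    have h7 : h * (121 / 100 * τ ^ 2) ≤ A * (121 / 100 * τ ^ 2) :=
      mul_le_mul_of_nonneg_right hhA (by positivity)
    nlinarith
  have hl4 : -(4351 / 10000 * (τ ^ 2 * A)) ≤ 594 / 1024 * A * E2 := by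
    have h5 := (abs_le.1 hE2).1
    have h6 : 594 / 1024 * A * (-(3 / 4 * τ ^ 2)) ≤ 594 / 1024 * A * E2 :=
      mul_le_mul_of_nonneg_left h5 (by positivity)
    have h8 : 0 ≤ τ ^ 2 * A := by positivity
    nlinarith
  have hEA : (1074 / 10000) * A ^ 2 ≤ (369 / 256 - 594 / 1024 * A) * A - 369 / 256 * h - g * A ^ 2 := by
    have h9 : g * A ^ 2 ≤ 1 / 512 * A ^ 2 := mul_le_mul_of_nonneg_right hg hA20
    nlinarith
  have hq := quad_form (τ := τ) (A := A) (K0 := 2768 / 10000) (c := 3215 / 10000)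
    (e := 1074 / 10000) (by norm_num) (by norm_num)
  have hexpand : h * ((1 - 3 / 2 * (369 / 256)) * τ - 3 * (369 / 256) * t * ζ + Rest)
      + 594 / 1024 * A * (3 / 2 * τ + 3 * t * ζ + E2)
      = ((1 - 3 / 2 * (369 / 256)) * h + 3 / 2 * (594 / 1024 * A)) * τ
        + 3 * t * ζ * (594 / 1024 * A - 369 / 256 * h) + h * Rest + 594 / 1024 * A * E2 := by
    ring
  rw [hexpand]
  have e5 : -(2920 / 10000 * A) * τ = -(2920 / 10000 * (τ * A)) := by ring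
  rw [e5] at hl1
  nlinarith

/-- the case where the exponent part is positive by itself, for real numbers -/
theorem ball_large {τ ζ t A h Rest U E : ℝ} (hτ0 : 0 ≤ τ) (hI : τ ≤ 1 / 450) (ht0 : 0 < t)
    (ht2 : t ≤ 1 / 2) (hR : |Rest| ≤ 121 / 100 * τ ^ 2) (hz : |ζ| ≤ τ / 51)
    (hh0 : 0 ≤ h) (hhA : h ≤ A) (hU : 0 ≤ U) (hE : A / 256 ≤ E) (hK0 : 0 ≤ (2768 / 10000) * τ ^ 2) :
    0 ≤ (2768 / 10000) * τ ^ 2
      + (h * ((1 - 3 / 2 * c0R) * τ - 3 * c0R * t * ζ + Rest) + U) + E := by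
  have hc0 : c0R = 369 / 256 := rfl
  rw [hc0]
  have hζ1 : |3 * t * ζ| ≤ 3 / 2 * (τ / 51) := by
    rw [abs_mul, abs_of_pos (by positivity : (0 : ℝ) < 3 * t)]
    exact mul_le_mul (by linarith) hz (abs_nonneg _) (by norm_num)
  have h5 := (abs_le.1 hR).1
  have h6 := (abs_le.1 hζ1).2
  have hτ1 : τ ^ 2 ≤ τ / 450 := by nlinarith
  have h7 : -(1208 / 1000 * τ) ≤ (1 - 3 / 2 * (369 / 256)) * τ - 3 * (369 / 256) * t * ζ + Rest := by
    have h8 : 3 * (369 / 256) * t * ζ = (369 / 256) * (3 * t * ζ) := by ring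
    rw [h8]
    nlinarith
  have h8 := mul_le_mul_of_nonneg_left h7 hh0
  have h9 : (1208 / 1000 * τ) * h ≤ (1208 / 1000 * (1 / 450)) * A :=
    mul_le_mul (by linarith) hhA hh0 (by norm_num)
  have hA0 : 0 ≤ A := hh0.trans hhA
  nlinarith

/-- the exponential for a small exponent -/
theorem exp_small {A : ℝ} (hA : 0 ≤ A) (hA1 : A ≤ 1 / 8) :
    1 - Real.exp (-A) ≤ A - A ^ 2 / 2 + A ^ 3 * (1733 / 10000) ∧
      15 / 16 * A ≤ 1 - Real.exp (-A) := by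
  have hA0 : |(-A)| ≤ 1 := by rw [abs_neg, abs_of_nonneg hA]; linarith
  have hb := Real.exp_bound hA0 (n := 4) (by norm_num)
  simp only [Finset.sum_range_succ, Finset.sum_range_zero, Nat.factorial] at hb
  rw [abs_neg, abs_of_nonneg hA] at hb
  have hb' := abs_le.1 hb
  norm_num at hb'
  have hA4 : A ^ 4 ≤ A ^ 3 * (1 / 8) := by
    have h30 : 0 ≤ A ^ 3 := by positivity
    have e : A ^ 4 = A ^ 3 * A := by ring
    rw [e]
    exact mul_le_mul_of_nonneg_left hA1 h30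
  have hA30 : 0 ≤ A ^ 3 := by positivity
  have hA3 : A ^ 3 ≤ A ^ 2 * (1 / 8) := by
    have e : A ^ 3 = A ^ 2 * A := by ring
    rw [e]
    exact mul_le_mul_of_nonneg_left hA1 (sq_nonneg A)
  have hA2 : A ^ 2 ≤ A * (1 / 8) := by nlinarith
  constructor
  · nlinarith [hb'.1]
  · nlinarith [hb'.2]

/-- The row in the ball: small exponent, or the exponent part is positive by itself. -/
theorem row_ball {a b c t A m g : ℝ} (hs : Simp a b c) (hI : I2 a b c ≤ 1 / 450) (ht0 : 0 < t)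
    (ht2 : t ≤ 1 / 2) (hA : 0 ≤ A) (hm : m ≤ c0R)
    (hE : (A ≤ 1 / 8 ∧ m = c0R - 594 / 1024 * A ∧ g ≤ 1 / 512) ∨
      (A / 256 ≤ m * A - c0R * (1 - Real.exp (-A)) - g * A ^ 2)) :
    0 ≤ rowD (1 / t ^ 2) t A m g a b c := by
  have hl : Adm (-t) := ⟨by linarith, by linarith⟩
  have hsT := chan_simp hl hs
  have ht4 : t ^ 2 ≤ 1 / 4 := by nlinarith
  have hτ0 := I2_nonneg a b c
  have hIT : I2 (chanPt (-t) a) (chanPt (-t) b) (chanPt (-t) c) = t ^ 2 * I2 a b c :=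
    I2_chan hs.hs t
  have hZT : I3 (chanPt (-t) a) (chanPt (-t) b) (chanPt (-t) c) = - (t ^ 3 * I3 a b c) :=
    I3_chan hs.hs t
  have hI2 : I2 (chanPt (-t) a) (chanPt (-t) b) (chanPt (-t) c) ≤ 1 / 450 := by
    rw [hIT]
    nlinarith
  have h1 := phi_ball hs hI
  have h3 := phi_ball hsT hI2
  have h2 := u_ball hsT hI2
  have hz := I3_ball hs.hs hI
  have hub0 : 0 ≤ 1 - Wc (chanPt (-t) a) (chanPt (-t) b) (chanPt (-t) c) := by
    have := Wc_le_one hsT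
    linarith
  have ephi : phiC (chanPt (-t) a) (chanPt (-t) b) (chanPt (-t) c)
      = PhiC (chanPt (-t) a) (chanPt (-t) b) (chanPt (-t) c)
        - c0R * (1 - Wc (chanPt (-t) a) (chanPt (-t) b) (chanPt (-t) c)) := by
    simp only [PhiC, phiC, PhiD, phiD]
    ring
  rw [hIT] at h2 h3
  rw [hZT] at h2
  unfold rowD
  rw [ephi]
  generalize PhiC (chanPt (-t) a) (chanPt (-t) b) (chanPt (-t) c) = Fb at *
  generalize 1 - Wc (chanPt (-t) a) (chanPt (-t) b) (chanPt (-t) c) = ub at *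
  generalize I2 a b c = τ at *
  generalize I3 a b c = ζ at *
  generalize PhiC a b c = F at *
  have hdt : 1 / t ^ 2 * t ^ 2 = 1 := by field_simp
  generalize 1 / t ^ 2 = d at *
  have hd0 : 0 < d := by
    by_contra hc
    have : d ≤ 0 := le_of_not_gt hc
    have h20 : 0 < t ^ 2 := by positivity
    nlinarith
  obtain ⟨hK0, E2, Rest, hE2, hR, eub, eFC⟩ := ball_step hτ0 ht0 ht2 hdt h1 h3 h2
  have hh0 : 0 ≤ 1 - Real.exp (-A) := by
    have : Real.exp (-A) ≤ 1 := Real.exp_le_one_iff.2 (by linarith)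
    linarith
  have hhA : 1 - Real.exp (-A) ≤ A := by
    have := Real.add_one_le_exp (-A)
    linarith
  have hrow : F - d * (Real.exp (-A) * (Fb - c0R * ub) + m * ub) + m * A
        - c0R * (1 - Real.exp (-A)) - g * A ^ 2
      = (F - d * Fb)
        + ((1 - Real.exp (-A)) * (d * Fb - c0R * (d * ub)) + (c0R - m) * (d * ub))
        + (m * A - c0R * (1 - Real.exp (-A)) - g * A ^ 2) := by
    ring
  rw [hrow, eFC]
  rcases hE with ⟨hA1, hmf, hg⟩ | hE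
  · obtain ⟨hh1, hh2⟩ := exp_small hA hA1
    rw [hmf]
    have hKe : c0R - (c0R - 594 / 1024 * A) = 594 / 1024 * A := by ring
    rw [hKe, eub]
    have := ball_small hτ0 hI ht0 ht2 hA hA1 hg hE2 hR hz hh0 hhA hh1 hh2
    linarith
  · have hU : 0 ≤ (c0R - m) * (d * ub) :=
      mul_nonneg (by linarith) (mul_nonneg hd0.le hub0)
    have := ball_large hτ0 hI ht0 ht2 hR hz hh0 hhA hU hE (by positivity)
    linarith

end

end Vale.Agent.Lib.P154.TM
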