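import Vale.Agent.Lib.P154.TM.Fun

/-!
Soundness of the row program: the real functions computed by the models, the test on the exponent, the
recursion over cells.
-/

namespace Vale.Agent.Lib.P154.TM

noncomputable section

/-! ### the real functions -/

/-- the coefficient `c0` -/
def c0R : ℝ := 369 / 256
/-- minus the coefficient `c2` -/
def c2R : ℝ := 595 / 4608
/-- the coefficient `c3` -/
def c3R : ℝ := 143 / 4608

def rD (al ab : ℝ) : ℝ := 1 + al + ab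
def rB1 (al ab t : ℝ) : ℝ := (1 + t) / 3 * rD al ab - t
def rB2 (al ab t : ℝ) : ℝ := (1 + t) / 3 * rD al ab - t * al
def rB3 (al ab t : ℝ) : ℝ := (1 + t) / 3 * rD al ab - t * ab
def rLm (al ab t : ℝ) : ℝ :=
  (Real.log (rB1 al ab t) + Real.log (rB2 al ab t) + Real.log (rB3 al ab t)) / 3
def rP2 (al ab t : ℝ) : ℝ :=
  (Real.log (rB1 al ab t) - rLm al ab t) ^ 2 + (Real.log (rB2 al ab t) - rLm al ab t) ^ 2
    + (Real.log (rB3 al ab t) - rLm al ab t) ^ 2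
def rP3 (al ab t : ℝ) : ℝ :=
  (Real.log (rB1 al ab t) - rLm al ab t) ^ 3 + (Real.log (rB2 al ab t) - rLm al ab t) ^ 3
    + (Real.log (rB3 al ab t) - rLm al ab t) ^ 3
def rE (al ab t : ℝ) : ℝ := 3 * Real.exp (rLm al ab t)
/-- `D t^2 Phi(a)` for `GP = D (c0 - Phi(a))` -/
def rX (al ab t GP : ℝ) : ℝ := t ^ 2 * (c0R * rD al ab - GP)
/-- `D t^2` -/
def rQ (al ab t : ℝ) : ℝ := t ^ 2 * rD al ab
/-- `D (c0 t^2 - phi(b))` -/
def rY (al ab t : ℝ) : ℝ :=
  c0R * (t ^ 2 * rD al ab) - rE al ab t * (c3R * rP3 al ab t - c2R * rP2 al ab t)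
/-- `D (1 - W(b))` -/
def rU (al ab t : ℝ) : ℝ := rD al ab - rE al ab t

/-- the row: `D t^2` times the family of the potential -/
def rT (al ab t GP A m g : ℝ) : ℝ :=
  rX al ab t GP + rQ al ab t * (m * A - c0R - g * A ^ 2) + Real.exp (-A) * rY al ab t
    - m * rU al ab t

theorem Rel.congr {f g : S → ℝ} {M : Md} (h : Rel f M) (e : ∀ s, f s = g s) : Rel g M := by
  intro s hs
  have := h s hs
  rwa [e s] at this

theorem cast_K_ne : (K : ℝ) ≠ 0 := K_pos.ne'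

/-! ### the data of the row -/

/-- Soundness of the data. -/
theorem dataC_spec {al' ab' t' GP' : S → ℝ} {al ab tt GP : Md} {k : Md → Md → Md → Md → Bool}
    (hal : Rel al' al) (hab : Rel ab' ab) (htt : Rel t' tt) (hGP : Rel GP' GP)
    (h : dataC al ab tt GP k = true) :
    (∀ s, Cube s → 0 < rB1 (al' s) (ab' s) (t' s) ∧ 0 < rB2 (al' s) (ab' s) (t' s)
        ∧ 0 < rB3 (al' s) (ab' s) (t' s)) ∧
    ∃ X Q Y U,
      Rel (fun s => rX (al' s) (ab' s) (t' s) (GP' s)) X ∧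
      Rel (fun s => rQ (al' s) (ab' s) (t' s)) Q ∧
      Rel (fun s => rY (al' s) (ab' s) (t' s)) Y ∧
      Rel (fun s => rU (al' s) (ab' s) (t' s)) U ∧ k X Q Y U = true := by
  unfold dataC at h
  obtain ⟨d1, hd1, h⟩ := addC_spec rel_one hal h
  obtain ⟨Dn, hDn, h⟩ := addC_spec hd1 hab h
  obtain ⟨u1, hu1, h⟩ := addC_spec rel_one htt h
  obtain ⟨mu, hmu, h⟩ := sclC_spec (by norm_num) hu1 h
  obtain ⟨muD, hmuD, h⟩ := mulC_spec hmu hDn h
  obtain ⟨B1, hB1, h⟩ := subC_spec hmuD htt h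
  obtain ⟨ta, hta, h⟩ := mulC_spec htt hal h
  obtain ⟨B2, hB2, h⟩ := subC_spec hmuD hta h
  obtain ⟨tb, htb, h⟩ := mulC_spec htt hab h
  obtain ⟨B3, hB3, h⟩ := subC_spec hmuD htb h
  have hB1' : Rel (fun s => rB1 (al' s) (ab' s) (t' s)) B1 := hB1.congr (fun s => by
    simp only [rB1, rD, Nat.cast_one, Nat.cast_ofNat]; ring)
  have hB2' : Rel (fun s => rB2 (al' s) (ab' s) (t' s)) B2 := hB2.congr (fun s => by
    simp only [rB2, rD, Nat.cast_one, Nat.cast_ofNat]; ring)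
  have hB3' : Rel (fun s => rB3 (al' s) (ab' s) (t' s)) B3 := hB3.congr (fun s => by
    simp only [rB3, rD, Nat.cast_one, Nat.cast_ofNat]; ring)
  have hDn' : Rel (fun s => rD (al' s) (ab' s)) Dn := hDn.congr (fun s => by
    simp only [rD])
  obtain ⟨p1, L1, hL1, h⟩ := logC_spec hB1' h
  obtain ⟨p2, L2, hL2, h⟩ := logC_spec hB2' h
  obtain ⟨p3, L3, hL3, h⟩ := logC_spec hB3' h
  refine ⟨fun s hs => ⟨p1 s hs, p2 s hs, p3 s hs⟩, ?_⟩
  obtain ⟨S1, hS1, h⟩ := addC_spec hL1 hL2 h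
  obtain ⟨S', hS, h⟩ := addC_spec hS1 hL3 h
  obtain ⟨Lm, hLm, h⟩ := sclC_spec (by norm_num) hS h
  have hLm' : Rel (fun s => rLm (al' s) (ab' s) (t' s)) Lm := hLm.congr (fun s => by
    simp only [rLm, Nat.cast_one, Nat.cast_ofNat]; ring)
  obtain ⟨v1, hv1, h⟩ := subC_spec hL1 hLm' h
  obtain ⟨v2, hv2, h⟩ := subC_spec hL2 hLm' h
  obtain ⟨v3, hv3, h⟩ := subC_spec hL3 hLm' h
  obtain ⟨s1, hs1, h⟩ := mulC_spec hv1 hv1 h
  obtain ⟨s2, hs2, h⟩ := mulC_spec hv2 hv2 h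
  obtain ⟨s3, hs3, h⟩ := mulC_spec hv3 hv3 h
  obtain ⟨p0, hp0, h⟩ := addC_spec hs1 hs2 h
  obtain ⟨P2b, hP2b, h⟩ := addC_spec hp0 hs3 h
  have hP2' : Rel (fun s => rP2 (al' s) (ab' s) (t' s)) P2b := hP2b.congr (fun s => by
    simp only [rP2]; ring)
  obtain ⟨c1, hc1, h⟩ := mulC_spec hs1 hv1 h
  obtain ⟨c2, hc2, h⟩ := mulC_spec hs2 hv2 h
  obtain ⟨c3, hc3, h⟩ := mulC_spec hs3 hv3 h
  obtain ⟨q1, hq1, h⟩ := addC_spec hc1 hc2 h
  obtain ⟨P3b, hP3b, h⟩ := addC_spec hq1 hc3 h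
  have hP3' : Rel (fun s => rP3 (al' s) (ab' s) (t' s)) P3b := hP3b.congr (fun s => by
    simp only [rP3]; ring)
  obtain ⟨eL, heL, h⟩ := expC_spec hLm' h
  obtain ⟨Eb, hEb, h⟩ := sclC_spec (by norm_num) heL h
  have hEb' : Rel (fun s => rE (al' s) (ab' s) (t' s)) Eb := hEb.congr (fun s => by
    simp only [rE, Nat.cast_one, Nat.cast_ofNat]; ring)
  obtain ⟨q3, hq3, h⟩ := sclC_spec (by norm_num) hP3' h
  obtain ⟨q2, hq2, h⟩ := sclC_spec (by norm_num) hP2' h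
  obtain ⟨ph, hph, h⟩ := subC_spec hq3 hq2 h
  obtain ⟨Ph, hPh, h⟩ := mulC_spec hEb' hph h
  obtain ⟨U, hU, h⟩ := subC_spec hDn' hEb' h
  obtain ⟨Q, hQ, h⟩ := mulC_spec htt htt h
  obtain ⟨QD, hQD, h⟩ := mulC_spec hQ hDn' h
  obtain ⟨c0QD, hc0QD, h⟩ := sclC_spec (by norm_num) hQD h
  obtain ⟨Y, hY, h⟩ := subC_spec hc0QD hPh h
  obtain ⟨c0D, hc0D, h⟩ := sclC_spec (by norm_num) hDn' h
  obtain ⟨DPhi, hDPhi, h⟩ := subC_spec hc0D hGP h
  obtain ⟨X, hX, h⟩ := mulC_spec hQ hDPhi h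
  refine ⟨X, QD, Y, U, hX.congr (fun s => ?_), hQD.congr (fun s => ?_), hY.congr (fun s => ?_),
    hU.congr (fun s => ?_), h⟩
  · simp only [rX, c0R, rD, Nat.cast_ofNat]; ring
  · simp only [rQ, rD]; ring
  · simp only [rY, c0R, c2R, c3R, rD, Nat.cast_ofNat]; ring
  · simp only [rU, rD]

/-! ### the test on the exponent -/

/-- the multiplier on a cell of the exponent -/
def mFn (kI Ac mc : ℕ) (A : ℝ) : ℝ :=
  (mc : ℝ) / (1024 * (K : ℝ)) - (kI : ℝ) / 1024 * (A - (Ac : ℝ) / (K : ℝ))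

/-- the value of the row in terms of the data -/
def tVal (X Q Y U m g A : ℝ) : ℝ :=
  X + Q * (m * A - c0R - g * A ^ 2) + Real.exp (-A) * Y - m * U

theorem aTest_sound {X' Q' Y' U' : S → ℝ} {X Q Y U : Md} (hX : Rel X' X) (hQ : Rel Q' Q)
    (hY : Rel Y' Y) (hU : Rel U' U) (hY0 : ∀ s, Cube s → 0 ≤ Y' s)
    {gn gd kI w Ac mc : ℕ} (hgd : 0 < gd) (h : aTest X Q Y U gn gd kI w Ac mc = true) :
    ∀ s, Cube s → ∀ A : ℝ, |A - (Ac : ℝ) / (K : ℝ)| ≤ (w : ℝ) / (K : ℝ) →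
      0 ≤ tVal (X' s) (Q' s) (Y' s) (U' s) (mFn kI Ac mc A) ((gn : ℝ) / (gd : ℝ)) A := by
  have hK := K_pos
  have hK0 : 0 < K := by decide
  unfold aTest at h
  obtain ⟨v0, e0, hv, h⟩ := expSign_spec h
  simp only [fN_eq] at h
  obtain ⟨q1, hq1, h⟩ := sclS_spec (Nat.mul_pos (Nat.mul_pos hK0 hK0) (Nat.mul_pos (by norm_num) hgd)) hQ h
  obtain ⟨y1, hy1, h⟩ := sclC_spec hK0 hY h
  obtain ⟨u1, hu1, h⟩ := sclC_spec (Nat.mul_pos (by norm_num) hK0) hU h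
  obtain ⟨l1, hl1, h⟩ := addC_spec hX hq1 h
  obtain ⟨l2, hl2, h⟩ := addC_spec hl1 hy1 h
  obtain ⟨L0, hL0, h⟩ := subC_spec hl2 hu1 h
  obtain ⟨q2, hq2, h⟩ := sclS_spec (Nat.mul_pos hK0 (Nat.mul_pos (by norm_num) hgd)) hQ h
  obtain ⟨u2, hu2, h⟩ := sclC_spec (by norm_num) hU h
  obtain ⟨l3, hl3, h⟩ := subC_spec hq2 hy1 h
  obtain ⟨L1, hL1, h⟩ := addC_spec hl3 hu2 h
  intro s hs A hA
  have hle := Nat.le_of_ble_eq_true h
  have hlow := hL0.low_le hs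
  have habs := hL1.abs_le hs
  have hup := hQ.le_up hs
  have hgdR : (0 : ℝ) < (gd : ℝ) := by exact_mod_cast hgd
  simp only [Nat.mul_eq, Nat.add_eq, Nat.cast_mul, Nat.cast_add, Nat.cast_ofNat] at hlow habs hle
  have hle2 : ((lowN L0 : ℝ) * ((K : ℝ) * (K : ℝ)) + (w : ℝ) * ((absM L1 : ℝ) * (K : ℝ)))
        * (1024 * (gd : ℝ))
      + (w : ℝ) * (w : ℝ) * (((kI : ℝ) * (gd : ℝ) + 1024 * (gn : ℝ)) * (upP Q : ℝ))
      ≤ (lowP L0 : ℝ) * ((K : ℝ) * (K : ℝ) * (1024 * (gd : ℝ))) := by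
    exact_mod_cast hle
  set v : ℕ := Nat.sub v0 e0 with hvdef
  set p : ℝ := (lowP L0 : ℝ)
  set n : ℝ := (lowN L0 : ℝ)
  set a : ℝ := (absM L1 : ℝ)
  set u : ℝ := (upP Q : ℝ)
  set R : ℝ := (K : ℝ) with hR
  set ww : ℝ := (w : ℝ)
  set Acr : ℝ := (Ac : ℝ) / R with hAcr
  set mcr : ℝ := (mc : ℝ) / (1024 * R) with hmcr
  set kp : ℝ := (kI : ℝ) / 1024 with hkp
  set g : ℝ := (gn : ℝ) / (gd : ℝ) with hg
  set vr : ℝ := (v : ℝ) / R with hvr
  set δ : ℝ := A - Acr with hδ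
  have hv0 : 0 ≤ vr := by positivity
  -- the lower bound of the exponential
  have hvle : vr ≤ Real.exp (-Acr) := by
    have h1 : |Real.exp (((0 : ℝ) - (Ac : ℝ)) / R) - (v0 : ℝ) / R| ≤ (e0 : ℝ) / R := by
      simpa using hv
    have h2 : Real.exp (((0 : ℝ) - (Ac : ℝ)) / R) = Real.exp (-Acr) := by
      congr 1
      rw [hAcr]
      ring
    rw [h2] at h1
    have h3 := (abs_le.1 h1).1
    by_cases hc : e0 ≤ v0
    · have : (v : ℝ) = (v0 : ℝ) - (e0 : ℝ) := by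
        rw [hvdef]
        exact Nat.cast_sub hc
      rw [hvr, this, sub_div]
      linarith
    · have : v = 0 := by
        rw [hvdef]
        exact Nat.sub_eq_zero_of_le (le_of_not_ge hc)
      rw [hvr, this]
      simp only [Nat.cast_zero, zero_div]
      exact (Real.exp_pos _).le
  have hexp : vr * (1 - δ) ≤ Real.exp (-A) := by
    have hA' : -A = -Acr + -δ := by rw [hδ]; ring
    rw [hA', Real.exp_add]
    have h1 : 1 - δ ≤ Real.exp (-δ) := by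
      have := Real.add_one_le_exp (-δ)
      linarith
    by_cases hc : 0 ≤ 1 - δ
    · calc vr * (1 - δ) ≤ Real.exp (-Acr) * (1 - δ) := mul_le_mul_of_nonneg_right hvle hc
        _ ≤ Real.exp (-Acr) * Real.exp (-δ) :=
          mul_le_mul_of_nonneg_left h1 (Real.exp_pos _).le
    · have h2 : vr * (1 - δ) ≤ 0 := mul_nonpos_of_nonneg_of_nonpos hv0 (le_of_not_ge hc)
      have h3 : 0 < Real.exp (-Acr) * Real.exp (-δ) := mul_pos (Real.exp_pos _) (Real.exp_pos _)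
      linarith
  have hYs := hY0 s hs
  have hE : 0 ≤ (Real.exp (-A) - vr * (1 - δ)) * Y' s :=
    mul_nonneg (by linarith) hYs
  -- the coefficients
  set C1 : ℝ := mcr * Acr - c0R - g * Acr ^ 2 with hC1
  set C2 : ℝ := mcr - kp * Acr - 2 * g * Acr with hC2
  have eC1 : ((mc : ℝ) * (Ac : ℝ) * (256 * (gd : ℝ))
      - (369 * (R * R * (1024 * (gd : ℝ))) + (gn : ℝ) * ((Ac : ℝ) * (Ac : ℝ)) * 262144))
      / (R * R * (262144 * (gd : ℝ))) = C1 := by
    rw [hC1, hmcr, hAcr, hg, c0R]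
    field_simp
    ring
  have eC2 : ((mc : ℝ) * (gd : ℝ)
      - ((kI : ℝ) * ((Ac : ℝ) * (gd : ℝ)) + 2048 * ((gn : ℝ) * (Ac : ℝ))))
      / (R * (1024 * (gd : ℝ))) = C2 := by
    rw [hC2, hmcr, hkp, hAcr, hg]
    field_simp
    ring
  rw [eC1] at hlow
  rw [eC2] at habs
  -- the identity
  have hid : tVal (X' s) (Q' s) (Y' s) (U' s) (mFn kI Ac mc A) g A
      = (X' s + C1 * Q' s + vr * Y' s - mcr * U' s)
        + δ * (C2 * Q' s - vr * Y' s + kp * U' s) - δ ^ 2 * (kp + g) * Q' s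
        + (Real.exp (-A) - vr * (1 - δ)) * Y' s := by
    have hA' : A = Acr + δ := by rw [hδ]; ring
    have hm : mFn kI Ac mc A = mcr - kp * δ := rfl
    rw [tVal, hm, hC1, hC2]
    rw [hA']
    ring
  rw [hid]
  -- the bounds
  have hδw : |δ| ≤ ww / R := hA
  have hL1' : |C2 * Q' s - vr * Y' s + kp * U' s| ≤ a / R := habs
  have hδL : - (ww / R * (a / R)) ≤ δ * (C2 * Q' s - vr * Y' s + kp * U' s) := by
    have h1 : |δ * (C2 * Q' s - vr * Y' s + kp * U' s)| ≤ ww / R * (a / R) := by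
      rw [abs_mul]
      exact mul_le_mul hδw hL1' (abs_nonneg _) ((abs_nonneg _).trans hδw)
    exact (abs_le.1 h1).1
  have hkg : 0 ≤ kp + g := by positivity
  have hQu : Q' s ≤ u / R := hup
  have hu0 : 0 ≤ u / R := by positivity
  have hδ2 : δ ^ 2 ≤ (ww / R) ^ 2 := by
    have := abs_nonneg δ
    rw [← sq_abs δ]
    exact pow_le_pow_left₀ this hδw 2
  have hQ2 : δ ^ 2 * (kp + g) * Q' s ≤ (ww / R) ^ 2 * (kp + g) * (u / R) := by
    calc δ ^ 2 * (kp + g) * Q' s ≤ δ ^ 2 * (kp + g) * (u / R) :=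
          mul_le_mul_of_nonneg_left hQu (mul_nonneg (sq_nonneg _) hkg)
      _ ≤ (ww / R) ^ 2 * (kp + g) * (u / R) :=
          mul_le_mul_of_nonneg_right (mul_le_mul_of_nonneg_right hδ2 hkg) hu0
  -- the test
  have htest : 0 ≤ (p - n) / R - ww / R * (a / R) - (ww / R) ^ 2 * (kp + g) * (u / R) := by
    have hle' : (n * (R * R) + ww * (a * R)) * (1024 * (gd : ℝ))
        + ww * ww * (((kI : ℝ) * (gd : ℝ) + 1024 * (gn : ℝ)) * u)
        ≤ p * (R * R * (1024 * (gd : ℝ))) := hle2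
    have e : (p - n) / R - ww / R * (a / R) - (ww / R) ^ 2 * (kp + g) * (u / R)
        = (p * (R * R * (1024 * (gd : ℝ)))
          - ((n * (R * R) + ww * (a * R)) * (1024 * (gd : ℝ))
            + ww * ww * (((kI : ℝ) * (gd : ℝ) + 1024 * (gn : ℝ)) * u)))
          / (R ^ 3 * (1024 * (gd : ℝ))) := by
      rw [hkp, hg]
      field_simp
      ring
    rw [e]
    apply div_nonneg (by linarith)
    positivity
  linarith

theorem aRec_sound {X' Q' Y' U' : S → ℝ} {X Q Y U : Md} (hX : Rel X' X) (hQ : Rel Q' Q)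
    (hY : Rel Y' Y) (hU : Rel U' U) (hY0 : ∀ s, Cube s → 0 ≤ Y' s)
    {gn gd kI : ℕ} (hgd : 0 < gd) :
    ∀ f e Ac mc, aRec X Q Y U gn gd kI f e Ac mc = true →
    ∀ s, Cube s → ∀ A : ℝ, |A - (Ac : ℝ) / (K : ℝ)| ≤ ((Nat.pow 2 e : ℕ) : ℝ) / (K : ℝ) →
      0 ≤ tVal (X' s) (Q' s) (Y' s) (U' s) (mFn kI Ac mc A) ((gn : ℝ) / (gd : ℝ)) A := by
  have hK := K_pos
  intro f
  induction f with
  | zero =>
    intro e Ac mc h
    exact aTest_sound hX hQ hY hU hY0 hgd h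
  | succ f ih =>
    intro e Ac mc h s hs A hA
    unfold aRec at h
    split at h
    · rename_i ht
      exact aTest_sound hX hQ hY hU hY0 hgd ht s hs A hA
    · cases e with
      | zero => simp at h
      | succ e' =>
        simp only [Bool.and_eq_true] at h
        obtain ⟨⟨⟨g1, g2⟩, hl⟩, hr⟩ := h
        have g1' := Nat.le_of_ble_eq_true g1
        have g2' := Nat.le_of_ble_eq_true g2
        have hp : ((Nat.pow 2 (e' + 1) : ℕ) : ℝ) = 2 * ((Nat.pow 2 e' : ℕ) : ℝ) := by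
          have : Nat.pow 2 (e' + 1) = 2 * Nat.pow 2 e' := by
            show 2 ^ (e' + 1) = 2 * 2 ^ e'
            ring
          rw [this]
          push_cast
          ring
        rw [hp] at hA
        set W : ℝ := ((Nat.pow 2 e' : ℕ) : ℝ) with hW
        have e1 : ((Nat.sub Ac (Nat.pow 2 e') : ℕ) : ℝ) = (Ac : ℝ) - W := by
          rw [hW]
          exact Nat.cast_sub g1'
        have e2 : ((Nat.add Ac (Nat.pow 2 e') : ℕ) : ℝ) = (Ac : ℝ) + W := by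
          rw [hW]
          exact Nat.cast_add _ _
        have e3 : ((Nat.add mc (Nat.mul kI (Nat.pow 2 e')) : ℕ) : ℝ) = (mc : ℝ) + (kI : ℝ) * W := by
          rw [hW]
          simp only [Nat.add_eq, Nat.mul_eq, Nat.cast_add, Nat.cast_mul]
        have e4 : ((Nat.sub mc (Nat.mul kI (Nat.pow 2 e')) : ℕ) : ℝ) = (mc : ℝ) - (kI : ℝ) * W := by
          rw [hW]
          have : ((Nat.sub mc (Nat.mul kI (Nat.pow 2 e')) : ℕ) : ℝ)
              = ((Nat.mul kI (Nat.pow 2 e')) : ℕ) * (-1) + (mc : ℝ) := by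
            have := Nat.cast_sub (R := ℝ) g2'
            simp only [Nat.sub_eq] at *
            rw [this]
            ring
          rw [this]
          simp only [Nat.mul_eq, Nat.cast_mul]
          ring
        by_cases hc : A ≤ (Ac : ℝ) / (K : ℝ)
        · have h1 := ih _ _ _ hl s hs A ?_
          · have e5 : mFn kI (Nat.sub Ac (Nat.pow 2 e')) (Nat.add mc (Nat.mul kI (Nat.pow 2 e'))) A
                = mFn kI Ac mc A := by
              unfold mFn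
              rw [e1, e3]
              field_simp
              ring
            rwa [e5] at h1
          · rw [e1, abs_le]
            have h2 := (abs_le.1 hA).1
            constructor
            · have : ((Ac : ℝ) - W) / (K : ℝ) = (Ac : ℝ) / (K : ℝ) - W / (K : ℝ) := sub_div _ _ _
              rw [this]
              have : 2 * W / (K : ℝ) = 2 * (W / (K : ℝ)) := by ring
              linarith
            · have : ((Ac : ℝ) - W) / (K : ℝ) = (Ac : ℝ) / (K : ℝ) - W / (K : ℝ) := sub_div _ _ _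
              rw [this]
              linarith
        · have h1 := ih _ _ _ hr s hs A ?_
          · have e5 : mFn kI (Nat.add Ac (Nat.pow 2 e')) (Nat.sub mc (Nat.mul kI (Nat.pow 2 e'))) A
                = mFn kI Ac mc A := by
              unfold mFn
              rw [e2, e4]
              field_simp
              ring
            rwa [e5] at h1
          · rw [e2, abs_le]
            have h2 := (abs_le.1 hA).2
            have hc' := lt_of_not_ge hc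
            have : ((Ac : ℝ) + W) / (K : ℝ) = (Ac : ℝ) / (K : ℝ) + W / (K : ℝ) := add_div _ _ _
            rw [this]
            have : 2 * W / (K : ℝ) = 2 * (W / (K : ℝ)) := by ring
            constructor <;> linarith

/-- the exponent and the multiplier are in a cell of the table -/
def InTab (tab : List ACell) (A m : ℝ) : Prop :=
  ∃ c ∈ tab, |A - (c.Ac : ℝ) / (K : ℝ)| ≤ ((Nat.pow 2 c.e : ℕ) : ℝ) / (K : ℝ)
    ∧ m = mFn c.kI c.Ac c.mc A

theorem aAll_sound {X' Q' Y' U' : S → ℝ} {X Q Y U : Md} (hX : Rel X' X) (hQ : Rel Q' Q)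
    (hY : Rel Y' Y) (hU : Rel U' U) (hY0 : ∀ s, Cube s → 0 ≤ Y' s)
    {gn gd : ℕ} (hgd : 0 < gd) :
    ∀ tab, aAll X Q Y U gn gd tab = true →
    ∀ s, Cube s → ∀ A m : ℝ, InTab tab A m →
      0 ≤ tVal (X' s) (Q' s) (Y' s) (U' s) m ((gn : ℝ) / (gd : ℝ)) A := by
  intro tab
  induction tab with
  | nil =>
    intro _ s _ A m hm
    obtain ⟨c, hc, _⟩ := hm
    simp at hc
  | cons c l ih =>
    intro h s hs A m hm
    unfold aAll at h
    simp only [Bool.and_eq_true] at h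
    obtain ⟨h1, h2⟩ := h
    obtain ⟨c', hc', hA, hm'⟩ := hm
    rcases List.mem_cons.1 hc' with rfl | hl
    · rw [hm']
      exact aRec_sound hX hQ hY hU hY0 hgd _ _ _ _ h1 s hs A hA
    · exact ih h2 s hs A m ⟨c', hl, hA, hm'⟩

/-- the test of the data -/
theorem data_sound {X' Q' Y' U' : S → ℝ} {X Q Y U : Md} (hX : Rel X' X) (hQ : Rel Q' Q)
    (hY : Rel Y' Y) (hU : Rel U' U) {gn gd : ℕ} (hgd : 0 < gd) {tab : List ACell}
    (h : (Nat.ble (lowN Y) (lowP Y) && aAll X Q Y U gn gd tab) = true) :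
    ∀ s, Cube s → ∀ A m : ℝ, InTab tab A m →
      0 ≤ tVal (X' s) (Q' s) (Y' s) (U' s) m ((gn : ℝ) / (gd : ℝ)) A := by
  simp only [Bool.and_eq_true] at h
  obtain ⟨h1, h2⟩ := h
  have hK := K_pos
  refine aAll_sound hX hQ hY hU (fun s hs => ?_) hgd tab h2
  have h3 := hY.low_le hs
  have h4 : (lowN Y : ℝ) ≤ (lowP Y : ℝ) := by exact_mod_cast Nat.le_of_ble_eq_true h1
  refine le_trans ?_ h3
  apply div_nonneg (by linarith) hK.le

/-! ### the cells -/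

/-- the bracket in the middle of the simplex -/
def PiR (x e : ℝ) : ℝ :=
  c0R + c2R * (6 * (x ^ 2 + x * e + e ^ 2))
    - c3R * (3 * (2 * x ^ 3 + 3 * x ^ 2 * e - 3 * x * e ^ 2 - 2 * e ^ 3))
def alN (x : ℝ) : ℝ := Real.exp (-(3 * x))
def abN (x e : ℝ) : ℝ := Real.exp (-(3 * x + 3 * e))
def gpN (x e : ℝ) : ℝ := 3 * (Real.exp (-(2 * x + e)) * PiR x e)

theorem nearC_spec {xc xw ec ew tc tw : ℕ} {k : Md → Md → Md → Md → Bool}
    (h : nearC xc xw ec ew tc tw k = true) :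
    let xi : S → ℝ := fun s => ((xc : ℝ) + (xw : ℝ) * s.1) / (K : ℝ)
    let eta : S → ℝ := fun s => ((ec : ℝ) + (ew : ℝ) * s.2.1) / (K : ℝ)
    let t' : S → ℝ := fun s => ((tc : ℝ) + (tw : ℝ) * s.2.2) / (K : ℝ)
    ∃ X Q Y U,
      Rel (fun s => rX (alN (xi s)) (abN (xi s) (eta s)) (t' s) (gpN (xi s) (eta s))) X ∧
      Rel (fun s => rQ (alN (xi s)) (abN (xi s) (eta s)) (t' s)) Q ∧
      Rel (fun s => rY (alN (xi s)) (abN (xi s) (eta s)) (t' s)) Y ∧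
      Rel (fun s => rU (alN (xi s)) (abN (xi s) (eta s)) (t' s)) U ∧ k X Q Y U = true := by
  intro xi eta t'
  have hxi : Rel xi ⟨var1V xc xw, zeroV, 0⟩ := rel_var1 xc xw
  have heta : Rel eta ⟨var2V ec ew, zeroV, 0⟩ := rel_var2 ec ew
  have htt : Rel t' ⟨var3V tc tw, zeroV, 0⟩ := rel_var3 tc tw
  unfold nearC at h
  simp only at h
  obtain ⟨x3, hx3, h⟩ := sclC_spec (by norm_num) hxi h
  obtain ⟨al, hal, h⟩ := expC_spec hx3.neg h
  obtain ⟨e3, he3, h⟩ := sclC_spec (by norm_num) heta h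
  obtain ⟨xe3, hxe3, h⟩ := addC_spec hx3 he3 h
  obtain ⟨ab, hab, h⟩ := expC_spec hxe3.neg h
  obtain ⟨x2, hx2, h⟩ := sclC_spec (by norm_num) hxi h
  obtain ⟨x2e, hx2e, h⟩ := addC_spec hx2 heta h
  obtain ⟨ga, hga, h⟩ := expC_spec hx2e.neg h
  obtain ⟨xx, hxx, h⟩ := mulC_spec hxi hxi h
  obtain ⟨xe, hxe, h⟩ := mulC_spec hxi heta h
  obtain ⟨ee, hee, h⟩ := mulC_spec heta heta h
  obtain ⟨p0, hp0, h⟩ := addC_spec hxx hxe h
  obtain ⟨p1, hp1, h⟩ := addC_spec hp0 hee h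
  obtain ⟨P2, hP2, h⟩ := sclC_spec (by norm_num) hp1 h
  obtain ⟨xxx, hxxx, h⟩ := mulC_spec hxx hxi h
  obtain ⟨xxe, hxxe, h⟩ := mulC_spec hxx heta h
  obtain ⟨xee, hxee, h⟩ := mulC_spec hxe heta h
  obtain ⟨eee, heee, h⟩ := mulC_spec hee heta h
  obtain ⟨a1, ha1, h⟩ := sclC_spec (by norm_num) hxxx h
  obtain ⟨a2, ha2, h⟩ := sclC_spec (by norm_num) hxxe h
  obtain ⟨a3, ha3, h⟩ := sclC_spec (by norm_num) hxee h
  obtain ⟨a4, ha4, h⟩ := sclC_spec (by norm_num) heee h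
  obtain ⟨b1, hb1, h⟩ := addC_spec ha1 ha2 h
  obtain ⟨b2, hb2, h⟩ := addC_spec ha3 ha4 h
  obtain ⟨b3, hb3, h⟩ := subC_spec hb1 hb2 h
  obtain ⟨P3, hP3, h⟩ := sclC_spec (by norm_num) hb3 h
  obtain ⟨w2, hw2, h⟩ := sclC_spec (by norm_num) hP2 h
  obtain ⟨w3, hw3, h⟩ := sclC_spec (by norm_num) hP3 h
  have hc0 : Rel (fun _ => c0R) (mkC (Nat.div (Nat.mul 369 K) 256) 0 0) := by
    apply rel_mkC
    have hK := K_pos
    have : ((Nat.div (Nat.mul 369 K) 256 : ℕ) : ℝ) = 369 / 256 * (K : ℝ) := by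
      have h1 : Nat.div (Nat.mul 369 K) 256 * 256 = Nat.mul 369 K := by decide
      have h2 : ((Nat.div (Nat.mul 369 K) 256 : ℕ) : ℝ) * 256 = 369 * (K : ℝ) := by
        have := congrArg (Nat.cast (R := ℝ)) h1
        simpa [Nat.mul_eq] using this
      linarith
    rw [this]
    simp only [c0R, Nat.cast_zero, sub_zero]
    rw [mul_div_assoc, div_self hK.ne', mul_one]
    simp
  obtain ⟨w4, hw4, h⟩ := addC_spec hc0 hw2 h
  obtain ⟨Pi', hPi, h⟩ := subC_spec hw4 hw3 h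
  obtain ⟨gPi, hgPi, h⟩ := mulC_spec hga hPi h
  obtain ⟨GP, hGP, h⟩ := sclC_spec (by norm_num) hgPi h
  have hal' : Rel (fun s => alN (xi s)) al := hal.congr (fun s => by
    simp only [alN, Nat.cast_ofNat, Nat.cast_one]; congr 1; ring)
  have hab' : Rel (fun s => abN (xi s) (eta s)) ab := hab.congr (fun s => by
    simp only [abN, Nat.cast_ofNat, Nat.cast_one]; congr 1; ring)
  have hGP' : Rel (fun s => gpN (xi s) (eta s)) GP := hGP.congr (fun s => by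
    simp only [gpN, PiR, c2R, c3R, Nat.cast_ofNat, Nat.cast_one]
    have e : Real.exp (-(2 / 1 * xi s + eta s)) = Real.exp (-(2 * xi s + eta s)) := by
      congr 2; ring
    rw [e]
    ring)
  obtain ⟨_, X, Q, Y, U, h1, h2, h3, h4, h5⟩ := dataC_spec hal' hab' htt hGP' h
  exact ⟨X, Q, Y, U, h1, h2, h3, h4, h5⟩

/-- a point of a cell as a point of the cube -/
theorem exists_cube {x c w : ℝ} (hw : 0 < w) (hK : 0 < (K : ℝ)) (h : |x - c / (K : ℝ)| ≤ w / (K : ℝ)) :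
    ∃ s : ℝ, |s| ≤ 1 ∧ (c + w * s) / (K : ℝ) = x := by
  refine ⟨((K : ℝ) * x - c) / w, ?_, ?_⟩
  · rw [abs_div, abs_of_pos hw, div_le_one hw]
    have : (K : ℝ) * x - c = (K : ℝ) * (x - c / (K : ℝ)) := by
      field_simp
    rw [this, abs_mul, abs_of_pos hK]
    have := mul_le_mul_of_nonneg_left h hK.le
    have e : (K : ℝ) * (w / (K : ℝ)) = w := by field_simp
    rwa [e] at this
  · field_simp
    ring

theorem pow_pos' (e : ℕ) : (0 : ℝ) < ((Nat.pow 2 e : ℕ) : ℝ) := by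
  have : 0 < Nat.pow 2 e := Nat.pow_pos (by norm_num)
  exact_mod_cast this

theorem nearTest_sound {gn gd : ℕ} (hgd : 0 < gd) {tab : List ACell} {xc ec tc ex ey et : ℕ}
    (h : nearTest gn gd tab xc (Nat.pow 2 ex) ec (Nat.pow 2 ey) tc (Nat.pow 2 et) = true)
    {x e t : ℝ} (hx : |x - (xc : ℝ) / (K : ℝ)| ≤ ((Nat.pow 2 ex : ℕ) : ℝ) / (K : ℝ))
    (he : |e - (ec : ℝ) / (K : ℝ)| ≤ ((Nat.pow 2 ey : ℕ) : ℝ) / (K : ℝ))
    (ht : |t - (tc : ℝ) / (K : ℝ)| ≤ ((Nat.pow 2 et : ℕ) : ℝ) / (K : ℝ))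
    {A m : ℝ} (hA : InTab tab A m) :
    0 ≤ rT (alN x) (abN x e) t (gpN x e) A m ((gn : ℝ) / (gd : ℝ)) := by
  unfold nearTest at h
  obtain ⟨X, Q, Y, U, h1, h2, h3, h4, h5⟩ := nearC_spec h
  obtain ⟨s1, hs1, e1⟩ := exists_cube (pow_pos' ex) K_pos hx
  obtain ⟨s2, hs2, e2⟩ := exists_cube (pow_pos' ey) K_pos he
  obtain ⟨s3, hs3, e3⟩ := exists_cube (pow_pos' et) K_pos ht
  have := data_sound h1 h2 h3 h4 hgd h5 (s1, s2, s3) ⟨hs1, hs2, hs3⟩ A m hA
  simp only [e1, e2, e3] at this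
  exact this

/-! ### the recursion -/

/-- a cut of a cell into two -/
theorem cut_cover {c e' : ℕ} (hg : Nat.pow 2 e' ≤ c) {x : ℝ}
    (hx : |x - (c : ℝ) / (K : ℝ)| ≤ ((Nat.pow 2 (e' + 1) : ℕ) : ℝ) / (K : ℝ)) :
    |x - ((Nat.sub c (Nat.pow 2 e') : ℕ) : ℝ) / (K : ℝ)| ≤ ((Nat.pow 2 e' : ℕ) : ℝ) / (K : ℝ)
    ∨ |x - ((Nat.add c (Nat.pow 2 e') : ℕ) : ℝ) / (K : ℝ)| ≤ ((Nat.pow 2 e' : ℕ) : ℝ) / (K : ℝ) := by
  have hp : ((Nat.pow 2 (e' + 1) : ℕ) : ℝ) = 2 * ((Nat.pow 2 e' : ℕ) : ℝ) := by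
    have : Nat.pow 2 (e' + 1) = 2 * Nat.pow 2 e' := by
      show 2 ^ (e' + 1) = 2 * 2 ^ e'
      ring
    rw [this]
    push_cast
    ring
  rw [hp] at hx
  set W : ℝ := ((Nat.pow 2 e' : ℕ) : ℝ) with hW
  have e1 : ((Nat.sub c (Nat.pow 2 e') : ℕ) : ℝ) = (c : ℝ) - W := by
    rw [hW]
    exact Nat.cast_sub hg
  have e2 : ((Nat.add c (Nat.pow 2 e') : ℕ) : ℝ) = (c : ℝ) + W := by
    rw [hW]
    exact Nat.cast_add _ _
  rw [e1, e2, sub_div, add_div]
  have h2 : 2 * W / (K : ℝ) = 2 * (W / (K : ℝ)) := by ring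
  rw [h2] at hx
  obtain ⟨h3, h4⟩ := abs_le.1 hx
  by_cases hc : x ≤ (c : ℝ) / (K : ℝ)
  · left
    rw [abs_le]
    constructor <;> linarith
  · right
    have hc' := lt_of_not_ge hc
    rw [abs_le]
    constructor <;> linarith

/-- what is shown for a cell of the middle of the simplex -/
def NearOK (gn gd h : ℕ) (tab : List ACell) (xc ex ec ey tc et : ℕ) : Prop :=
  ∀ x e t : ℝ, |x - (xc : ℝ) / (K : ℝ)| ≤ ((Nat.pow 2 ex : ℕ) : ℝ) / (K : ℝ) →
    |e - (ec : ℝ) / (K : ℝ)| ≤ ((Nat.pow 2 ey : ℕ) : ℝ) / (K : ℝ) →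
    |t - (tc : ℝ) / (K : ℝ)| ≤ ((Nat.pow 2 et : ℕ) : ℝ) / (K : ℝ) →
    ∀ A m : ℝ, InTab tab A m →
      (x ≤ (h : ℝ) / (K : ℝ) ∧ e ≤ (h : ℝ) / (K : ℝ)) ∨
        0 ≤ rT (alN x) (abN x e) t (gpN x e) A m ((gn : ℝ) / (gd : ℝ))

theorem NearOK.cut_x {gn gd h : ℕ} {tab : List ACell} {xc ex ec ey tc et : ℕ}
    (hg : Nat.pow 2 ex ≤ xc)
    (h1 : NearOK gn gd h tab (Nat.sub xc (Nat.pow 2 ex)) ex ec ey tc et)
    (h2 : NearOK gn gd h tab (Nat.add xc (Nat.pow 2 ex)) ex ec ey tc et) :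
    NearOK gn gd h tab xc (ex + 1) ec ey tc et := by
  intro x e t hx he ht A m hA
  rcases cut_cover hg hx with hc | hc
  · exact h1 x e t hc he ht A m hA
  · exact h2 x e t hc he ht A m hA

theorem NearOK.cut_y {gn gd h : ℕ} {tab : List ACell} {xc ex ec ey tc et : ℕ}
    (hg : Nat.pow 2 ey ≤ ec)
    (h1 : NearOK gn gd h tab xc ex (Nat.sub ec (Nat.pow 2 ey)) ey tc et)
    (h2 : NearOK gn gd h tab xc ex (Nat.add ec (Nat.pow 2 ey)) ey tc et) :
    NearOK gn gd h tab xc ex ec (ey + 1) tc et := by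
  intro x e t hx he ht A m hA
  rcases cut_cover hg he with hc | hc
  · exact h1 x e t hx hc ht A m hA
  · exact h2 x e t hx hc ht A m hA

theorem NearOK.cut_t {gn gd h : ℕ} {tab : List ACell} {xc ex ec ey tc et : ℕ}
    (hg : Nat.pow 2 et ≤ tc)
    (h1 : NearOK gn gd h tab xc ex ec ey (Nat.sub tc (Nat.pow 2 et)) et)
    (h2 : NearOK gn gd h tab xc ex ec ey (Nat.add tc (Nat.pow 2 et)) et) :
    NearOK gn gd h tab xc ex ec ey tc (et + 1) := by
  intro x e t hx he ht A m hA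
  rcases cut_cover hg ht with hc | hc
  · exact h1 x e t hx he hc A m hA
  · exact h2 x e t hx he hc A m hA

theorem cellT_sound {gn gd h : ℕ} (hgd : 0 < gd) {tab : List ACell} :
    ∀ (T : Tr) (xc ex ec ey tc et : ℕ), cellT gn gd h tab T xc ex ec ey tc et = true →
      NearOK gn gd h tab xc ex ec ey tc et := by
  intro T
  induction T with
  | lf =>
    intro xc ex ec ey tc et hT x e t hx he ht A m hA
    right
    unfold cellT at hT
    exact nearTest_sound hgd hT hx he ht hA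
  | sk =>
    intro xc ex ec ey tc et hT x e t hx he ht A m hA
    left
    unfold cellT at hT
    simp only [Bool.and_eq_true] at hT
    obtain ⟨h1, h2⟩ := hT
    have h1' : (((Nat.add xc (Nat.pow 2 ex) : ℕ) : ℝ)) ≤ (h : ℝ) := by
      exact_mod_cast Nat.le_of_ble_eq_true h1
    have h2' : (((Nat.add ec (Nat.pow 2 ey) : ℕ) : ℝ)) ≤ (h : ℝ) := by
      exact_mod_cast Nat.le_of_ble_eq_true h2
    have hK := K_pos
    have e1 : ((Nat.add xc (Nat.pow 2 ex) : ℕ) : ℝ) = (xc : ℝ) + ((Nat.pow 2 ex : ℕ) : ℝ) :=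
      Nat.cast_add _ _
    have e2 : ((Nat.add ec (Nat.pow 2 ey) : ℕ) : ℝ) = (ec : ℝ) + ((Nat.pow 2 ey : ℕ) : ℝ) :=
      Nat.cast_add _ _
    rw [e1] at h1'
    rw [e2] at h2'
    have hx2 := (abs_le.1 hx).2
    have he2 := (abs_le.1 he).2
    constructor
    · have : (xc : ℝ) / (K : ℝ) + ((Nat.pow 2 ex : ℕ) : ℝ) / (K : ℝ) ≤ (h : ℝ) / (K : ℝ) := by
        rw [← add_div]
        exact div_le_div_of_nonneg_right h1' hK.le
      linarith
    · have : (ec : ℝ) / (K : ℝ) + ((Nat.pow 2 ey : ℕ) : ℝ) / (K : ℝ) ≤ (h : ℝ) / (K : ℝ) := by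
        rw [← add_div]
        exact div_le_div_of_nonneg_right h2' hK.le
      linarith
  | nd l r ihl ihr =>
    intro xc ex ec ey tc et hT
    unfold cellT at hT
    split at hT
    · simp only [Bool.and_eq_true] at hT
      obtain ⟨⟨g, h1⟩, h2⟩ := hT
      exact NearOK.cut_x (Nat.le_of_ble_eq_true g) (ihl _ _ _ _ _ _ h1) (ihr _ _ _ _ _ _ h2)
    · simp only [Bool.and_eq_true] at hT
      obtain ⟨⟨g, h1⟩, h2⟩ := hT
      exact NearOK.cut_y (Nat.le_of_ble_eq_true g) (ihl _ _ _ _ _ _ h1) (ihr _ _ _ _ _ _ h2)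
    · simp only [Bool.and_eq_true] at hT
      obtain ⟨⟨g, h1⟩, h2⟩ := hT
      exact NearOK.cut_t (Nat.le_of_ble_eq_true g) (ihl _ _ _ _ _ _ h1) (ihr _ _ _ _ _ _ h2)
    · simp at hT

/-! ### far cells -/

/-- what is shown for a far cell -/
def FarOK (gn gd eab eG : ℕ) (tab : List ACell) (xc ex tc et : ℕ) : Prop :=
  ∀ x t ab GP : ℝ, |x - (xc : ℝ) / (K : ℝ)| ≤ ((Nat.pow 2 ex : ℕ) : ℝ) / (K : ℝ) →
    |t - (tc : ℝ) / (K : ℝ)| ≤ ((Nat.pow 2 et : ℕ) : ℝ) / (K : ℝ) →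
    |ab| ≤ (eab : ℝ) / (K : ℝ) → |GP| ≤ (eG : ℝ) / (K : ℝ) →
    ∀ A m : ℝ, InTab tab A m → 0 ≤ rT (alN x) ab t GP A m ((gn : ℝ) / (gd : ℝ))

theorem rel_const0 {c : ℝ} {e : ℕ} (h : |c| ≤ (e : ℝ) / (K : ℝ)) : Rel (fun _ => c) (mkC 0 0 e) := by
  apply rel_mkC
  simpa using h

theorem farTest_sound {gn gd eab eG xc ex tc et : ℕ} (hgd : 0 < gd) {tab : List ACell}
    (h : farTest gn gd eab eG tab xc (Nat.pow 2 ex) tc (Nat.pow 2 et) = true) :
    FarOK gn gd eab eG tab xc ex tc et := by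
  intro x t ab GP hx ht hab hGP A m hA
  unfold farTest at h
  simp only at h
  have hxi := rel_var1 xc (Nat.pow 2 ex)
  have htt := rel_var3 tc (Nat.pow 2 et)
  obtain ⟨x3, hx3, h⟩ := sclC_spec (by norm_num) hxi h
  obtain ⟨al, hal, h⟩ := expC_spec hx3.neg h
  have hal' : Rel (fun s => alN (((xc : ℝ) + ((Nat.pow 2 ex : ℕ) : ℝ) * s.1) / (K : ℝ))) al :=
    hal.congr (fun s => by
      simp only [alN, Nat.cast_ofNat, Nat.cast_one]; congr 1; ring)
  obtain ⟨_, X, Q, Y, U, h1, h2, h3, h4, h5⟩ :=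
    dataC_spec hal' (rel_const0 hab) htt (rel_const0 hGP) h
  obtain ⟨s1, hs1, e1⟩ := exists_cube (pow_pos' ex) K_pos hx
  obtain ⟨s3, hs3, e3⟩ := exists_cube (pow_pos' et) K_pos ht
  have := data_sound h1 h2 h3 h4 hgd h5 (s1, 0, s3) ⟨hs1, by simp, hs3⟩ A m hA
  simp only [e1, e3] at this
  exact this

theorem FarOK.cut_x {gn gd eab eG : ℕ} {tab : List ACell} {xc ex tc et : ℕ}
    (hg : Nat.pow 2 ex ≤ xc)
    (h1 : FarOK gn gd eab eG tab (Nat.sub xc (Nat.pow 2 ex)) ex tc et)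
    (h2 : FarOK gn gd eab eG tab (Nat.add xc (Nat.pow 2 ex)) ex tc et) :
    FarOK gn gd eab eG tab xc (ex + 1) tc et := by
  intro x t ab GP hx ht hab hGP A m hA
  rcases cut_cover hg hx with hc | hc
  · exact h1 x t ab GP hc ht hab hGP A m hA
  · exact h2 x t ab GP hc ht hab hGP A m hA

theorem FarOK.cut_t {gn gd eab eG : ℕ} {tab : List ACell} {xc ex tc et : ℕ}
    (hg : Nat.pow 2 et ≤ tc)
    (h1 : FarOK gn gd eab eG tab xc ex (Nat.sub tc (Nat.pow 2 et)) et)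
    (h2 : FarOK gn gd eab eG tab xc ex (Nat.add tc (Nat.pow 2 et)) et) :
    FarOK gn gd eab eG tab xc ex tc (et + 1) := by
  intro x t ab GP hx ht hab hGP A m hA
  rcases cut_cover hg ht with hc | hc
  · exact h1 x t ab GP hx hc hab hGP A m hA
  · exact h2 x t ab GP hx hc hab hGP A m hA

theorem farT_sound {gn gd eab eG : ℕ} (hgd : 0 < gd) {tab : List ACell} :
    ∀ (T : Tr) (xc ex tc et : ℕ), farT gn gd eab eG tab T xc ex tc et = true →
      FarOK gn gd eab eG tab xc ex tc et := by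
  intro T
  induction T with
  | lf =>
    intro xc ex tc et hT
    unfold farT at hT
    exact farTest_sound hgd hT
  | sk =>
    intro xc ex tc et hT
    unfold farT at hT
    simp at hT
  | nd l r ihl ihr =>
    intro xc ex tc et hT
    unfold farT at hT
    split at hT
    · simp only [Bool.and_eq_true] at hT
      obtain ⟨⟨g, h1⟩, h2⟩ := hT
      exact FarOK.cut_x (Nat.le_of_ble_eq_true g) (ihl _ _ _ _ h1) (ihr _ _ _ _ h2)
    · simp only [Bool.and_eq_true] at hT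
      obtain ⟨⟨g, h1⟩, h2⟩ := hT
      exact FarOK.cut_t (Nat.le_of_ble_eq_true g) (ihl _ _ _ _ h1) (ihr _ _ _ _ h2)
    · simp at hT

/-- what is shown for a cell at the vertex -/
def VertexOK (gn gd eab eG : ℕ) (tab : List ACell) (tc et : ℕ) : Prop :=
  ∀ t al ab GP : ℝ, |t - (tc : ℝ) / (K : ℝ)| ≤ ((Nat.pow 2 et : ℕ) : ℝ) / (K : ℝ) →
    |al| ≤ (eab : ℝ) / (K : ℝ) → |ab| ≤ (eab : ℝ) / (K : ℝ) → |GP| ≤ (eG : ℝ) / (K : ℝ) →
    ∀ A m : ℝ, InTab tab A m → 0 ≤ rT al ab t GP A m ((gn : ℝ) / (gd : ℝ))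

theorem vertexT_sound {gn gd eab eG : ℕ} (hgd : 0 < gd) {tab : List ACell} :
    ∀ (T : Tr) (tc et : ℕ), vertexT gn gd eab eG tab T tc et = true →
      VertexOK gn gd eab eG tab tc et := by
  intro T
  induction T with
  | lf =>
    intro tc et hT t al ab GP ht hal hab hGP A m hA
    unfold vertexT vertexTest at hT
    simp only at hT
    have htt := rel_var3 tc (Nat.pow 2 et)
    obtain ⟨_, X, Q, Y, U, h1, h2, h3, h4, h5⟩ :=
      dataC_spec (rel_const0 hal) (rel_const0 hab) htt (rel_const0 hGP) hT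
    obtain ⟨s3, hs3, e3⟩ := exists_cube (pow_pos' et) K_pos ht
    have := data_sound h1 h2 h3 h4 hgd h5 (0, 0, s3) ⟨by simp, by simp, hs3⟩ A m hA
    simp only [e3] at this
    exact this
  | sk =>
    intro tc et hT
    unfold vertexT at hT
    simp at hT
  | nd l r ihl ihr =>
    intro tc et hT t al ab GP ht hal hab hGP A m hA
    unfold vertexT at hT
    cases et with
    | zero => simp at hT
    | succ et' =>
      simp only [Bool.and_eq_true] at hT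
      obtain ⟨⟨g, h1⟩, h2⟩ := hT
      rcases cut_cover (Nat.le_of_ble_eq_true g) ht with hc | hc
      · exact ihl _ _ h1 t al ab GP hc hal hab hGP A m hA
      · exact ihr _ _ h2 t al ab GP hc hal hab hGP A m hA

end

end Vale.Agent.Lib.P154.TM
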