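import Vale.Agent.Lib.P154.TM.Flat

/-!
The program of the Taylor models: models, elementary functions, the row of the potential, the
recursion over the exponent and over cells. All functions evaluate their arguments before going on.
-/

namespace Vale.Agent.Lib.P154.TM

/-- the unit: numbers are in units of `1 / K` -/
def K : Nat := 1152921504606846976

/-- a model: value `(ev pos - ev neg) / K`, error `e / K` -/
structure Md where
  pos : V
  neg : V
  e : Nat

def mkC (p n e : Nat) : Md := ⟨cstV p, cstV n, e⟩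
def oneM : Md := mkC K 0 0

def negM (x : Md) : Md := ⟨x.neg, x.pos, x.e⟩

def addC (x y : Md) (k : Md → Bool) : Bool :=
  fV (fun A => fV (fun B =>
    fV (fun p => fV (fun n => fN (Nat.add x.e y.e) (fun e => k ⟨p, n, e⟩)) (cutV B A)) (cutV A B))
      (addV x.neg y.neg)) (addV x.pos y.pos)

def subC (x y : Md) (k : Md → Bool) : Bool := addC x (negM y) k

/-- the scale by the nonnegative `num / den` -/
def sclC (num den : Nat) (x : Md) (k : Md → Bool) : Bool :=
  fV (fun p => fV (fun n =>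
    fN (Nat.add (Nat.div (Nat.mul x.e num) den) 71) (fun e => k ⟨p, n, e⟩))
      (sclV num den x.neg)) (sclV num den x.pos)

/-- the scale by the signed `(cp - cn) / den` -/
def sclS (cp cn den : Nat) (x : Md) (k : Md → Bool) : Bool :=
  if Nat.ble cn cp then sclC (Nat.sub cp cn) den x k else sclC (Nat.sub cn cp) den (negM x) k

def mulC (x y : Md) (k : Md → Bool) : Bool :=
  fN (Nat.add (majV x.pos) (majV x.neg)) fun mx =>
  fN (Nat.add (majV y.pos) (majV y.neg)) fun my =>
  fV (fun A => fV (fun B =>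
    fN (Nat.sub (Nat.mul mx my) (Nat.add (majV A) (majV B))) fun hi =>
    fV (fun p => fV (fun n =>
      fN (Nat.add (Nat.div (Nat.add hi (Nat.add (Nat.mul x.e (Nat.add my y.e)) (Nat.mul mx y.e))) K)
        71) fun e => k ⟨p, n, e⟩)
      (fixV K B A)) (fixV K A B))
    (addV (mulV x.pos y.neg) (mulV x.neg y.pos))) (addV (mulV x.pos y.pos) (mulV x.neg y.neg))

/-- the sum of all coefficients and the error: a bound of the absolute value -/
def absM (x : Md) : Nat := Nat.add (Nat.add (majV x.pos) (majV x.neg)) x.e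

/-- the model without its constant coefficient -/
def dropM (x : Md) : Md := ⟨dropV x.pos, dropV x.neg, x.e⟩

/-! ### constants -/

/-- Horner for the exponential of `x / (K * 2 ^ j)` with an error term -/
def expS (den x : Nat) : Nat → Nat → Nat → (Nat → Nat → Bool) → Bool
  | 0, r, e, k => k r e
  | n + 1, r, e, k =>
    fN (Nat.add K (Nat.div (Nat.mul r x) (Nat.mul den (n + 1)))) fun r' =>
    fN (Nat.add (Nat.div (Nat.mul e x) (Nat.mul den (n + 1))) 2) fun e' =>
    expS den x n r' e' k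

/-- squarings of a bracket -/
def sqS : Nat → Nat → Nat → (Nat → Nat → Bool) → Bool
  | 0, v, e, k => k v e
  | j + 1, v, e, k =>
    fN (Nat.div (Nat.mul v v) K) fun v' =>
    fN (Nat.add (Nat.div (Nat.mul e (Nat.add (Nat.mul 2 v) e)) K) 2) fun e' =>
    sqS j v' e' k

/-- the bracket `(v, e)` of `exp (x / K)`, that is `|exp (x / K) - v / K| <= e / K`, for
`x <= 128 K` -/
def expBr (x : Nat) (k : Nat → Nat → Bool) : Bool :=
  if Nat.ble x (Nat.mul 128 K) then
    expS (Nat.mul K 1024) x 12 K 0 fun r e =>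
    sqS 10 r (Nat.add e 1) k
  else false

/-- the bracket of `exp ((cp - cn) / K)` -/
def expSign (cp cn : Nat) (k : Nat → Nat → Bool) : Bool :=
  if Nat.ble cn cp then expBr (Nat.sub cp cn) k
  else
    expBr (Nat.sub cn cp) fun v e =>
    if Nat.ble 1 v then
      fN (Nat.div (Nat.mul K K) v) fun v' =>
      fN (Nat.add (Nat.div (Nat.mul e K) v) 2) fun e' =>
      k v' e'
    else false

/-- logarithm of two, in units of `1 / K` -/
def ln2N : Nat := 799144290325158000

/-- Newton steps for `y` with `c exp y = K` in the case `c < K`, for the case `K <= c` with the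
roles exchanged. The result is checked, so nothing has to be proved about this function. -/
def newton (c : Nat) : Nat → Nat → (Nat → Bool) → Bool
  | 0, y, k => k y
  | n + 1, y, k =>
    expBr y fun v _ =>
    fN (Nat.div (Nat.mul c v) K) fun E =>
    fN (if Nat.ble E K then
          Nat.add y (Nat.div (Nat.mul (Nat.mul 2 K) (Nat.sub K E)) (Nat.add K E))
        else Nat.sub y (Nat.div (Nat.mul (Nat.mul 2 K) (Nat.sub E K)) (Nat.add K E))) fun y' =>
    newton c n y' k

/-- Newton steps for `y` with `exp y = c` -/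
def newton2 (c : Nat) : Nat → Nat → (Nat → Bool) → Bool
  | 0, y, k => k y
  | n + 1, y, k =>
    expBr y fun v _ =>
    fN (if Nat.ble v c then
          Nat.add y (Nat.div (Nat.mul (Nat.mul 2 K) (Nat.sub c v)) (Nat.add c v))
        else Nat.sub y (Nat.div (Nat.mul (Nat.mul 2 K) (Nat.sub v c)) (Nat.add c v))) fun y' =>
    newton2 c n y' k

/-- the bracket of a logarithm: `|log (c / K) - (p - n) / K| <= e / K` -/
def logS (c : Nat) (k : Nat → Nat → Nat → Bool) : Bool :=
  if Nat.ble K c then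
    newton2 c 4 (Nat.mul (Nat.sub (Nat.log2 c) 60) ln2N) fun y =>
    expBr y fun v e =>
    fN (Nat.add (Nat.div (Nat.mul (Nat.add (Nat.add (Nat.sub v c) (Nat.sub c v)) e) K) c) 1) fun h =>
    if Nat.ble (Nat.mul 2 h) K then k y 0 (Nat.mul 2 h) else false
  else
    newton c 4 (Nat.mul (Nat.sub 60 (Nat.log2 c)) ln2N) fun y =>
    expBr y fun v e =>
    fN (Nat.add (Nat.div (Nat.add (Nat.add (Nat.sub (Nat.mul c v) (Nat.mul K K))
      (Nat.sub (Nat.mul K K) (Nat.mul c v))) (Nat.mul c e)) K) 1) fun h =>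
    if Nat.ble (Nat.mul 2 h) K then k 0 y (Nat.mul 2 h) else false

/-! ### functions of a model -/

/-- Horner for the exponential -/
def expH (g : Md) : Nat → Md → (Md → Bool) → Bool
  | 0, r, k => k r
  | n + 1, r, k =>
    mulC r g fun z => sclC 1 (n + 1) z fun z' => addC oneM z' fun r' => expH g n r' k

/-- the exponential of a model with degree six of the series; the remainder is
`rho ^ 7 * 2 / 7!` for `rho <= 4` -/
def expC (x : Md) (k : Md → Bool) : Bool :=
  fN (absM (dropM x)) fun rho =>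
  if Nat.ble rho (Nat.mul 4 K) then
    expH (dropM x) 6 oneM fun r =>
    expSign (c0V x.pos) (c0V x.neg) fun v e =>
    fN (Nat.add (Nat.div (Nat.div (Nat.pow rho 7) (Nat.pow K 6)) 2520) 2) fun rem =>
    mulC (mkC v 0 e) ⟨r.pos, r.neg, Nat.add r.e rem⟩ k
  else false

/-- Horner for `x (1 + x / 2 (...))` without the last factor -/
def logH (x : Md) : Nat → Md → (Md → Bool) → Bool
  | 0, r, k => k r
  | m + 1, r, k =>
    mulC x r fun z => addC (mkC (Nat.div K (m + 1)) 0 1) z fun r' => logH x m r' k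

/-- the logarithm of a model with degree six of the series; the remainder is
`rho ^ 7 / (7 (1 - rho))` for `2 rho <= 1`  -/
def logC (x : Md) (k : Md → Bool) : Bool :=
  fN (Nat.sub (c0V x.pos) (c0V x.neg)) fun c =>
  if Nat.ble 1 c && Nat.ble (c0V x.neg) (c0V x.pos) then
    mulC (mkC (Nat.div (Nat.mul K K) c) 0 1) (negM (dropM x)) fun y =>
    fN (absM y) fun rho =>
    if Nat.ble (Nat.mul 2 rho) K then
      logH y 5 (mkC (Nat.div K 6) 0 1) fun r =>
      mulC y r fun z =>
      logS c fun lp ln le =>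
      fN (Nat.add (Nat.div (Nat.div (Nat.pow rho 7) (Nat.pow K 5)) (Nat.mul 7 (Nat.sub K rho))) 2) fun rem =>
      addC (mkC lp ln (Nat.add le rem)) (negM z) k
    else false
  else false

/-! ### the row -/

/-- the coefficient `c0 = 369 / 256`; `c2 = - 595 / 4608`, `c3 = 143 / 4608`. The data are
`X = D t^2 Phi(a)`, `QD = D t^2`, `Y = D (c0 t^2 - phi(b))`, `U = D u(b)`. -/
def dataC (al ab tt GP : Md) (k : Md → Md → Md → Md → Bool) : Bool :=
  addC oneM al fun d1 => addC d1 ab fun Dn =>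
  addC oneM tt fun u1 => sclC 1 3 u1 fun mu =>
  mulC mu Dn fun muD =>
  subC muD tt fun B1 =>
  mulC tt al fun ta => subC muD ta fun B2 =>
  mulC tt ab fun tb => subC muD tb fun B3 =>
  logC B1 fun L1 => logC B2 fun L2 => logC B3 fun L3 =>
  addC L1 L2 fun S1 => addC S1 L3 fun S => sclC 1 3 S fun Lm =>
  subC L1 Lm fun v1 => subC L2 Lm fun v2 => subC L3 Lm fun v3 =>
  mulC v1 v1 fun s1 => mulC v2 v2 fun s2 => mulC v3 v3 fun s3 =>
  addC s1 s2 fun p0 => addC p0 s3 fun P2b =>
  mulC s1 v1 fun c1 => mulC s2 v2 fun c2 => mulC s3 v3 fun c3 =>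
  addC c1 c2 fun p1 => addC p1 c3 fun P3b =>
  expC Lm fun eL => sclC 3 1 eL fun Eb =>
  sclC 143 4608 P3b fun q3 => sclC 595 4608 P2b fun q2 => subC q3 q2 fun ph =>
  mulC Eb ph fun Ph =>
  subC Dn Eb fun U =>
  mulC tt tt fun Q =>
  mulC Q Dn fun QD =>
  sclC 369 256 QD fun c0QD =>
  subC c0QD Ph fun Y =>
  sclC 369 256 Dn fun c0D =>
  subC c0D GP fun DPhi =>
  mulC Q DPhi fun X =>
  k X QD Y U

/-- the cell in the middle of the simplex: `xi = (xc + xw s1) / K`, `eta = (ec + ew s2) / K`,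
`t = (tc + tw s3) / K` -/
def nearC (xc xw ec ew tc tw : Nat) (k : Md → Md → Md → Md → Bool) : Bool :=
  let xi : Md := ⟨var1V xc xw, zeroV, 0⟩
  let eta : Md := ⟨var2V ec ew, zeroV, 0⟩
  let tt : Md := ⟨var3V tc tw, zeroV, 0⟩
  sclC 3 1 xi fun x3 => expC (negM x3) fun al =>
  sclC 3 1 eta fun e3 => addC x3 e3 fun xe3 => expC (negM xe3) fun ab =>
  sclC 2 1 xi fun x2 => addC x2 eta fun x2e => expC (negM x2e) fun ga =>
  mulC xi xi fun xx => mulC xi eta fun xe => mulC eta eta fun ee =>
  addC xx xe fun p0 => addC p0 ee fun p1 => sclC 6 1 p1 fun P2 =>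
  mulC xx xi fun xxx => mulC xx eta fun xxe => mulC xe eta fun xee => mulC ee eta fun eee =>
  sclC 2 1 xxx fun a1 => sclC 3 1 xxe fun a2 => sclC 3 1 xee fun a3 => sclC 2 1 eee fun a4 =>
  addC a1 a2 fun b1 => addC a3 a4 fun b2 => subC b1 b2 fun b3 => sclC 3 1 b3 fun P3 =>
  sclC 595 4608 P2 fun w2 => sclC 143 4608 P3 fun w3 =>
  addC (mkC (Nat.div (Nat.mul 369 K) 256) 0 0) w2 fun w4 => subC w4 w3 fun Pi =>
  mulC ga Pi fun gPi => sclC 3 1 gPi fun GP =>
  dataC al ab tt GP k

/-- a lower bound `(p - n) / K` of a model -/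
def lowP (x : Md) : Nat := c0V x.pos
def lowN (x : Md) : Nat :=
  Nat.add (Nat.add (majV (dropV x.pos)) (Nat.add (c0V x.neg) (majV (dropV x.neg)))) x.e

/-- an upper bound of a model -/
def upP (x : Md) : Nat :=
  Nat.add (Nat.add (c0V x.pos) (majV (dropV x.pos))) (Nat.add (majV x.neg) x.e)

/-- the test on the cell `A = (Ac +- w) / K`, with `m = mc / (1024 K) - kI / 1024 (A - Ac / K)`,
the parameter `g = gn / gd`: `D t^2 Row >= 0` for all these `A`, in all of the cube. -/
def aTest (X Q Y U : Md) (gn gd kI w Ac mc : Nat) : Bool :=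
  expSign 0 Ac fun v0 e0 =>
  fN (Nat.sub v0 e0) fun v =>
  -- C1 = mc Ac / (1024 K K) - 369 / 256 - gn Ac Ac / (gd K K)
  fN (Nat.mul (Nat.mul K K) (Nat.mul 262144 gd)) fun den1 =>
  fN (Nat.mul (Nat.mul mc Ac) (Nat.mul 256 gd)) fun cp =>
  fN (Nat.add (Nat.mul 369 (Nat.mul (Nat.mul K K) (Nat.mul 1024 gd)))
    (Nat.mul (Nat.mul gn (Nat.mul Ac Ac)) 262144)) fun cn =>
  -- C2 = mc / (1024 K) - kI Ac / (1024 K) - 2 gn Ac / (gd K)
  fN (Nat.mul K (Nat.mul 1024 gd)) fun den2 =>
  fN (Nat.mul mc gd) fun dp =>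
  fN (Nat.add (Nat.mul kI (Nat.mul Ac gd)) (Nat.mul 2048 (Nat.mul gn Ac))) fun dn =>
  sclS cp cn den1 Q fun q1 =>
  sclC v K Y fun y1 =>
  sclC mc (Nat.mul 1024 K) U fun u1 =>
  addC X q1 fun l1 => addC l1 y1 fun l2 => subC l2 u1 fun L0 =>
  sclS dp dn den2 Q fun q2 =>
  sclC kI 1024 U fun u2 =>
  subC q2 y1 fun l3 => addC l3 u2 fun L1 =>
  let kgN := Nat.add (Nat.mul kI gd) (Nat.mul 1024 gn)
  let kgD := Nat.mul 1024 gd
  Nat.ble (Nat.add (Nat.mul (Nat.add (Nat.mul (lowN L0) (Nat.mul K K))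
      (Nat.mul w (Nat.mul (absM L1) K))) kgD) (Nat.mul (Nat.mul w w) (Nat.mul kgN (upP Q))))
    (Nat.mul (lowP L0) (Nat.mul (Nat.mul K K) kgD))

/-- the recursion over the exponent: half width `2 ^ e / K` -/
def aRec (X Q Y U : Md) (gn gd kI : Nat) : Nat → Nat → Nat → Nat → Bool
  | 0, e, Ac, mc => aTest X Q Y U gn gd kI (Nat.pow 2 e) Ac mc
  | f + 1, e, Ac, mc =>
    if aTest X Q Y U gn gd kI (Nat.pow 2 e) Ac mc then true
    else
      match e with
      | 0 => false
      | e' + 1 =>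
        Nat.ble (Nat.pow 2 e') Ac && Nat.ble (Nat.mul kI (Nat.pow 2 e')) mc
        && aRec X Q Y U gn gd kI f e' (Nat.sub Ac (Nat.pow 2 e')) (Nat.add mc (Nat.mul kI (Nat.pow 2 e')))
        && aRec X Q Y U gn gd kI f e' (Nat.add Ac (Nat.pow 2 e')) (Nat.sub mc (Nat.mul kI (Nat.pow 2 e')))

/-- an initial cell of the exponent: half width `2 ^ e / K`, centre `Ac`, slope `kI`, `mc` -/
structure ACell where
  e : Nat
  Ac : Nat
  kI : Nat
  mc : Nat

/-- all cells of a table -/
def aAll (X Q Y U : Md) (gn gd : Nat) : List ACell → Bool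
  | [] => true
  | c :: l => aRec X Q Y U gn gd c.kI 14 c.e c.Ac c.mc && aAll X Q Y U gn gd l

/-- the test of a cell in the middle, over a table -/
def nearTest (gn gd : Nat) (tab : List ACell) (xc xw ec ew tc tw : Nat) : Bool :=
  nearC xc xw ec ew tc tw fun X Q Y U =>
  Nat.ble (lowN Y) (lowP Y) && aAll X Q Y U gn gd tab

/-- the test of a far cell: `eta` large; `ab` and `GP` are small constants -/
def farTest (gn gd eab eG : Nat) (tab : List ACell) (xc xw tc tw : Nat) : Bool :=
  let xi : Md := ⟨var1V xc xw, zeroV, 0⟩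
  let tt : Md := ⟨var3V tc tw, zeroV, 0⟩
  sclC 3 1 xi fun x3 => expC (negM x3) fun al =>
  dataC al (mkC 0 0 eab) tt (mkC 0 0 eG) fun X Q Y U =>
  Nat.ble (lowN Y) (lowP Y) && aAll X Q Y U gn gd tab

/-- the test of a far cell: `xi` large; `al`, `ab` and `GP` are small constants -/
def vertexTest (gn gd eab eG : Nat) (tab : List ACell) (tc tw : Nat) : Bool :=
  let tt : Md := ⟨var3V tc tw, zeroV, 0⟩
  dataC (mkC 0 0 eab) (mkC 0 0 eab) tt (mkC 0 0 eG) fun X Q Y U =>
  Nat.ble (lowN Y) (lowP Y) && aAll X Q Y U gn gd tab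

/-- the certificate: where the cells are cut, and the cells which are skipped -/
inductive Tr where
  /-- the test is done on this cell -/
  | lf : Tr
  /-- the cell is in the central box -/
  | sk : Tr
  /-- the cell is cut -/
  | nd : Tr → Tr → Tr

/-- the direction of the cut: first `xi`, then `eta`, then `t` -/
def cutDir (ex ey et : Nat) : Nat :=
  if Nat.ble ey ex && Nat.ble (Nat.add et 1) ex then 0
  else if Nat.ble (Nat.add et 1) ey then 1 else 2

/-- the recursion over the cells of the middle; half widths `2 ^ ex / K` and so on. Cells in the central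
box `max xi eta <= h` need no test. -/
def cellT (gn gd h : Nat) (tab : List ACell) : Tr → Nat → Nat → Nat → Nat → Nat → Nat → Bool
  | Tr.lf, xc, ex, ec, ey, tc, et =>
    nearTest gn gd tab xc (Nat.pow 2 ex) ec (Nat.pow 2 ey) tc (Nat.pow 2 et)
  | Tr.sk, xc, ex, ec, ey, _, _ =>
    Nat.ble (Nat.add xc (Nat.pow 2 ex)) h && Nat.ble (Nat.add ec (Nat.pow 2 ey)) h
  | Tr.nd l r, xc, ex, ec, ey, tc, et =>
    match cutDir ex ey et, ex, ey, et with
    | 0, ex' + 1, _, _ =>
      Nat.ble (Nat.pow 2 ex') xc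
      && cellT gn gd h tab l (Nat.sub xc (Nat.pow 2 ex')) ex' ec ey tc et
      && cellT gn gd h tab r (Nat.add xc (Nat.pow 2 ex')) ex' ec ey tc et
    | 1, _, ey' + 1, _ =>
      Nat.ble (Nat.pow 2 ey') ec
      && cellT gn gd h tab l xc ex (Nat.sub ec (Nat.pow 2 ey')) ey' tc et
      && cellT gn gd h tab r xc ex (Nat.add ec (Nat.pow 2 ey')) ey' tc et
    | 2, _, _, et' + 1 =>
      Nat.ble (Nat.pow 2 et') tc
      && cellT gn gd h tab l xc ex ec ey (Nat.sub tc (Nat.pow 2 et')) et'
      && cellT gn gd h tab r xc ex ec ey (Nat.add tc (Nat.pow 2 et')) et'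
    | _, _, _, _ => false

/-- the recursion over far cells -/
def farT (gn gd eab eG : Nat) (tab : List ACell) : Tr → Nat → Nat → Nat → Nat → Bool
  | Tr.lf, xc, ex, tc, et => farTest gn gd eab eG tab xc (Nat.pow 2 ex) tc (Nat.pow 2 et)
  | Tr.sk, _, _, _, _ => false
  | Tr.nd l r, xc, ex, tc, et =>
    match Nat.ble (Nat.add et 3) ex, ex, et with
    | true, ex' + 1, _ =>
      Nat.ble (Nat.pow 2 ex') xc
      && farT gn gd eab eG tab l (Nat.sub xc (Nat.pow 2 ex')) ex' tc et
      && farT gn gd eab eG tab r (Nat.add xc (Nat.pow 2 ex')) ex' tc et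
    | false, _, et' + 1 =>
      Nat.ble (Nat.pow 2 et') tc
      && farT gn gd eab eG tab l xc ex (Nat.sub tc (Nat.pow 2 et')) et'
      && farT gn gd eab eG tab r xc ex (Nat.add tc (Nat.pow 2 et')) et'
    | _, _, _ => false

/-- the recursion over the cells of the vertex -/
def vertexT (gn gd eab eG : Nat) (tab : List ACell) : Tr → Nat → Nat → Bool
  | Tr.lf, tc, et => vertexTest gn gd eab eG tab tc (Nat.pow 2 et)
  | Tr.sk, _, _ => false
  | Tr.nd l r, tc, et =>
    match et with
    | 0 => false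
    | et' + 1 =>
      Nat.ble (Nat.pow 2 et') tc
      && vertexT gn gd eab eG tab l (Nat.sub tc (Nat.pow 2 et')) et'
      && vertexT gn gd eab eG tab r (Nat.add tc (Nat.pow 2 et')) et'

end Vale.Agent.Lib.P154.TM
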