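import Vale.Agent.Lib.P154.TM.Sound

/-!
Soundness of the brackets of constants: exponential, exponential of a signed number, logarithm.
-/

namespace Vale.Agent.Lib.P154.TM

/-! ### floors -/

private lemma natDiv_cast_le (a b : ℕ) : ((Nat.div a b : ℕ) : ℝ) ≤ (a : ℝ) / (b : ℝ) :=
  Nat.cast_div_le

private lemma natDiv_cast_add_one (a b : ℕ) (hb : 0 < b) :
    (a : ℝ) / (b : ℝ) ≤ ((Nat.div a b : ℕ) : ℝ) + 1 := by
  have hb' : (0 : ℝ) < b := by exact_mod_cast hb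
  rw [div_le_iff₀ hb']
  have h1 : a < b * (a / b + 1) := Nat.lt_mul_div_succ a hb
  have h2 : (a : ℝ) ≤ (b : ℝ) * (((a / b : ℕ) : ℝ) + 1) := by
    have h3 : a ≤ b * (a / b + 1) := h1.le
    exact_mod_cast h3
  have h4 : ((Nat.div a b : ℕ) : ℝ) = ((a / b : ℕ) : ℝ) := rfl
  rw [h4]
  linarith

/-- the absolute value of a difference of naturals -/
private lemma natSub_abs (a b : ℕ) :
    ((Nat.add (Nat.sub a b) (Nat.sub b a) : ℕ) : ℝ) = |(a : ℝ) - (b : ℝ)| := by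
  show (((a - b) + (b - a) : ℕ) : ℝ) = _
  rcases le_total a b with h | h
  · have h1 : a - b = 0 := Nat.sub_eq_zero_of_le h
    have h2 : (a : ℝ) ≤ b := by exact_mod_cast h
    rw [h1, Nat.zero_add, Nat.cast_sub h, abs_of_nonpos (by linarith)]
    ring
  · have h1 : b - a = 0 := Nat.sub_eq_zero_of_le h
    have h2 : (b : ℝ) ≤ a := by exact_mod_cast h
    rw [h1, Nat.add_zero, Nat.cast_sub h, abs_of_nonneg (by linarith)]

/-! ### real steps -/

private lemma horner_step (κ R r e w F1 F2 : ℝ) (hκ : 0 < κ) (hw : 0 ≤ w)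
    (hR : |R - r / κ| ≤ e / κ) (h1 : F1 ≤ r * w) (h2 : r * w ≤ F1 + 1) (h3 : e * w ≤ F2 + 1) :
    |(1 + w * R) - (κ + F1) / κ| ≤ (F2 + 2) / κ := by
  have heq : (1 + w * R) - (κ + F1) / κ = (r * w - F1) / κ + w * (R - r / κ) := by
    field_simp
    ring
  rw [heq]
  have h4 : |(r * w - F1) / κ| ≤ 1 / κ := by
    rw [abs_div, abs_of_pos hκ]
    apply div_le_div_of_nonneg_right _ hκ.le
    rw [abs_le]
    constructor <;> linarith
  have h5 : |w * (R - r / κ)| ≤ w * (e / κ) := by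
    rw [abs_mul, abs_of_nonneg hw]
    exact mul_le_mul_of_nonneg_left hR hw
  have h6 : w * (e / κ) = (e * w) / κ := by ring
  calc |(r * w - F1) / κ + w * (R - r / κ)|
      ≤ |(r * w - F1) / κ| + |w * (R - r / κ)| := abs_add_le _ _
    _ ≤ 1 / κ + (e * w) / κ := by rw [← h6]; exact add_le_add h4 h5
    _ = (1 + e * w) / κ := by ring
    _ ≤ (F2 + 2) / κ := by
        apply div_le_div_of_nonneg_right _ hκ.le
        linarith

private lemma sq_step (κ a v e V' E' : ℝ) (hκ : 0 < κ) (he : 0 ≤ e) (hv : 0 ≤ v)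
    (ha : |a - v / κ| ≤ e / κ) (h1 : V' ≤ v * v / κ) (h2 : v * v / κ ≤ V' + 1)
    (h3 : e * (2 * v + e) / κ ≤ E' + 1) :
    |a * a - V' / κ| ≤ (E' + 2) / κ := by
  set D := a - v / κ with hD
  have heq : a * a - V' / κ = D * (2 * v / κ + D) + (v * v / κ - V') / κ := by
    rw [hD]
    field_simp
    ring
  rw [heq]
  have h4 : |(v * v / κ - V') / κ| ≤ 1 / κ := by
    rw [abs_div, abs_of_pos hκ]
    apply div_le_div_of_nonneg_right _ hκ.le
    rw [abs_le]
    constructor <;> linarith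
  have hvκ : 0 ≤ 2 * v / κ := by positivity
  have h5 : |D * (2 * v / κ + D)| ≤ (e / κ) * (2 * v / κ + e / κ) := by
    rw [abs_mul]
    have h6 : |2 * v / κ + D| ≤ 2 * v / κ + e / κ := by
      calc |2 * v / κ + D| ≤ |2 * v / κ| + |D| := abs_add_le _ _
        _ = 2 * v / κ + |D| := by rw [abs_of_nonneg hvκ]
        _ ≤ 2 * v / κ + e / κ := by linarith
    exact mul_le_mul ha h6 (abs_nonneg _) (by positivity)
  have h7 : (e / κ) * (2 * v / κ + e / κ) = (e * (2 * v + e) / κ) / κ := by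
    field_simp
  calc |D * (2 * v / κ + D) + (v * v / κ - V') / κ|
      ≤ |D * (2 * v / κ + D)| + |(v * v / κ - V') / κ| := abs_add_le _ _
    _ ≤ (e * (2 * v + e) / κ) / κ + 1 / κ := by rw [← h7]; exact add_le_add h5 h4
    _ = (e * (2 * v + e) / κ + 1) / κ := by ring
    _ ≤ (E' + 2) / κ := by
        apply div_le_div_of_nonneg_right _ hκ.le
        linarith

private lemma inv_step (κ y v e V' E' : ℝ) (hκ : 0 < κ) (hy : 1 ≤ y) (hv : 1 ≤ v) (he : 0 ≤ e)
    (ha : |y - v / κ| ≤ e / κ) (h1 : V' ≤ κ * κ / v) (h2 : κ * κ / v ≤ V' + 1)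
    (h3 : e * κ / v ≤ E' + 1) :
    |y⁻¹ - V' / κ| ≤ (E' + 2) / κ := by
  have hy0 : 0 < y := by linarith
  have hv0 : 0 < v := by linarith
  have heq : y⁻¹ - V' / κ = κ * (v / κ - y) / (y * v) + (κ * κ / v - V') / κ := by
    field_simp
    ring
  rw [heq]
  have h4 : |(κ * κ / v - V') / κ| ≤ 1 / κ := by
    rw [abs_div, abs_of_pos hκ]
    apply div_le_div_of_nonneg_right _ hκ.le
    rw [abs_le]
    constructor <;> linarith
  have h5 : |κ * (v / κ - y) / (y * v)| ≤ e / v := by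
    rw [abs_div, abs_mul, abs_of_pos hκ, abs_of_pos (mul_pos hy0 hv0), abs_sub_comm]
    have h6 : κ * |y - v / κ| ≤ e := by
      calc κ * |y - v / κ| ≤ κ * (e / κ) := mul_le_mul_of_nonneg_left ha hκ.le
        _ = e := by field_simp
    rw [div_le_div_iff₀ (mul_pos hy0 hv0) hv0]
    have h7 : e * v ≤ e * (y * v) := by
      apply mul_le_mul_of_nonneg_left _ he
      nlinarith
    calc κ * |y - v / κ| * v ≤ e * v := mul_le_mul_of_nonneg_right h6 hv0.le
      _ ≤ e * (y * v) := h7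
  calc |κ * (v / κ - y) / (y * v) + (κ * κ / v - V') / κ|
      ≤ |κ * (v / κ - y) / (y * v)| + |(κ * κ / v - V') / κ| := abs_add_le _ _
    _ ≤ e / v + 1 / κ := add_le_add h5 h4
    _ = (e * κ / v + 1) / κ := by field_simp
    _ ≤ (E' + 2) / κ := by
        apply div_le_div_of_nonneg_right _ hκ.le
        linarith

private lemma log_one_add_bound (u : ℝ) (hu : |u| ≤ 1 / 2) : |Real.log (1 + u)| ≤ 2 * |u| := by
  have hu2 := abs_le.mp hu
  have hpos : 0 < 1 + u := by linarith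
  have h1 : Real.log (1 + u) ≤ u := by
    have := Real.log_le_sub_one_of_pos hpos
    linarith
  have h2 : 1 - (1 + u)⁻¹ ≤ Real.log (1 + u) := Real.one_sub_inv_le_log_of_pos hpos
  have h3 : 1 - (1 + u)⁻¹ = u / (1 + u) := by
    field_simp
    ring
  rw [h3] at h2
  have h4 : -(2 * |u|) ≤ u / (1 + u) := by
    rw [le_div_iff₀ hpos]
    have h5 : -|u| ≤ u := neg_abs_le u
    have h6 : 0 ≤ |u| := abs_nonneg u
    nlinarith
  have h7 : u ≤ |u| := le_abs_self u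
  have h8 : 0 ≤ |u| := abs_nonneg u
  rw [abs_le]
  constructor <;> linarith

/-! ### Horner for the exponential -/

/-- the exact Horner scheme -/
private noncomputable def horE (y : ℝ) : ℕ → ℝ → ℝ
  | 0, R => R
  | n + 1, R => horE y n (1 + y * R / ((n : ℝ) + 1))

private lemma expS_spec (den x : ℕ) (hden : 0 < den) (n r e : ℕ) (k : ℕ → ℕ → Bool) (R : ℝ)
    (hR : |R - (r : ℝ) / (K : ℝ)| ≤ (e : ℝ) / (K : ℝ))
    (h : expS den x n r e k = true) :
    ∃ v e' : ℕ, |horE ((x : ℝ) / (den : ℝ)) n R - (v : ℝ) / (K : ℝ)| ≤ (e' : ℝ) / (K : ℝ)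
      ∧ k v e' = true := by
  induction n generalizing r e R with
  | zero => exact ⟨r, e, hR, h⟩
  | succ n ih =>
    simp only [expS, fN_eq] at h
    have hden' : (0 : ℝ) < den := by exact_mod_cast hden
    have hn' : (0 : ℝ) < (n : ℝ) + 1 := by positivity
    have hd : 0 < Nat.mul den (n + 1) := Nat.mul_pos hden (Nat.succ_pos n)
    have h1 := natDiv_cast_le (Nat.mul r x) (Nat.mul den (n + 1))
    have h2 := natDiv_cast_add_one (Nat.mul r x) (Nat.mul den (n + 1)) hd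
    have h3 := natDiv_cast_add_one (Nat.mul e x) (Nat.mul den (n + 1)) hd
    set w : ℝ := (x : ℝ) / (den : ℝ) / ((n : ℝ) + 1) with hw
    have hw0 : 0 ≤ w := by positivity
    have e1 : ((Nat.mul r x : ℕ) : ℝ) / ((Nat.mul den (n + 1) : ℕ) : ℝ) = (r : ℝ) * w := by
      simp only [Nat.mul_eq, Nat.cast_mul, Nat.cast_add, Nat.cast_one, hw]
      field_simp
    have e2 : ((Nat.mul e x : ℕ) : ℝ) / ((Nat.mul den (n + 1) : ℕ) : ℝ) = (e : ℝ) * w := by
      simp only [Nat.mul_eq, Nat.cast_mul, Nat.cast_add, Nat.cast_one, hw]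
      field_simp
    rw [e1] at h1 h2
    rw [e2] at h3
    have key := horner_step (K : ℝ) R (r : ℝ) (e : ℝ) w _ _ K_pos hw0 hR h1 h2 h3
    have hstep : |(1 + (x : ℝ) / (den : ℝ) * R / ((n : ℝ) + 1))
        - ((Nat.add K (Nat.div (Nat.mul r x) (Nat.mul den (n + 1))) : ℕ) : ℝ) / (K : ℝ)|
        ≤ ((Nat.add (Nat.div (Nat.mul e x) (Nat.mul den (n + 1))) 2 : ℕ) : ℝ) / (K : ℝ) := by
      have e3 : (x : ℝ) / (den : ℝ) * R / ((n : ℝ) + 1) = w * R := by
        rw [hw]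
        field_simp
      rw [e3]
      have e4 : ((Nat.add K (Nat.div (Nat.mul r x) (Nat.mul den (n + 1))) : ℕ) : ℝ)
          = (K : ℝ) + ((Nat.div (Nat.mul r x) (Nat.mul den (n + 1)) : ℕ) : ℝ) := by
        simp only [Nat.add_eq, Nat.cast_add]
      have e5 : ((Nat.add (Nat.div (Nat.mul e x) (Nat.mul den (n + 1))) 2 : ℕ) : ℝ)
          = ((Nat.div (Nat.mul e x) (Nat.mul den (n + 1)) : ℕ) : ℝ) + 2 := by
        simp only [Nat.add_eq, Nat.cast_add, Nat.cast_ofNat]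
      rw [e4, e5]
      exact key
    exact ih _ _ _ hstep h

private lemma horE_twelve (y : ℝ) :
    horE y 12 1 = ∑ m ∈ Finset.range 13, y ^ m / (m.factorial : ℝ) := by
  norm_num [horE, Finset.sum_range_succ, Nat.factorial]
  ring

private lemma sqS_spec (j v e : ℕ) (k : ℕ → ℕ → Bool) (a : ℝ)
    (ha : |a - (v : ℝ) / (K : ℝ)| ≤ (e : ℝ) / (K : ℝ)) (h : sqS j v e k = true) :
    ∃ v' e' : ℕ, |a ^ (2 ^ j) - (v' : ℝ) / (K : ℝ)| ≤ (e' : ℝ) / (K : ℝ) ∧ k v' e' = true := by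
  induction j generalizing v e a with
  | zero =>
    refine ⟨v, e, by simpa using ha, h⟩
  | succ j ih =>
    simp only [sqS, fN_eq] at h
    have hK' : 0 < K := by decide
    have h1 := natDiv_cast_le (Nat.mul v v) K
    have h2 := natDiv_cast_add_one (Nat.mul v v) K hK'
    have h3 := natDiv_cast_add_one (Nat.mul e (Nat.add (Nat.mul 2 v) e)) K hK'
    have e1 : ((Nat.mul v v : ℕ) : ℝ) = (v : ℝ) * v := by
      simp only [Nat.mul_eq, Nat.cast_mul]
    have e2 : ((Nat.mul e (Nat.add (Nat.mul 2 v) e) : ℕ) : ℝ) = (e : ℝ) * (2 * v + e) := by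
      simp only [Nat.mul_eq, Nat.add_eq, Nat.cast_mul, Nat.cast_add, Nat.cast_ofNat]
    rw [e1] at h1 h2
    rw [e2] at h3
    have key := sq_step (K : ℝ) a (v : ℝ) (e : ℝ) _ _ K_pos (Nat.cast_nonneg e) (Nat.cast_nonneg v)
      ha h1 h2 h3
    have hstep : |a * a - ((Nat.div (Nat.mul v v) K : ℕ) : ℝ) / (K : ℝ)|
        ≤ ((Nat.add (Nat.div (Nat.mul e (Nat.add (Nat.mul 2 v) e)) K) 2 : ℕ) : ℝ) / (K : ℝ) := by
      have e5 : ((Nat.add (Nat.div (Nat.mul e (Nat.add (Nat.mul 2 v) e)) K) 2 : ℕ) : ℝ)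
          = ((Nat.div (Nat.mul e (Nat.add (Nat.mul 2 v) e)) K : ℕ) : ℝ) + 2 := by
        simp only [Nat.add_eq, Nat.cast_add, Nat.cast_ofNat]
      rw [e5]
      exact key
    obtain ⟨v', e', hb, hk⟩ := ih _ _ _ hstep h
    refine ⟨v', e', ?_, hk⟩
    have e6 : (a * a) ^ (2 ^ j) = a ^ (2 ^ (j + 1)) := by
      rw [← pow_two, ← pow_mul, pow_succ' 2 j]
    rwa [e6] at hb

/-! ### brackets of constants -/

/-- the bracket of the exponential -/
theorem expBr_spec {x : ℕ} {k : ℕ → ℕ → Bool} (h : expBr x k = true) :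
    ∃ v e : ℕ, |Real.exp ((x : ℝ) / (K : ℝ)) - (v : ℝ) / (K : ℝ)| ≤ (e : ℝ) / (K : ℝ) ∧ k v e = true := by
  unfold expBr at h
  split_ifs at h with hx
  have hx' : x ≤ Nat.mul 128 K := Nat.le_of_ble_eq_true hx
  have hK := K_pos
  have hKv : (K : ℝ) = 2 ^ 60 := by
    norm_num [K]
  have hden : 0 < Nat.mul K 1024 := by decide
  -- the Horner part
  have h0 : |(1 : ℝ) - ((K : ℕ) : ℝ) / (K : ℝ)| ≤ ((0 : ℕ) : ℝ) / (K : ℝ) := by
    rw [div_self hK.ne']
    simp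
  obtain ⟨r, e, hb, hk⟩ := expS_spec (Nat.mul K 1024) x hden 12 K 0 _ 1 h0 h
  set y : ℝ := (x : ℝ) / ((Nat.mul K 1024 : ℕ) : ℝ) with hy
  have hyc : ((Nat.mul K 1024 : ℕ) : ℝ) = (K : ℝ) * 1024 := by
    simp only [Nat.mul_eq, Nat.cast_mul, Nat.cast_ofNat]
  have hx2 : (x : ℝ) ≤ 128 * (K : ℝ) := by
    have : (x : ℝ) ≤ ((Nat.mul 128 K : ℕ) : ℝ) := by exact_mod_cast hx'
    simpa only [Nat.mul_eq, Nat.cast_mul, Nat.cast_ofNat] using this
  have hy0 : 0 ≤ y := by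
    rw [hy, hyc]
    positivity
  have hy8 : y ≤ 1 / 8 := by
    rw [hy, hyc, div_le_iff₀ (by positivity)]
    linarith
  have hyabs : |y| ≤ 1 := by
    rw [abs_of_nonneg hy0]
    linarith
  have hexp := Real.exp_bound hyabs (n := 13) (by norm_num)
  rw [horE_twelve] at hb
  have hrem : |y| ^ 13 * (((Nat.succ 13 : ℕ) : ℝ) / ((Nat.factorial 13 : ℕ) * (13 : ℕ))) ≤ 1 / (K : ℝ) := by
    have h1 : |y| ^ 13 ≤ (1 / 8 : ℝ) ^ 13 := by
      rw [abs_of_nonneg hy0]
      exact pow_le_pow_left₀ hy0 hy8 13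
    have h2 : (0 : ℝ) ≤ ((Nat.succ 13 : ℕ) : ℝ) / ((Nat.factorial 13 : ℕ) * (13 : ℕ)) := by positivity
    calc |y| ^ 13 * (((Nat.succ 13 : ℕ) : ℝ) / ((Nat.factorial 13 : ℕ) * (13 : ℕ)))
        ≤ (1 / 8 : ℝ) ^ 13 * (((Nat.succ 13 : ℕ) : ℝ) / ((Nat.factorial 13 : ℕ) * (13 : ℕ))) :=
          mul_le_mul_of_nonneg_right h1 h2
      _ ≤ 1 / (K : ℝ) := by
          rw [hKv]
          norm_num [Nat.factorial]
  have hb2 : |Real.exp y - (r : ℝ) / (K : ℝ)| ≤ ((Nat.add e 1 : ℕ) : ℝ) / (K : ℝ) := by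
    have e1 : Real.exp y - (r : ℝ) / (K : ℝ)
        = (Real.exp y - ∑ m ∈ Finset.range 13, y ^ m / (m.factorial : ℝ))
          + (∑ m ∈ Finset.range 13, y ^ m / (m.factorial : ℝ) - (r : ℝ) / (K : ℝ)) := by ring
    rw [e1]
    have e2 : ((Nat.add e 1 : ℕ) : ℝ) / (K : ℝ) = 1 / (K : ℝ) + (e : ℝ) / (K : ℝ) := by
      simp only [Nat.add_eq, Nat.cast_add, Nat.cast_one]
      ring
    rw [e2]
    exact (abs_add_le _ _).trans (add_le_add (hexp.trans hrem) hb)
  obtain ⟨v', e', hb3, hk3⟩ := sqS_spec 10 r (Nat.add e 1) k (Real.exp y) hb2 hk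
  refine ⟨v', e', ?_, hk3⟩
  have e3 : Real.exp y ^ (2 ^ 10) = Real.exp ((x : ℝ) / (K : ℝ)) := by
    rw [← Real.exp_nat_mul]
    congr 1
    rw [hy, hyc]
    push_cast
    field_simp
  rwa [e3] at hb3

/-- the bracket of the exponential of a signed number -/
theorem expSign_spec {cp cn : ℕ} {k : ℕ → ℕ → Bool} (h : expSign cp cn k = true) :
    ∃ v e : ℕ, |Real.exp (((cp : ℝ) - (cn : ℝ)) / (K : ℝ)) - (v : ℝ) / (K : ℝ)| ≤ (e : ℝ) / (K : ℝ)
      ∧ k v e = true := by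
  unfold expSign at h
  split_ifs at h with hc
  · have hc' : cn ≤ cp := Nat.le_of_ble_eq_true hc
    obtain ⟨v, e, hb, hk⟩ := expBr_spec h
    refine ⟨v, e, ?_, hk⟩
    have e1 : ((Nat.sub cp cn : ℕ) : ℝ) = (cp : ℝ) - (cn : ℝ) := by
      show ((cp - cn : ℕ) : ℝ) = _
      rw [Nat.cast_sub hc']
    rwa [e1] at hb
  · have hc' : cp ≤ cn := by
      by_contra h1
      apply hc
      exact Nat.ble_eq_true_of_le (by omega)
    obtain ⟨v, e, hb, hk⟩ := expBr_spec h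
    split_ifs at hk with hv
    simp only [fN_eq] at hk
    have hv' : 1 ≤ v := Nat.le_of_ble_eq_true hv
    refine ⟨_, _, ?_, hk⟩
    have hK := K_pos
    have e1 : ((Nat.sub cn cp : ℕ) : ℝ) = (cn : ℝ) - (cp : ℝ) := by
      show ((cn - cp : ℕ) : ℝ) = _
      rw [Nat.cast_sub hc']
    rw [e1] at hb
    have hz : 0 ≤ ((cn : ℝ) - (cp : ℝ)) / (K : ℝ) := by
      have : (cp : ℝ) ≤ cn := by exact_mod_cast hc'
      apply div_nonneg (by linarith) hK.le
    have hy1 : 1 ≤ Real.exp (((cn : ℝ) - (cp : ℝ)) / (K : ℝ)) := Real.one_le_exp hz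
    have hvr : (1 : ℝ) ≤ v := by exact_mod_cast hv'
    have hvpos : 0 < v := by omega
    have h1 := natDiv_cast_le (Nat.mul K K) v
    have h2 := natDiv_cast_add_one (Nat.mul K K) v hvpos
    have h3 := natDiv_cast_add_one (Nat.mul e K) v hvpos
    have e2 : ((Nat.mul K K : ℕ) : ℝ) = (K : ℝ) * K := by
      simp only [Nat.mul_eq, Nat.cast_mul]
    have e3 : ((Nat.mul e K : ℕ) : ℝ) = (e : ℝ) * K := by
      simp only [Nat.mul_eq, Nat.cast_mul]
    rw [e2] at h1 h2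
    rw [e3] at h3
    have key := inv_step (K : ℝ) _ (v : ℝ) (e : ℝ) _ _ hK hy1 hvr (Nat.cast_nonneg e) hb h1 h2 h3
    have e4 : Real.exp (((cp : ℝ) - (cn : ℝ)) / (K : ℝ))
        = (Real.exp (((cn : ℝ) - (cp : ℝ)) / (K : ℝ)))⁻¹ := by
      rw [← Real.exp_neg]
      congr 1
      ring
    rw [e4]
    have e5 : ((Nat.add (Nat.div (Nat.mul e K) v) 2 : ℕ) : ℝ)
        = ((Nat.div (Nat.mul e K) v : ℕ) : ℝ) + 2 := by
      simp only [Nat.add_eq, Nat.cast_add, Nat.cast_ofNat]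
    rw [e5]
    exact key

/-! ### logarithm -/

private lemma newton_ex (c : ℕ) (n y : ℕ) (k : ℕ → Bool) (h : newton c n y k = true) :
    ∃ y', k y' = true := by
  induction n generalizing y with
  | zero => exact ⟨y, h⟩
  | succ n ih =>
    simp only [newton, fN_eq] at h
    obtain ⟨v, e, _, hk⟩ := expBr_spec h
    exact ih _ hk

private lemma newton2_ex (c : ℕ) (n y : ℕ) (k : ℕ → Bool) (h : newton2 c n y k = true) :
    ∃ y', k y' = true := by
  induction n generalizing y with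
  | zero => exact ⟨y, h⟩
  | succ n ih =>
    simp only [newton2, fN_eq] at h
    obtain ⟨v, e, _, hk⟩ := expBr_spec h
    exact ih _ hk

private lemma log_case1 (κ c v e A y h : ℝ) (hκ : 0 < κ) (hc : 0 < c) (he : 0 ≤ e)
    (hE : |Real.exp (y / κ) - v / κ| ≤ e / κ) (hA : A = |v - c|)
    (hh : (A + e) * κ / c ≤ h) (hh2 : 2 * h ≤ κ) :
    |Real.log (c / κ) - y / κ| ≤ 2 * h / κ := by
  set E := Real.exp (y / κ) with hEdef
  have hEpos : 0 < E := Real.exp_pos _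
  set r := c / κ with hr
  have hrpos : 0 < r := div_pos hc hκ
  set u := E / r - 1 with hu
  have h1 : |E - r| ≤ (A + e) / κ := by
    have e1 : E - r = (E - v / κ) + (v - c) / κ := by
      rw [hr]
      field_simp
      ring
    rw [e1, add_div, add_comm (A / κ)]
    refine (abs_add_le _ _).trans (add_le_add hE ?_)
    rw [abs_div, abs_of_pos hκ, hA]
  have h2 : |u| ≤ h / κ := by
    have e2 : u = (E - r) / r := by
      rw [hu]
      field_simp
    rw [e2, abs_div, abs_of_pos hrpos, div_le_iff₀ hrpos]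
    have e3 : h / κ * r = h * c / (κ * κ) := by
      rw [hr]
      field_simp
    rw [e3]
    have hAe : 0 ≤ A + e := by
      have : 0 ≤ A := by rw [hA]; exact abs_nonneg _
      linarith
    have h3 : (A + e) * κ ≤ h * c := by
      have := (div_le_iff₀ hc).mp hh
      linarith
    have h4 : (A + e) / κ ≤ h * c / (κ * κ) := by
      rw [div_le_div_iff₀ hκ (mul_pos hκ hκ)]
      nlinarith [mul_le_mul_of_nonneg_right h3 hκ.le]
    exact h1.trans h4
  have h3 : |u| ≤ 1 / 2 := by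
    refine h2.trans ?_
    rw [div_le_iff₀ hκ]
    linarith
  have h4 := log_one_add_bound u h3
  have e4 : 1 + u = E / r := by
    rw [hu]
    ring
  rw [e4, Real.log_div hEpos.ne' hrpos.ne', hEdef, Real.log_exp] at h4
  rw [abs_sub_comm]
  calc |y / κ - Real.log r| ≤ 2 * |u| := h4
    _ ≤ 2 * (h / κ) := by linarith
    _ = 2 * h / κ := by ring

private lemma log_case2 (κ c v e B y h : ℝ) (hκ : 0 < κ) (hc : 0 < c)
    (hE : |Real.exp (y / κ) - v / κ| ≤ e / κ) (hB : B = |c * v - κ * κ|)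
    (hh : (B + c * e) / κ ≤ h) (hh2 : 2 * h ≤ κ) :
    |Real.log (c / κ) - (0 - y) / κ| ≤ 2 * h / κ := by
  set E := Real.exp (y / κ) with hEdef
  have hEpos : 0 < E := Real.exp_pos _
  set r := c / κ with hr
  have hrpos : 0 < r := div_pos hc hκ
  set u := r * E - 1 with hu
  have h1 : |u| ≤ (B + c * e) / (κ * κ) := by
    have e1 : u = r * (E - v / κ) + (c * v - κ * κ) / (κ * κ) := by
      rw [hu, hr]
      field_simp
      ring
    rw [e1, add_comm, add_div, add_comm (B / (κ * κ))]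
    have e2 : |r * (E - v / κ)| ≤ c * e / (κ * κ) := by
      rw [abs_mul, abs_of_pos hrpos]
      calc r * |E - v / κ| ≤ r * (e / κ) := mul_le_mul_of_nonneg_left hE hrpos.le
        _ = c * e / (κ * κ) := by
            rw [hr]
            field_simp
    have e3 : |(c * v - κ * κ) / (κ * κ)| = B / (κ * κ) := by
      rw [abs_div, abs_of_pos (mul_pos hκ hκ), hB]
    rw [add_comm]
    refine (abs_add_le _ _).trans ?_
    rw [e3]
    linarith
  have h2 : |u| ≤ h / κ := by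
    refine h1.trans ?_
    have e4 : (B + c * e) / (κ * κ) = ((B + c * e) / κ) / κ := by
      field_simp
    rw [e4]
    exact div_le_div_of_nonneg_right hh hκ.le
  have h3 : |u| ≤ 1 / 2 := by
    refine h2.trans ?_
    rw [div_le_iff₀ hκ]
    linarith
  have h4 := log_one_add_bound u h3
  have e4 : 1 + u = r * E := by
    rw [hu]
    ring
  rw [e4, Real.log_mul hrpos.ne' hEpos.ne', hEdef, Real.log_exp] at h4
  have e5 : Real.log r - (0 - y) / κ = Real.log r + y / κ := by ring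
  rw [e5]
  calc |Real.log r + y / κ| ≤ 2 * |u| := h4
    _ ≤ 2 * (h / κ) := by linarith
    _ = 2 * h / κ := by ring

/-- the bracket of a logarithm -/
theorem logS_spec {c : ℕ} (hc : 0 < c) {k : ℕ → ℕ → ℕ → Bool} (h : logS c k = true) :
    ∃ p n e : ℕ, |Real.log ((c : ℝ) / (K : ℝ)) - ((p : ℝ) - (n : ℝ)) / (K : ℝ)| ≤ (e : ℝ) / (K : ℝ)
      ∧ k p n e = true := by
  have hK := K_pos
  have hcr : (0 : ℝ) < c := by exact_mod_cast hc
  unfold logS at h
  split_ifs at h with hc1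
  · obtain ⟨y, hy⟩ := newton2_ex _ _ _ _ h
    obtain ⟨v, e, hb, hk⟩ := expBr_spec hy
    simp only [fN_eq] at hk
    split_ifs at hk with hh
    have hh' := Nat.le_of_ble_eq_true hh
    refine ⟨y, 0, _, ?_, hk⟩
    have h1 := natDiv_cast_add_one
      (Nat.mul (Nat.add (Nat.add (Nat.sub v c) (Nat.sub c v)) e) K) c hc
    have e1 : ((Nat.mul (Nat.add (Nat.add (Nat.sub v c) (Nat.sub c v)) e) K : ℕ) : ℝ)
        = (|(v : ℝ) - (c : ℝ)| + (e : ℝ)) * (K : ℝ) := by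
      rw [← natSub_abs]
      simp only [Nat.mul_eq, Nat.add_eq, Nat.cast_mul, Nat.cast_add]
    rw [e1] at h1
    have h2 : ((Nat.add (Nat.div (Nat.mul (Nat.add (Nat.add (Nat.sub v c) (Nat.sub c v)) e) K) c) 1 : ℕ) : ℝ)
        = ((Nat.div (Nat.mul (Nat.add (Nat.add (Nat.sub v c) (Nat.sub c v)) e) K) c : ℕ) : ℝ) + 1 := by
      simp only [Nat.add_eq, Nat.cast_add, Nat.cast_one]
    set H : ℕ := Nat.add (Nat.div (Nat.mul (Nat.add (Nat.add (Nat.sub v c) (Nat.sub c v)) e) K) c) 1 with hH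
    have h3 : (2 : ℝ) * (H : ℝ) ≤ (K : ℝ) := by
      have : ((Nat.mul 2 H : ℕ) : ℝ) ≤ (K : ℝ) := by exact_mod_cast hh'
      simpa only [Nat.mul_eq, Nat.cast_mul, Nat.cast_ofNat] using this
    have key := log_case1 (K : ℝ) (c : ℝ) (v : ℝ) (e : ℝ) _ (y : ℝ) (H : ℝ) hK hcr (Nat.cast_nonneg e)
      hb rfl (by rw [h2]; exact h1) h3
    have e2 : ((y : ℝ) - ((0 : ℕ) : ℝ)) = (y : ℝ) := by simp
    rw [e2]
    have e3 : ((Nat.mul 2 H : ℕ) : ℝ) = 2 * (H : ℝ) := by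
      simp only [Nat.mul_eq, Nat.cast_mul, Nat.cast_ofNat]
    rw [e3]
    exact key
  · obtain ⟨y, hy⟩ := newton_ex _ _ _ _ h
    obtain ⟨v, e, hb, hk⟩ := expBr_spec hy
    simp only [fN_eq] at hk
    split_ifs at hk with hh
    have hh' := Nat.le_of_ble_eq_true hh
    refine ⟨0, y, _, ?_, hk⟩
    have hK' : 0 < K := by decide
    have h1 := natDiv_cast_add_one
      (Nat.add (Nat.add (Nat.sub (Nat.mul c v) (Nat.mul K K)) (Nat.sub (Nat.mul K K) (Nat.mul c v)))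
        (Nat.mul c e)) K hK'
    have e1 : ((Nat.add (Nat.add (Nat.sub (Nat.mul c v) (Nat.mul K K))
        (Nat.sub (Nat.mul K K) (Nat.mul c v))) (Nat.mul c e) : ℕ) : ℝ)
        = |(c : ℝ) * v - (K : ℝ) * K| + (c : ℝ) * e := by
      have e2 := natSub_abs (Nat.mul c v) (Nat.mul K K)
      have e3 : ((Nat.mul c v : ℕ) : ℝ) = (c : ℝ) * v := by
        simp only [Nat.mul_eq, Nat.cast_mul]
      have e4 : ((Nat.mul K K : ℕ) : ℝ) = (K : ℝ) * K := by
        simp only [Nat.mul_eq, Nat.cast_mul]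
      rw [e3, e4] at e2
      rw [← e2]
      simp only [Nat.mul_eq, Nat.add_eq, Nat.cast_mul, Nat.cast_add]
    rw [e1] at h1
    have h2 : ((Nat.add (Nat.div (Nat.add (Nat.add (Nat.sub (Nat.mul c v) (Nat.mul K K))
        (Nat.sub (Nat.mul K K) (Nat.mul c v))) (Nat.mul c e)) K) 1 : ℕ) : ℝ)
        = ((Nat.div (Nat.add (Nat.add (Nat.sub (Nat.mul c v) (Nat.mul K K))
        (Nat.sub (Nat.mul K K) (Nat.mul c v))) (Nat.mul c e)) K : ℕ) : ℝ) + 1 := by
      simp only [Nat.add_eq, Nat.cast_add, Nat.cast_one]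
    set H : ℕ := Nat.add (Nat.div (Nat.add (Nat.add (Nat.sub (Nat.mul c v) (Nat.mul K K))
        (Nat.sub (Nat.mul K K) (Nat.mul c v))) (Nat.mul c e)) K) 1 with hH
    have h3 : (2 : ℝ) * (H : ℝ) ≤ (K : ℝ) := by
      have : ((Nat.mul 2 H : ℕ) : ℝ) ≤ (K : ℝ) := by exact_mod_cast hh'
      simpa only [Nat.mul_eq, Nat.cast_mul, Nat.cast_ofNat] using this
    have key := log_case2 (K : ℝ) (c : ℝ) (v : ℝ) (e : ℝ) _ (y : ℝ) (H : ℝ) hK hcr
      hb rfl (by rw [h2]; exact h1) h3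
    have e3 : ((Nat.mul 2 H : ℕ) : ℝ) = 2 * (H : ℝ) := by
      simp only [Nat.mul_eq, Nat.cast_mul, Nat.cast_ofNat]
    rw [e3]
    have e2 : (((0 : ℕ) : ℝ) - (y : ℝ)) = 0 - (y : ℝ) := by simp
    rw [e2]
    exact key

end Vale.Agent.Lib.P154.TM
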