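import Vale.Agent.Lib.P154.TM.FunC

/-!
Soundness of the exponential and of the logarithm of a model.
-/

namespace Vale.Agent.Lib.P154.TM

open Finset

/-- the relation only concerns the cube -/
theorem Rel.congr_cube {f g : S → ℝ} {M : Md} (h : Rel f M) (hfg : ∀ s, Cube s → g s = f s) :
    Rel g M := by
  intro s hs
  rw [hfg s hs]
  exact h s hs

/-- a constant model encloses all functions close to its constant -/
theorem rel_mkC_fun {h : S → ℝ} {p n e : ℕ}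
    (H : ∀ s, Cube s → |h s - ((p : ℝ) - (n : ℝ)) / (K : ℝ)| ≤ (e : ℝ) / (K : ℝ)) :
    Rel h (mkC p n e) := fun s hs => rel_mkC (c := h s) (H s hs) s hs

/-! ### reciprocals of integers -/

/-- the floor of `K / n` -/
theorem rel_unit (n : ℕ) (hn : 0 < n) : Rel (fun _ => 1 / (n : ℝ)) (mkC (Nat.div K n) 0 1) := by
  apply rel_mkC
  have hK := K_pos
  have hn' : (0 : ℝ) < n := by exact_mod_cast hn
  have h1 : n * (K / n) ≤ K := Nat.mul_div_le K n
  have h2 : K < n * (K / n + 1) := by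
    have := (Nat.div_lt_iff_lt_mul hn).1 (Nat.lt_succ_self (K / n))
    rw [mul_comm]
    exact this
  have h1' : (n : ℝ) * ((K / n : ℕ) : ℝ) ≤ K := by exact_mod_cast h1
  have h2' : (K : ℝ) < n * (((K / n : ℕ) : ℝ) + 1) := by exact_mod_cast h2
  change |1 / (n : ℝ) - (((K / n : ℕ) : ℝ) - ((0 : ℕ) : ℝ)) / (K : ℝ)| ≤ ((1 : ℕ) : ℝ) / (K : ℝ)
  generalize ((K / n : ℕ) : ℝ) = q at *
  have e1 : 1 / (n : ℝ) - (q - ((0 : ℕ) : ℝ)) / (K : ℝ) = ((K : ℝ) - n * q) / (n * K) := by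
    simp only [Nat.cast_zero, sub_zero]
    field_simp
  rw [e1, abs_of_nonneg (div_nonneg (by linarith) (by positivity)), div_le_div_iff₀ (by positivity) hK]
  simp only [Nat.cast_one]
  have : ((K : ℝ) - n * q) ≤ n := by linarith
  nlinarith

/-- the floor of `K ^ 2 / c` -/
theorem rel_inv (c : ℕ) (hc : 0 < c) :
    Rel (fun _ => (K : ℝ) / (c : ℝ)) (mkC (Nat.div (Nat.mul K K) c) 0 1) := by
  apply rel_mkC
  have hK := K_pos
  have hc' : (0 : ℝ) < c := by exact_mod_cast hc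
  have h1 : c * ((K * K) / c) ≤ K * K := Nat.mul_div_le _ c
  have h2 : K * K < c * ((K * K) / c + 1) := by
    have := (Nat.div_lt_iff_lt_mul hc).1 (Nat.lt_succ_self ((K * K) / c))
    rw [mul_comm c]
    exact this
  have h1' : (c : ℝ) * (((K * K) / c : ℕ) : ℝ) ≤ K * K := by exact_mod_cast h1
  have h2' : (K : ℝ) * K < c * ((((K * K) / c : ℕ) : ℝ) + 1) := by exact_mod_cast h2
  change |(K : ℝ) / (c : ℝ) - ((((K * K) / c : ℕ) : ℝ) - ((0 : ℕ) : ℝ)) / (K : ℝ)| ≤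
    ((1 : ℕ) : ℝ) / (K : ℝ)
  generalize (((K * K) / c : ℕ) : ℝ) = q at *
  have e1 : (K : ℝ) / (c : ℝ) - (q - ((0 : ℕ) : ℝ)) / (K : ℝ) = ((K : ℝ) * K - c * q) / (c * K) := by
    simp only [Nat.cast_zero, sub_zero]
    field_simp
  rw [e1, abs_of_nonneg (div_nonneg (by linarith) (by positivity)), div_le_div_iff₀ (by positivity) hK]
  simp only [Nat.cast_one]
  have : ((K : ℝ) * K - c * q) ≤ c := by linarith
  nlinarith

/-! ### Horner for the exponential -/

/-- the function computed by `expH` -/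
noncomputable def expHR (y : S → ℝ) : ℕ → (S → ℝ) → (S → ℝ)
  | 0, r => r
  | n + 1, r => expHR y n (fun s => 1 + ((1 : ℕ) : ℝ) / ((n + 1 : ℕ) : ℝ) * (r s * y s))

theorem expH_spec {y : S → ℝ} {g : Md} (hg : Rel y g) :
    ∀ (n : ℕ) {r : S → ℝ} {R : Md} {k : Md → Bool}, Rel r R → expH g n R k = true →
      ∃ z, Rel (expHR y n r) z ∧ k z = true
  | 0, r, R, k, hr, h => ⟨R, hr, by simpa [expH] using h⟩
  | n + 1, r, R, k, hr, h => by
    simp only [expH] at h
    obtain ⟨z, hz, h1⟩ := mulC_spec hr hg h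
    obtain ⟨z', hz', h2⟩ := sclC_spec (Nat.succ_pos n) hz h1
    obtain ⟨r', hr', h3⟩ := addC_spec rel_one hz' h2
    exact expH_spec hg n hr' h3

theorem expHR_six (y : S → ℝ) (s : S) :
    expHR y 6 (fun _ => 1) s = ∑ m ∈ range 7, (y s) ^ m / (m.factorial : ℝ) := by
  simp only [expHR, sum_range_succ, sum_range_zero, Nat.factorial]
  push_cast
  ring

/-- the remainder of the series of the exponential -/
theorem exp_rem {y : ℝ} {rho : ℕ} (hy : |y| ≤ (rho : ℝ) / (K : ℝ)) (hrho : rho ≤ Nat.mul 4 K) :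
    |Real.exp y - ∑ m ∈ range 7, y ^ m / (m.factorial : ℝ)| ≤
      ((Nat.add (Nat.div (Nat.div (Nat.pow rho 7) (Nat.pow K 6)) 2520) 2 : ℕ) : ℝ) /
        (K : ℝ) := by
  have hK := K_pos
  have hKn : 0 < K := by exact_mod_cast hK
  have hle4 : (rho : ℝ) / (K : ℝ) ≤ 4 := by
    rw [div_le_iff₀ hK]
    have : (rho : ℝ) ≤ ((Nat.mul 4 K : ℕ) : ℝ) := by exact_mod_cast hrho
    simpa [Nat.mul_eq] using this
  have hy4 : |y| ≤ 4 := le_trans hy hle4
  have hb : |Real.exp y - ∑ m ∈ range 7, y ^ m / (m.factorial : ℝ)| ≤ |y| ^ 7 / 2520 := by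
    have hc := Complex.exp_bound' (x := (y : ℂ)) (n := 7) (by
      simp only [Complex.norm_real, Real.norm_eq_abs]
      norm_num
      linarith)
    simp only [Complex.norm_real, Real.norm_eq_abs] at hc
    have e1 : Complex.exp (y : ℂ) - ∑ m ∈ range 7, (y : ℂ) ^ m / (m.factorial : ℂ) =
        ((Real.exp y - ∑ m ∈ range 7, y ^ m / (m.factorial : ℝ) : ℝ) : ℂ) := by
      push_cast
      rfl
    rw [e1, Complex.norm_real, Real.norm_eq_abs] at hc
    refine le_trans hc (le_of_eq ?_)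
    simp only [Nat.factorial]
    norm_num
    ring
  refine le_trans hb ?_
  -- integer parts
  change |y| ^ 7 / 2520 ≤ (((rho ^ 7 / K ^ 6 / 2520 + 2 : ℕ)) : ℝ) / (K : ℝ)
  have hK6 : 0 < K ^ 6 := pow_pos hKn 6
  obtain ⟨a, ha⟩ : ∃ a, a = rho ^ 7 / K ^ 6 := ⟨_, rfl⟩
  obtain ⟨b, hb'⟩ : ∃ b, b = a / 2520 := ⟨_, rfl⟩
  rw [← ha, ← hb']
  have h1 : rho ^ 7 < (a + 1) * K ^ 6 := by
    rw [ha]
    exact (Nat.div_lt_iff_lt_mul hK6).1 (Nat.lt_succ_self _)
  have h2 : a < (b + 1) * 2520 := by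
    rw [hb']
    exact (Nat.div_lt_iff_lt_mul (by norm_num)).1 (Nat.lt_succ_self _)
  have h1' : (rho : ℝ) ^ 7 < ((a : ℝ) + 1) * (K : ℝ) ^ 6 := by exact_mod_cast h1
  have h2' : (a : ℝ) < ((b : ℝ) + 1) * 2520 := by exact_mod_cast h2
  have h3 : |y| ^ 7 ≤ ((rho : ℝ) / (K : ℝ)) ^ 7 := pow_le_pow_left₀ (abs_nonneg y) hy 7
  have h4 : ((rho : ℝ) / (K : ℝ)) ^ 7 * K = (rho : ℝ) ^ 7 / (K : ℝ) ^ 6 := by
    field_simp
  have h5 : (rho : ℝ) ^ 7 / (K : ℝ) ^ 6 ≤ (a : ℝ) + 1 := by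
    rw [div_le_iff₀ (by positivity)]
    exact h1'.le
  rw [le_div_iff₀ hK]
  push_cast
  calc |y| ^ 7 / 2520 * K = |y| ^ 7 * K * (1 / 2520) := by ring
    _ ≤ ((rho : ℝ) / (K : ℝ)) ^ 7 * K * (1 / 2520) := by gcongr
    _ = (rho : ℝ) ^ 7 / (K : ℝ) ^ 6 * (1 / 2520) := by rw [h4]
    _ ≤ ((a : ℝ) + 1) * (1 / 2520) := by gcongr
    _ ≤ (b : ℝ) + 2 := by linarith

theorem expC_spec {f : S → ℝ} {x : Md} {k : Md → Bool} (hf : Rel f x) (h : expC x k = true) :
    ∃ z, Rel (fun s => Real.exp (f s)) z ∧ k z = true := by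
  simp only [expC, fN_eq] at h
  split at h
  · rename_i hle
    have hrho : absM (dropM x) ≤ Nat.mul 4 K := Nat.le_of_ble_eq_true hle
    have hy := hf.drop
    obtain ⟨r, hr, h1⟩ := expH_spec hy 6 rel_one h
    obtain ⟨v, e, hve, h2⟩ := expSign_spec h1
    obtain ⟨c, hc⟩ : ∃ c, c = ((c0V x.pos : ℝ) - (c0V x.neg : ℝ)) / (K : ℝ) := ⟨_, rfl⟩
    rw [← hc] at hy hve hr
    have hrem : Rel (fun s => Real.exp (f s - c))
        ⟨r.pos, r.neg, Nat.add r.e (Nat.add (Nat.div (Nat.div (Nat.pow (absM (dropM x)) 7)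
          (Nat.pow K 6)) 2520) 2)⟩ := by
      intro s hs
      have h3 := exp_rem (hy.abs_le hs) hrho
      have h4 := hr s hs
      rw [expHR_six] at h4
      have h5 : (Nat.add r.e (Nat.add (Nat.div (Nat.div (Nat.pow (absM (dropM x)) 7)
          (Nat.pow K 6)) 2520) 2) : ℝ) / (K : ℝ) = (r.e : ℝ) / (K : ℝ) +
          ((Nat.add (Nat.div (Nat.div (Nat.pow (absM (dropM x)) 7)
          (Nat.pow K 6)) 2520) 2 : ℕ) : ℝ) / (K : ℝ) := by
        rw [← add_div]
        congr 1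
        exact Nat.cast_add _ _
      change |Real.exp (f s - c) - (evV r.pos s - evV r.neg s) / (K : ℝ)| ≤ _
      rw [h5]
      calc _ = |(Real.exp (f s - c) - ∑ m ∈ range 7, (f s - c) ^ m / (m.factorial : ℝ)) +
            ((∑ m ∈ range 7, (f s - c) ^ m / (m.factorial : ℝ)) -
              (evV r.pos s - evV r.neg s) / (K : ℝ))| := by
            congr 1
            ring
        _ ≤ _ := abs_add_le _ _
        _ ≤ _ := by
            rw [add_comm ((r.e : ℝ) / (K : ℝ))]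
            exact add_le_add h3 h4
    have hbr : Rel (fun _ => Real.exp c) (mkC v 0 e) := by
      apply rel_mkC
      simpa using hve
    obtain ⟨z, hz, h3⟩ := mulC_spec hbr hrem h2
    refine ⟨z, hz.congr_cube (fun s _ => ?_), h3⟩
    rw [← Real.exp_add]
    congr 1
    ring
  · simp at h

/-! ### Horner for the logarithm -/

/-- the function computed by `logH` -/
noncomputable def logHR (y : S → ℝ) : ℕ → (S → ℝ) → (S → ℝ)
  | 0, r => r
  | m + 1, r => logHR y m (fun s => 1 / ((m + 1 : ℕ) : ℝ) + y s * r s)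

theorem logH_spec {y : S → ℝ} {g : Md} (hg : Rel y g) :
    ∀ (m : ℕ) {r : S → ℝ} {R : Md} {k : Md → Bool}, Rel r R → logH g m R k = true →
      ∃ z, Rel (logHR y m r) z ∧ k z = true
  | 0, r, R, k, hr, h => ⟨R, hr, by simpa [logH] using h⟩
  | m + 1, r, R, k, hr, h => by
    simp only [logH] at h
    obtain ⟨z, hz, h1⟩ := mulC_spec hg hr h
    obtain ⟨r', hr', h2⟩ := addC_spec (rel_unit (m + 1) (Nat.succ_pos m)) hz h1
    exact logH_spec hg m hr' h2

theorem logHR_five (y : S → ℝ) (s : S) :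
    y s * logHR y 5 (fun _ => 1 / ((6 : ℕ) : ℝ)) s =
      ∑ i ∈ range 6, (y s) ^ (i + 1) / ((i : ℝ) + 1) := by
  simp only [logHR, sum_range_succ, sum_range_zero]
  push_cast
  ring

/-- the tail of the series of the logarithm, with the factor `1 / (n + 1)` -/
theorem log_tail {x : ℝ} (h : |x| < 1) (n : ℕ) :
    |(∑ i ∈ range n, x ^ (i + 1) / ((i : ℝ) + 1)) + Real.log (1 - x)| ≤
      |x| ^ (n + 1) / (((n : ℝ) + 1) * (1 - |x|)) := by
  have hs := Real.hasSum_pow_div_log_of_abs_lt_one h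
  have ht := (hasSum_nat_add_iff' (f := fun i : ℕ => x ^ (i + 1) / ((i : ℝ) + 1)) n).2 hs
  have hg := (hasSum_geometric_of_lt_one (abs_nonneg x) h).mul_left
    (|x| ^ (n + 1) / ((n : ℝ) + 1))
  have hb := ht.norm_le_of_bounded hg (fun i => ?_)
  · rw [Real.norm_eq_abs] at hb
    have e1 : -Real.log (1 - x) - ∑ i ∈ range n, x ^ (i + 1) / ((i : ℝ) + 1) =
        -((∑ i ∈ range n, x ^ (i + 1) / ((i : ℝ) + 1)) + Real.log (1 - x)) := by ring
    rw [e1, abs_neg] at hb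
    refine le_trans hb (le_of_eq ?_)
    have h1 : 0 < 1 - |x| := by linarith
    have h2 : (0 : ℝ) < (n : ℝ) + 1 := by positivity
    field_simp
  · rw [Real.norm_eq_abs, abs_div, abs_pow]
    have h1 : (0 : ℝ) < (n : ℝ) + 1 := by positivity
    have h2 : (0 : ℝ) < ((i + n : ℕ) : ℝ) + 1 := by positivity
    rw [abs_of_pos h2]
    have h3 : |x| ^ (i + n + 1) = |x| ^ (n + 1) * |x| ^ i := by
      rw [← pow_add]
      congr 1
      ring
    rw [h3]
    have h4 : (n : ℝ) + 1 ≤ ((i + n : ℕ) : ℝ) + 1 := by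
      push_cast
      have : (0 : ℝ) ≤ i := Nat.cast_nonneg i
      linarith
    have h5 : 0 ≤ |x| ^ (n + 1) * |x| ^ i := by positivity
    calc |x| ^ (n + 1) * |x| ^ i / (((i + n : ℕ) : ℝ) + 1)
        ≤ |x| ^ (n + 1) * |x| ^ i / ((n : ℝ) + 1) := div_le_div_of_nonneg_left h5 h1 h4
      _ = |x| ^ (n + 1) / ((n : ℝ) + 1) * |x| ^ i := by ring

/-- the remainder of the series of the logarithm -/
theorem log_rem {X : ℝ} {rho : ℕ} (hX : |X| ≤ (rho : ℝ) / (K : ℝ)) (h2 : 2 * rho ≤ K) :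
    |(∑ i ∈ range 6, X ^ (i + 1) / ((i : ℝ) + 1)) + Real.log (1 - X)| ≤
      ((Nat.add (Nat.div (Nat.div (Nat.pow rho 7) (Nat.pow K 5)) (Nat.mul 7 (Nat.sub K rho))) 2 : ℕ) : ℝ) /
        (K : ℝ) := by
  have hK := K_pos
  have hKn : 0 < K := by exact_mod_cast hK
  have hrK : rho < K := by omega
  have h2' : 2 * (rho : ℝ) ≤ K := by exact_mod_cast h2
  have hu : (rho : ℝ) / (K : ℝ) ≤ 1 / 2 := by
    rw [div_le_div_iff₀ hK (by norm_num)]
    linarith
  have hX1 : |X| < 1 := by linarith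
  have hb := log_tail hX1 6
  refine le_trans hb ?_
  change _ ≤ (((rho ^ 7 / K ^ 5 / (7 * (K - rho)) + 2 : ℕ)) : ℝ) / (K : ℝ)
  have hD : 0 < 7 * (K - rho) := by omega
  have hK5 : 0 < K ^ 5 := pow_pos hKn 5
  obtain ⟨D, hDdef⟩ : ∃ D, D = 7 * (K - rho) := ⟨_, rfl⟩
  rw [← hDdef] at hD ⊢
  obtain ⟨a, ha⟩ : ∃ a, a = rho ^ 7 / K ^ 5 := ⟨_, rfl⟩
  obtain ⟨b, hb'⟩ : ∃ b, b = a / D := ⟨_, rfl⟩
  rw [← ha, ← hb']
  have h3 : rho ^ 7 < (a + 1) * K ^ 5 := by
    rw [ha]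
    exact (Nat.div_lt_iff_lt_mul hK5).1 (Nat.lt_succ_self _)
  have h4 : a < (b + 1) * D := by
    rw [hb']
    exact (Nat.div_lt_iff_lt_mul hD).1 (Nat.lt_succ_self _)
  have h3' : (rho : ℝ) ^ 7 < ((a : ℝ) + 1) * (K : ℝ) ^ 5 := by exact_mod_cast h3
  have h4' : (a : ℝ) + 1 ≤ ((b : ℝ) + 1) * D := by exact_mod_cast h4
  have hD' : (D : ℝ) = 7 * ((K : ℝ) - rho) := by
    rw [hDdef]
    push_cast [Nat.cast_sub hrK.le]
    ring
  have hDpos : (0 : ℝ) < D := by exact_mod_cast hD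
  have h1u : 0 < 1 - (rho : ℝ) / (K : ℝ) := by linarith
  have hXu : |X| ^ (6 + 1) ≤ ((rho : ℝ) / (K : ℝ)) ^ (6 + 1) := pow_le_pow_left₀ (abs_nonneg X) hX _
  have h1X : 1 - (rho : ℝ) / (K : ℝ) ≤ 1 - |X| := by linarith
  have hpos7 : (0 : ℝ) < (((6 : ℕ) : ℝ) + 1) := by positivity
  calc |X| ^ (6 + 1) / ((((6 : ℕ) : ℝ) + 1) * (1 - |X|))
      ≤ ((rho : ℝ) / (K : ℝ)) ^ (6 + 1) / ((((6 : ℕ) : ℝ) + 1) * (1 - (rho : ℝ) / (K : ℝ))) := by
        apply div_le_div₀ (by positivity) hXu (by positivity)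
        exact mul_le_mul_of_nonneg_left h1X hpos7.le
    _ = (rho : ℝ) ^ 7 / (K : ℝ) ^ 5 / (D : ℝ) / (K : ℝ) := by
        rw [hD']
        have hKr : (K : ℝ) - rho ≠ 0 := by
          have : (rho : ℝ) < K := by exact_mod_cast hrK
          linarith
        have hK' : (K : ℝ) ≠ 0 := hK.ne'
        have e : 1 - (rho : ℝ) / (K : ℝ) = ((K : ℝ) - rho) / K := by
          field_simp
        rw [e]
        push_cast
        field_simp
        ring
    _ ≤ (((b + 2 : ℕ)) : ℝ) / (K : ℝ) := by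
        apply div_le_div_of_nonneg_right _ hK.le
        rw [div_le_iff₀ hDpos, div_le_iff₀ (by positivity)]
        push_cast
        have h7 : (0 : ℝ) ≤ (K : ℝ) ^ 5 := by positivity
        have h8 : ((a : ℝ) + 1) * (K : ℝ) ^ 5 ≤ ((b : ℝ) + 1) * D * (K : ℝ) ^ 5 :=
          mul_le_mul_of_nonneg_right h4' h7
        have h9 : ((b : ℝ) + 1) * D * (K : ℝ) ^ 5 ≤ ((b : ℝ) + 2) * D * (K : ℝ) ^ 5 := by
          have : 0 ≤ D * (K : ℝ) ^ 5 := by positivity
          nlinarith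
        linarith

theorem logC_spec {f : S → ℝ} {x : Md} {k : Md → Bool} (hf : Rel f x) (h : logC x k = true) :
    (∀ s, Cube s → 0 < f s) ∧ ∃ z, Rel (fun s => Real.log (f s)) z ∧ k z = true := by
  have hK := K_pos
  simp only [logC, fN_eq] at h
  split at h
  · rename_i hguard
    rw [Bool.and_eq_true] at hguard
    obtain ⟨hg1, hg2⟩ := hguard
    have hc1 : 1 ≤ Nat.sub (c0V x.pos) (c0V x.neg) := Nat.le_of_ble_eq_true hg1
    have hcn : c0V x.neg ≤ c0V x.pos := Nat.le_of_ble_eq_true hg2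
    obtain ⟨c, hc⟩ : ∃ c, c = Nat.sub (c0V x.pos) (c0V x.neg) := ⟨_, rfl⟩
    rw [← hc] at h hc1
    have hc0 : 0 < c := hc1
    have hcr : (c : ℝ) = (c0V x.pos : ℝ) - (c0V x.neg : ℝ) := by
      rw [hc]
      exact Nat.cast_sub hcn
    have hc' : (0 : ℝ) < c := by exact_mod_cast hc0
    have hdrop := hf.drop
    rw [← hcr] at hdrop
    -- the variable of the series
    obtain ⟨y, hy, h1⟩ := mulC_spec (rel_inv c hc0) hdrop.neg h
    split at h1
    · rename_i hle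
      have hrho : 2 * absM y ≤ K := Nat.le_of_ble_eq_true hle
      obtain ⟨X, hX⟩ : ∃ X : S → ℝ, X = fun s => (K : ℝ) / (c : ℝ) * -(f s - (c : ℝ) / (K : ℝ)) :=
        ⟨_, rfl⟩
      have hy' : Rel X y := by
        rw [hX]
        exact hy
      have hXabs : ∀ s, Cube s → |X s| ≤ (absM y : ℝ) / (K : ℝ) := fun s hs => hy'.abs_le hs
      have hXhalf : ∀ s, Cube s → |X s| ≤ 1 / 2 := by
        intro s hs
        refine le_trans (hXabs s hs) ?_
        rw [div_le_div_iff₀ hK (by norm_num)]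
        have : 2 * (absM y : ℝ) ≤ K := by exact_mod_cast hrho
        linarith
      have hfX : ∀ s, f s = (c : ℝ) / (K : ℝ) * (1 - X s) := by
        intro s
        rw [hX]
        have hK' : (K : ℝ) ≠ 0 := hK.ne'
        have hc'' : (c : ℝ) ≠ 0 := hc'.ne'
        field_simp
        ring
      have hpos : ∀ s, Cube s → 0 < f s := by
        intro s hs
        rw [hfX s]
        have := abs_le.1 (hXhalf s hs)
        have h1X : 0 < 1 - X s := by linarith
        positivity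
      refine ⟨hpos, ?_⟩
      obtain ⟨r, hr, h2⟩ := logH_spec hy' 5 (rel_unit 6 (by norm_num)) h1
      obtain ⟨z, hz, h3⟩ := mulC_spec hy' hr h2
      obtain ⟨lp, ln, le', hl, h4⟩ := logS_spec hc0 h3
      -- the constant with the remainder of the series
      have hconst : Rel (fun s => Real.log ((c : ℝ) / (K : ℝ)) +
          ((∑ i ∈ range 6, (X s) ^ (i + 1) / ((i : ℝ) + 1)) + Real.log (1 - X s)))
          (mkC lp ln (Nat.add le' (Nat.add (Nat.div (Nat.div (Nat.pow (absM y) 7) (Nat.pow K 5))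
            (Nat.mul 7 (Nat.sub K (absM y)))) 2))) := by
        apply rel_mkC_fun
        intro s hs
        have h5 := log_rem (hXabs s hs) hrho
        have h6 : ((Nat.add le' (Nat.add (Nat.div (Nat.div (Nat.pow (absM y) 7) (Nat.pow K 5))
            (Nat.mul 7 (Nat.sub K (absM y)))) 2) : ℕ) : ℝ) / (K : ℝ) = (le' : ℝ) / (K : ℝ) +
            ((Nat.add (Nat.div (Nat.div (Nat.pow (absM y) 7) (Nat.pow K 5))
            (Nat.mul 7 (Nat.sub K (absM y)))) 2 : ℕ) : ℝ) / (K : ℝ) := by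
          rw [← add_div]
          congr 1
          exact Nat.cast_add _ _
        rw [h6]
        calc _ = |(Real.log ((c : ℝ) / (K : ℝ)) - ((lp : ℝ) - (ln : ℝ)) / (K : ℝ)) +
              ((∑ i ∈ range 6, (X s) ^ (i + 1) / ((i : ℝ) + 1)) + Real.log (1 - X s))| := by
              congr 1
              ring
          _ ≤ _ := abs_add_le _ _
          _ ≤ _ := add_le_add hl h5
      obtain ⟨z', hz', h5⟩ := addC_spec hconst hz.neg h4
      refine ⟨z', hz'.congr_cube (fun s hs => ?_), h5⟩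
      have h1X : 0 < 1 - X s := by
        have := abs_le.1 (hXhalf s hs)
        linarith
      have hc3 : 0 < (c : ℝ) / (K : ℝ) := by positivity
      rw [hfX s, Real.log_mul hc3.ne' h1X.ne', logHR_five]
      ring
    · simp at h1
  · simp at h

end Vale.Agent.Lib.P154.TM
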