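import Vale.Agent.Lib.P154.TM.Row
import Vale.Agent.Lib.P154.Neg.DerivStep

/-!
The link between the row program and the family of the potential on the simplex.
-/

namespace Vale.Agent.Lib.P154.TM

open Vale.Agent.Lib.P154 Vale.Agent.Lib.P154.Neg

noncomputable section

/-- the potential with the fixed coefficients -/
def PhiC : Fn3 := PhiD c0R (-c2R) c3R

/-- its derivative part -/
def phiC : Fn3 := phiD (-c2R) c3R

/-- the row of the family with a general degree `d`, on the simplex -/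
def rowD (d t A m g a b c : ℝ) : ℝ :=
  PhiC a b c
    - d * (Real.exp (-A) * phiC (chanPt (-t) a) (chanPt (-t) b) (chanPt (-t) c)
        + m * (1 - Wc (chanPt (-t) a) (chanPt (-t) b) (chanPt (-t) c)))
    + m * A - c0R * (1 - Real.exp (-A)) - g * A ^ 2

/-- the family of the potential in terms of the row -/
theorem sFam_eq (d t A m g a b c : ℝ) :
    sFam d (-t) c0R (-c2R) c3R A (m - c0R) a b c
      = c0R * (Real.exp (-A) - 1 + A) - g * A ^ 2 - rowD d t A m g a b c := by
  have e3 : PhiD c0R (-c2R) c3R (chanPt (-t) a) (chanPt (-t) b) (chanPt (-t) c)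
      = c0R * (1 - Wc (chanPt (-t) a) (chanPt (-t) b) (chanPt (-t) c))
        + phiC (chanPt (-t) a) (chanPt (-t) b) (chanPt (-t) c) := by
    simp only [PhiD, phiC, phiD]
    ring
  simp only [sFam, rowD, e3]
  simp only [PhiC, phiC]
  ring

/-! ### coordinates -/

/-- COORD-1. The row program computes the row: for a point of the simplex with first coordinate
positive and `0 < t < 1 / 2`, with `al = b / a`, `ab = c / a` and `GP = D (c0 - Phi)`, `D = 1 / a`. -/
theorem rT_eq {a b c t A m g : ℝ} (hs : Simp a b c) (ha : 0 < a) (ht : 0 < t) (ht2 : t < 1 / 2) :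
    rT (b / a) (c / a) t (rD (b / a) (c / a) * (c0R - PhiC a b c)) A m g
      = (1 / a) * t ^ 2 * rowD (1 / t ^ 2) t A m g a b c := by
  have hsum := hs.hs
  have hD : rD (b / a) (c / a) = 1 / a := by
    simp only [rD]
    field_simp
    linarith
  have hb1 : b ≤ 1 := (simp_le_one hs).2.1
  have hc1 : c ≤ 1 := (simp_le_one hs).2.2
  have ha1 : a ≤ 1 := (simp_le_one hs).1
  have hC1 : 0 < chanPt (-t) a := by
    simp only [chanPt]; nlinarith
  have hC2 : 0 < chanPt (-t) b := by
    simp only [chanPt]; nlinarith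
  have hC3 : 0 < chanPt (-t) c := by
    simp only [chanPt]; nlinarith
  set C1 := chanPt (-t) a with hC1def
  set C2 := chanPt (-t) b with hC2def
  set C3 := chanPt (-t) c with hC3def
  have hDpos : 0 < 1 / a := by positivity
  have hB1 : rB1 (b / a) (c / a) t = (1 / a) * C1 := by
    simp only [rB1, hD, hC1def, chanPt]
    field_simp
    ring
  have hB2 : rB2 (b / a) (c / a) t = (1 / a) * C2 := by
    simp only [rB2, hD, hC2def, chanPt]
    field_simp
    ring
  have hB3 : rB3 (b / a) (c / a) t = (1 / a) * C3 := by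
    simp only [rB3, hD, hC3def, chanPt]
    field_simp
    ring
  have hL1 : Real.log (rB1 (b / a) (c / a) t) = Real.log (1 / a) + Real.log C1 := by
    rw [hB1, Real.log_mul hDpos.ne' hC1.ne']
  have hL2 : Real.log (rB2 (b / a) (c / a) t) = Real.log (1 / a) + Real.log C2 := by
    rw [hB2, Real.log_mul hDpos.ne' hC2.ne']
  have hL3 : Real.log (rB3 (b / a) (c / a) t) = Real.log (1 / a) + Real.log C3 := by
    rw [hB3, Real.log_mul hDpos.ne' hC3.ne']
  have hLm : rLm (b / a) (c / a) t
      = Real.log (1 / a) + (Real.log C1 + Real.log C2 + Real.log C3) / 3 := by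
    simp only [rLm, hL1, hL2, hL3]
    ring
  have hv1 : Real.log (rB1 (b / a) (c / a) t) - rLm (b / a) (c / a) t = v1 C1 C2 C3 := by
    rw [hL1, hLm]; simp only [v1]; ring
  have hv2 : Real.log (rB2 (b / a) (c / a) t) - rLm (b / a) (c / a) t = v1 C2 C3 C1 := by
    rw [hL2, hLm]; simp only [v1]; ring
  have hv3 : Real.log (rB3 (b / a) (c / a) t) - rLm (b / a) (c / a) t = v1 C3 C1 C2 := by
    rw [hL3, hLm]; simp only [v1]; ring
  have hP2 : rP2 (b / a) (c / a) t = v1 C1 C2 C3 ^ 2 + v1 C2 C3 C1 ^ 2 + v1 C3 C1 C2 ^ 2 := by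
    simp only [rP2, hv1, hv2, hv3]
  have hP3 : rP3 (b / a) (c / a) t = v1 C1 C2 C3 ^ 3 + v1 C2 C3 C1 ^ 3 + v1 C3 C1 C2 ^ 3 := by
    simp only [rP3, hv1, hv2, hv3]
  have hE : rE (b / a) (c / a) t = (1 / a) * Wc C1 C2 C3 := by
    simp only [rE, Wc]
    rw [mc_eq_exp hC1 hC2 hC3, hLm, Real.exp_add, Real.exp_log hDpos]
    have e : -((-Real.log C1 - Real.log C2 - Real.log C3) / 3)
        = (Real.log C1 + Real.log C2 + Real.log C3) / 3 := by ring
    rw [e]
    ring
  have hphi : phiC C1 C2 C3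
      = Wc C1 C2 C3 * (c3R * rP3 (b / a) (c / a) t - c2R * rP2 (b / a) (c / a) t) := by
    simp only [phiC, phiD, wP2, wP3, hP2, hP3]
    ring
  have ht0 : t ^ 2 ≠ 0 := by positivity
  simp only [rT, rX, rQ, rY, rU, hD, rowD, hE]
  simp only [← hC1def, ← hC2def, ← hC3def]
  rw [hphi]
  field_simp
  ring

/-- COORD-2. In the middle of the simplex: the coordinates `xi`, `eta`. -/
theorem near_coord {a b c : ℝ} (hs : Simp a b c) (hc : 0 < c) (hba : b ≤ a) (hcb : c ≤ b) :
    let x := Real.log (a / b) / 3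
    let e := Real.log (b / c) / 3
    0 ≤ x ∧ 0 ≤ e ∧ b / a = alN x ∧ c / a = abN x e
      ∧ rD (b / a) (c / a) * (c0R - PhiC a b c) = gpN x e := by
  intro x e
  have hsum := hs.hs
  have hb : 0 < b := lt_of_lt_of_le hc hcb
  have ha : 0 < a := lt_of_lt_of_le hb hba
  have hD : rD (b / a) (c / a) = 1 / a := by
    simp only [rD]
    field_simp
    linarith
  have hx3 : 3 * x = Real.log a - Real.log b := by
    simp only [x]
    rw [Real.log_div ha.ne' hb.ne']
    ring
  have he3 : 3 * e = Real.log b - Real.log c := by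
    simp only [e]
    rw [Real.log_div hb.ne' hc.ne']
    ring
  have hx0 : 0 ≤ x := by
    have : 0 ≤ Real.log (a / b) := Real.log_nonneg ((one_le_div hb).mpr hba)
    simp only [x]; positivity
  have he0 : 0 ≤ e := by
    have : 0 ≤ Real.log (b / c) := Real.log_nonneg ((one_le_div hc).mpr hcb)
    simp only [e]; positivity
  have hal : b / a = alN x := by
    simp only [alN]
    rw [hx3, show -(Real.log a - Real.log b) = Real.log (b / a) by
      rw [Real.log_div hb.ne' ha.ne']; ring, Real.exp_log (by positivity)]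
  have hab : c / a = abN x e := by
    simp only [abN]
    rw [hx3, he3, show -(Real.log a - Real.log b + (Real.log b - Real.log c)) = Real.log (c / a) by
      rw [Real.log_div hc.ne' ha.ne']; ring, Real.exp_log (by positivity)]
  refine ⟨hx0, he0, hal, hab, ?_⟩
  have hv1 : v1 a b c = 2 * x + e := by
    simp only [v1]; linarith
  have hv2 : v1 b c a = e - x := by
    simp only [v1]; linarith
  have hv3 : v1 c a b = -x - 2 * e := by
    simp only [v1]; linarith
  have hW : (1 / a) * Wc a b c = 3 * Real.exp (-(2 * x + e)) := by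
    simp only [Wc]
    rw [mc_eq_exp ha hb hc]
    have e1 : -((-Real.log a - Real.log b - Real.log c) / 3) = Real.log a + (-(2 * x + e)) := by
      linarith
    rw [e1, Real.exp_add, Real.exp_log ha]
    field_simp
  have hPhi : c0R - PhiC a b c = Wc a b c * PiR x e := by
    simp only [PhiC, PhiD, wP2, wP3, hv1, hv2, hv3, PiR]
    ring
  rw [hD, hPhi, ← mul_assoc, hW]
  simp only [gpN]
  ring

/-- FAR-1. The bracket is small far from the middle. -/
theorem far_gp {x e : ℝ} (hx : 0 ≤ x) (he : 0 ≤ e) (hw : 16 ≤ 2 * x + e) :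
    |gpN x e| ≤ 1 / 1000 := by
  obtain ⟨w, hwdef⟩ : ∃ w, w = 2 * x + e := ⟨_, rfl⟩
  have hw0 : 0 ≤ w := by rw [hwdef]; positivity
  have hw16 : 16 ≤ w := by rw [hwdef]; exact hw
  -- the bracket
  have hK : |2 * x ^ 3 + 3 * x ^ 2 * e - 3 * x * e ^ 2 - 2 * e ^ 3| ≤ 2 * w ^ 3 := by
    have e1 : 2 * x ^ 3 + 3 * x ^ 2 * e - 3 * x * e ^ 2 - 2 * e ^ 3
        = (x - e) * (2 * x + e) * (x + 2 * e) := by ring
    have h1 : |x - e| ≤ w := by
      rw [abs_le]; constructor <;> rw [hwdef] <;> linarith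
    have h2 : |x + 2 * e| ≤ 2 * w := by
      rw [abs_of_nonneg (by positivity)]
      rw [hwdef]; linarith
    have h3 : |2 * x + e| = w := by
      rw [hwdef, abs_of_nonneg (by positivity)]
    rw [e1, abs_mul, abs_mul, h3]
    have h4 : |x - e| * w * |x + 2 * e| ≤ w * w * (2 * w) := by
      apply mul_le_mul (mul_le_mul_of_nonneg_right h1 hw0) h2 (abs_nonneg _)
      positivity
    calc |x - e| * w * |x + 2 * e| ≤ w * w * (2 * w) := h4
      _ = 2 * w ^ 3 := by ring
  have hS : x ^ 2 + x * e + e ^ 2 ≤ w ^ 2 := by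
    rw [hwdef]; nlinarith [mul_nonneg hx he, sq_nonneg x]
  have hS0 : 0 ≤ x ^ 2 + x * e + e ^ 2 := by positivity
  have hPi : |PiR x e| ≤ 3 / 2 + w ^ 2 + w ^ 3 / 5 := by
    simp only [PiR, c0R, c2R, c3R]
    have hK' := abs_le.mp hK
    have hw3 : 0 ≤ w ^ 3 := by positivity
    have hw2 : 0 ≤ w ^ 2 := by positivity
    rw [abs_le]
    constructor <;> nlinarith
  -- the exponential
  have h16 : (8800000 : ℝ) ≤ Real.exp 16 := by
    have e1 : Real.exp 16 = Real.exp 1 ^ 16 := by
      rw [← Real.exp_nat_mul]; norm_num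
    rw [e1]
    have h1 : (2.7182818283 : ℝ) ≤ Real.exp 1 := Real.exp_one_gt_d9.le
    calc (8800000 : ℝ) ≤ (2.7182818283 : ℝ) ^ 16 := by norm_num
      _ ≤ Real.exp 1 ^ 16 := pow_le_pow_left₀ (by norm_num) h1 16
  obtain ⟨y, hydef⟩ : ∃ y, y = w - 16 := ⟨_, rfl⟩
  have hy : 0 ≤ y := by rw [hydef]; linarith
  have hexpy : 1 + y + y ^ 2 / 2 + y ^ 3 / 6 ≤ Real.exp y := by
    have := Real.sum_le_exp_of_nonneg hy 4
    simp only [Finset.sum_range_succ, Finset.sum_range_zero, Nat.factorial] at this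
    norm_num at this
    linarith
  have hexpw : Real.exp w = Real.exp 16 * Real.exp y := by
    rw [← Real.exp_add, hydef]; congr 1; ring
  have hmain : 3000 * (3 / 2 + w ^ 2 + w ^ 3 / 5) ≤ Real.exp w := by
    rw [hexpw]
    have h1 : 8800000 * (1 + y + y ^ 2 / 2 + y ^ 3 / 6) ≤ Real.exp 16 * Real.exp y := by
      apply mul_le_mul h16 hexpy (by positivity) (Real.exp_pos _).le
    have hwy : w = 16 + y := by rw [hydef]; ring
    rw [hwy]
    have hy2 : 0 ≤ y ^ 2 := by positivity
    have hy3 : 0 ≤ y ^ 3 := by positivity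
    nlinarith
  have hexpneg : Real.exp (-w) * Real.exp w = 1 := by
    rw [← Real.exp_add]; simp
  have hexpos : 0 < Real.exp (-w) := Real.exp_pos _
  have hfinal : 3 * (Real.exp (-w) * (3 / 2 + w ^ 2 + w ^ 3 / 5)) ≤ 1 / 1000 := by
    have h1 : Real.exp (-w) * (3000 * (3 / 2 + w ^ 2 + w ^ 3 / 5)) ≤ Real.exp (-w) * Real.exp w :=
      mul_le_mul_of_nonneg_left hmain hexpos.le
    rw [hexpneg] at h1
    nlinarith
  simp only [gpN]
  rw [← hwdef, abs_mul, abs_mul, abs_of_pos hexpos]
  have h3 : |(3 : ℝ)| = 3 := abs_of_pos (by norm_num)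
  rw [h3]
  have h4 : Real.exp (-w) * |PiR x e| ≤ Real.exp (-w) * (3 / 2 + w ^ 2 + w ^ 3 / 5) :=
    mul_le_mul_of_nonneg_left hPi hexpos.le
  linarith

/-- FAR-2. On the boundary of the simplex. -/
theorem bdry_gp {a b : ℝ} (hs : Simp a b 0) (ha : 0 < a) :
    rD (b / a) (0 / a) * (c0R - PhiC a b 0) = 0 := by
  have h0 : Wc a b 0 = 0 := by
    simp only [Wc, mc_zero_right, mul_zero]
  have h1 : PhiC a b 0 = c0R := by
    simp only [PhiC, PhiD, wP2, wP3, h0]
    ring
  rw [h1]
  ring

end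

end Vale.Agent.Lib.P154.TM
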