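/-!
Taylor models with natural number coefficients: polynomials as nested lists.

A polynomial in three variables `s1, s2, s3` in `[-1, 1]` of bounded total degree is a nested list
of natural numbers. These are the operations in their generic form; the soundness proofs are done
for this form, the kernel evaluates the flat form of the file `Flat`.
-/

namespace Vale.Agent.Lib.P154.TM

/-- polynomials in one variable: coefficients, lowest degree first -/
abbrev P1 := List Nat
/-- polynomials in two variables -/
abbrev P2 := List P1
/-- polynomials in three variables -/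
abbrev P3 := List P2

/-- sum of lists -/
def addG {C : Type} (add : C → C → C) : List C → List C → List C
  | [], q => q
  | p, [] => p
  | a :: p, b :: q => add a b :: addG add p q

def add1 : P1 → P1 → P1 := addG Nat.add
def add2 : P2 → P2 → P2 := addG add1
def add3 : P3 → P3 → P3 := addG add2

/-- the coefficient `a` times the list `q`, with decreasing degree -/
def mulRow {C : Type} (mulC : Nat → C → C → C) : Nat → C → List C → List C
  | _, _, [] => []
  | 0, a, b :: _ => [mulC 0 a b]
  | d + 1, a, b :: q => mulC (d + 1) a b :: mulRow mulC d a q

/-- truncated product of polynomials over a coefficient type. `mulC d a b` is the product of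
coefficients, truncated to total degree `d`. The result is truncated to total degree `d`. -/
def mulG {C : Type} (add : C → C → C) (mulC : Nat → C → C → C) : Nat → List C → List C → List C
  | _, [], _ => []
  | _, _ :: _, [] => []
  | 0, a :: _, b :: _ => [mulC 0 a b]
  | d + 1, a :: p, b :: q =>
    mulC (d + 1) a b :: addG add (mulRow mulC d a q) (mulG add mulC d p (b :: q))

def mul0 (_ : Nat) (a b : Nat) : Nat := Nat.mul a b
def mul1 : Nat → P1 → P1 → P1 := mulG Nat.add mul0
def mul2 : Nat → P2 → P2 → P2 := mulG add1 mul1
def mul3 : Nat → P3 → P3 → P3 := mulG add2 mul2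

/-- sum over a list -/
def majG {C : Type} (maj : C → Nat) : List C → Nat
  | [] => 0
  | a :: p => Nat.add (maj a) (majG maj p)

def maj1 : P1 → Nat := majG id
def maj2 : P2 → Nat := majG maj1
def maj3 : P3 → Nat := majG maj2

/-- coefficientwise `(a - b) / K`, on lists of possibly different length -/
def fixL {C : Type} (zero : C) (fix : C → C → C) : List C → List C
  | [] => []
  | a :: p => fix a zero :: fixL zero fix p
def fixR {C : Type} (zero : C) (fix : C → C → C) : List C → List C
  | [] => []
  | b :: q => fix zero b :: fixR zero fix q
def fixG {C : Type} (zero : C) (fix : C → C → C) : List C → List C → List C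
  | [], q => fixR zero fix q
  | a :: p, [] => fix a zero :: fixL zero fix p
  | a :: p, b :: q => fix a b :: fixG zero fix p q

def fix0 (K a b : Nat) : Nat := Nat.div (Nat.sub a b) K
def fix1 (K : Nat) : P1 → P1 → P1 := fixG 0 (fix0 K)
def fix2 (K : Nat) : P2 → P2 → P2 := fixG [] (fix1 K)
def fix3 (K : Nat) : P3 → P3 → P3 := fixG [] (fix2 K)

/-- coefficientwise `a - b` -/
def cut1 : P1 → P1 → P1 := fixG 0 Nat.sub
def cut2 : P2 → P2 → P2 := fixG [] cut1
def cut3 : P3 → P3 → P3 := fixG [] cut2

/-- coefficientwise `a * num / den` -/
def scl0 (num den a : Nat) : Nat := Nat.div (Nat.mul a num) den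
def scl1 (num den : Nat) : P1 → P1 := List.map (scl0 num den)
def scl2 (num den : Nat) : P2 → P2 := List.map (scl1 num den)
def scl3 (num den : Nat) : P3 → P3 := List.map (scl2 num den)

end Vale.Agent.Lib.P154.TM
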