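import Mathlib
import Vale.Agent.Lib.P154.TM.Code

/-!
Soundness of the operations on models. `Rel f M` says that the model `M` encloses the function `f` on
the cube.
-/

namespace Vale.Agent.Lib.P154.TM

/-- evaluation of a polynomial as a list, by the Horner scheme -/
noncomputable def evG {C : Type} (ev : C → ℝ) (s : ℝ) : List C → ℝ
  | [] => 0
  | a :: p => ev a + s * evG ev s p

noncomputable def ev1 (s3 : ℝ) : P1 → ℝ := evG (fun a : ℕ => (a : ℝ)) s3
noncomputable def ev2 (s2 s3 : ℝ) : P2 → ℝ := evG (ev1 s3) s2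
noncomputable def ev3 (s1 s2 s3 : ℝ) : P3 → ℝ := evG (ev2 s2 s3) s1

/-- points of the cube -/
abbrev S := ℝ × ℝ × ℝ

/-- the cube -/
def Cube (s : S) : Prop := |s.1| ≤ 1 ∧ |s.2.1| ≤ 1 ∧ |s.2.2| ≤ 1

/-- evaluation of a flat polynomial -/
noncomputable def evV (x : V) (s : S) : ℝ := ev3 s.1 s.2.1 s.2.2 (toP3 x)

/-- the model encloses the function on the cube -/
def Rel (f : S → ℝ) (M : Md) : Prop :=
  ∀ s, Cube s → |f s - (evV M.pos s - evV M.neg s) / (K : ℝ)| ≤ (M.e : ℝ) / (K : ℝ)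

theorem K_pos : (0 : ℝ) < (K : ℝ) := by
  have : 0 < K := by decide
  exact_mod_cast this

theorem fN_eq {α : Type} (n : ℕ) (k : ℕ → α) : fN n k = k n := by
  cases n <;> rfl

theorem fV_eq {α : Type} (k : V → α) (x : V) : fV k x = k x := by
  cases x
  simp only [fV, fN_eq]

/-! ### generic lemmas on lists -/

section Generic

lemma evG_nil {C : Type} (ev : C → ℝ) (s : ℝ) : evG ev s [] = 0 := rfl

lemma evG_cons {C : Type} (ev : C → ℝ) (s : ℝ) (a : C) (p : List C) :
    evG ev s (a :: p) = ev a + s * evG ev s p := rfl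

lemma majG_nil {C : Type} (maj : C → ℕ) : majG maj [] = 0 := rfl

lemma majG_cons {C : Type} (maj : C → ℕ) (a : C) (p : List C) :
    majG maj (a :: p) = maj a + majG maj p := rfl

lemma abs_mul_le' {x y X Y : ℝ} (hx : |x| ≤ X) (hy : |y| ≤ Y) : |x * y| ≤ X * Y := by
  rw [abs_mul]
  exact mul_le_mul hx hy (abs_nonneg _) ((abs_nonneg _).trans hx)

lemma abs_smul_le' {s x X : ℝ} (hs : |s| ≤ 1) (hx : |x| ≤ X) : |s * x| ≤ X := by
  have := abs_mul_le' hs hx
  simpa using this

/-- the facts of one level of coefficients -/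
structure Sys (C : Type) where
  ev : C → ℝ
  maj : C → ℕ
  add : C → C → C
  mul : ℕ → C → C → C
  abs_ev : ∀ a, |ev a| ≤ (maj a : ℝ)
  ev_add : ∀ a b, ev (add a b) = ev a + ev b
  maj_add : ∀ a b, maj (add a b) = maj a + maj b
  mul_le : ∀ d a b, maj (mul d a b) ≤ maj a * maj b
  mul_err : ∀ d a b, |ev a * ev b - ev (mul d a b)| ≤ (maj a : ℝ) * (maj b : ℝ) - (maj (mul d a b) : ℝ)

namespace Sys

variable {C : Type} (Y : Sys C) {s : ℝ}

lemma abs_evG (hs : |s| ≤ 1) (p : List C) : |evG Y.ev s p| ≤ (majG Y.maj p : ℝ) := by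
  induction p with
  | nil => simp [evG_nil, majG_nil]
  | cons a p ih =>
    rw [evG_cons, majG_cons]
    push_cast
    exact (abs_add_le _ _).trans (add_le_add (Y.abs_ev a) (abs_smul_le' hs ih))

lemma evG_addG (p q : List C) :
    evG Y.ev s (addG Y.add p q) = evG Y.ev s p + evG Y.ev s q := by
  induction p generalizing q with
  | nil => simp [addG, evG_nil]
  | cons a p ih =>
    cases q with
    | nil => simp [addG, evG_nil]
    | cons b q =>
      simp only [addG, evG_cons, Y.ev_add, ih]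
      ring

lemma majG_addG (p q : List C) :
    majG Y.maj (addG Y.add p q) = majG Y.maj p + majG Y.maj q := by
  induction p generalizing q with
  | nil => simp [addG, majG_nil]
  | cons a p ih =>
    cases q with
    | nil => simp [addG, majG_nil]
    | cons b q =>
      simp only [addG, majG_cons, Y.maj_add, ih]
      omega

lemma mulRow_spec (hs : |s| ≤ 1) (a : C) (q : List C) (d : ℕ) :
    majG Y.maj (mulRow Y.mul d a q) ≤ Y.maj a * majG Y.maj q ∧
    |Y.ev a * evG Y.ev s q - evG Y.ev s (mulRow Y.mul d a q)|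
      ≤ (Y.maj a : ℝ) * (majG Y.maj q : ℝ) - (majG Y.maj (mulRow Y.mul d a q) : ℝ) := by
  induction q generalizing d with
  | nil =>
    cases d <;> simp [mulRow, evG_nil, majG_nil]
  | cons b q ih =>
    cases d with
    | zero =>
      have h1 := Y.mul_err 0 a b
      have h2 := Y.mul_le 0 a b
      have h3 := abs_mul_le' (Y.abs_ev a) (Y.abs_evG hs q)
      simp only [mulRow, evG_cons, evG_nil, majG_cons, majG_nil]
      constructor
      · have : Y.maj a * (Y.maj b + majG Y.maj q) = Y.maj a * Y.maj b + Y.maj a * majG Y.maj q :=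
          Nat.mul_add _ _ _
        have h5 := Nat.zero_le (Y.maj a * majG Y.maj q)
        omega
      · have e : Y.ev a * (Y.ev b + s * evG Y.ev s q) - (Y.ev (Y.mul 0 a b) + s * 0)
            = (Y.ev a * Y.ev b - Y.ev (Y.mul 0 a b)) + s * (Y.ev a * evG Y.ev s q) := by ring
        rw [e]
        refine (abs_add_le _ _).trans ?_
        have h4 := abs_smul_le' hs h3
        push_cast
        nlinarith
    | succ d =>
      have h1 := Y.mul_err (d + 1) a b
      have h2 := Y.mul_le (d + 1) a b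
      obtain ⟨h3, h4⟩ := ih d
      simp only [mulRow, evG_cons, majG_cons]
      constructor
      · have : Y.maj a * (Y.maj b + majG Y.maj q) = Y.maj a * Y.maj b + Y.maj a * majG Y.maj q :=
          Nat.mul_add _ _ _
        omega
      · have e : Y.ev a * (Y.ev b + s * evG Y.ev s q)
              - (Y.ev (Y.mul (d + 1) a b) + s * evG Y.ev s (mulRow Y.mul d a q))
            = (Y.ev a * Y.ev b - Y.ev (Y.mul (d + 1) a b))
              + s * (Y.ev a * evG Y.ev s q - evG Y.ev s (mulRow Y.mul d a q)) := by ring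
        rw [e]
        refine (abs_add_le _ _).trans ?_
        have h5 := abs_smul_le' hs h4
        push_cast
        nlinarith

lemma mulG_spec (hs : |s| ≤ 1) (p q : List C) (d : ℕ) :
    majG Y.maj (mulG Y.add Y.mul d p q) ≤ majG Y.maj p * majG Y.maj q ∧
    |evG Y.ev s p * evG Y.ev s q - evG Y.ev s (mulG Y.add Y.mul d p q)|
      ≤ (majG Y.maj p : ℝ) * (majG Y.maj q : ℝ) - (majG Y.maj (mulG Y.add Y.mul d p q) : ℝ) := by
  induction p generalizing d q with
  | nil =>
    cases d <;> simp [mulG, evG_nil, majG_nil]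
  | cons a p ih =>
    cases q with
    | nil =>
      cases d <;> simp [mulG, evG_nil, majG_nil]
    | cons b q =>
      have hQ := Y.abs_evG hs (b :: q)
      have hq := Y.abs_evG hs q
      have hP := Y.abs_evG hs p
      rw [majG_cons] at hQ
      push_cast at hQ
      rw [evG_cons] at hQ
      cases d with
      | zero =>
        have h1 := Y.mul_err 0 a b
        have h2 := Y.mul_le 0 a b
        have h3 := abs_mul_le' (Y.abs_ev a) hq
        have h4 := abs_mul_le' hP hQ
        simp only [mulG, evG_cons, evG_nil, majG_cons, majG_nil]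
        constructor
        · have : (Y.maj a + majG Y.maj p) * (Y.maj b + majG Y.maj q)
              = Y.maj a * Y.maj b + Y.maj a * majG Y.maj q + majG Y.maj p * (Y.maj b + majG Y.maj q) := by
            ring
          omega
        · have e : (Y.ev a + s * evG Y.ev s p) * (Y.ev b + s * evG Y.ev s q)
              - (Y.ev (Y.mul 0 a b) + s * 0)
              = (Y.ev a * Y.ev b - Y.ev (Y.mul 0 a b)) + s * (Y.ev a * evG Y.ev s q)
                + s * (evG Y.ev s p * (Y.ev b + s * evG Y.ev s q)) := by ring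
          rw [e]
          refine (abs_add_le _ _).trans ?_
          refine (add_le_add_left (abs_add_le _ _) _).trans ?_
          have h5 := abs_smul_le' hs h3
          have h6 := abs_smul_le' hs h4
          push_cast
          nlinarith
      | succ d =>
        have h1 := Y.mul_err (d + 1) a b
        have h2 := Y.mul_le (d + 1) a b
        obtain ⟨h3, h4⟩ := Y.mulRow_spec hs a q d
        obtain ⟨h5, h6⟩ := ih (b :: q) d
        rw [majG_cons] at h5 h6
        rw [evG_cons] at h6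
        push_cast at h6
        simp only [mulG, evG_cons, majG_cons, Y.evG_addG, Y.majG_addG]
        constructor
        · have : (Y.maj a + majG Y.maj p) * (Y.maj b + majG Y.maj q)
              = Y.maj a * Y.maj b + Y.maj a * majG Y.maj q + majG Y.maj p * (Y.maj b + majG Y.maj q) := by
            ring
          omega
        · have e : (Y.ev a + s * evG Y.ev s p) * (Y.ev b + s * evG Y.ev s q)
              - (Y.ev (Y.mul (d + 1) a b) + s * (evG Y.ev s (mulRow Y.mul d a q)
                + evG Y.ev s (mulG Y.add Y.mul d p (b :: q))))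
              = (Y.ev a * Y.ev b - Y.ev (Y.mul (d + 1) a b))
                + s * (Y.ev a * evG Y.ev s q - evG Y.ev s (mulRow Y.mul d a q))
                + s * (evG Y.ev s p * (Y.ev b + s * evG Y.ev s q)
                    - evG Y.ev s (mulG Y.add Y.mul d p (b :: q))) := by ring
          rw [e]
          refine (abs_add_le _ _).trans ?_
          refine (add_le_add_left (abs_add_le _ _) _).trans ?_
          have h7 := abs_smul_le' hs h4
          have h8 := abs_smul_le' hs h6
          push_cast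
          nlinarith

/-- the next level -/
noncomputable def lift (hs : |s| ≤ 1) : Sys (List C) where
  ev := evG Y.ev s
  maj := majG Y.maj
  add := addG Y.add
  mul := mulG Y.add Y.mul
  abs_ev := Y.abs_evG hs
  ev_add := Y.evG_addG
  maj_add := Y.majG_addG
  mul_le := fun d a b => (Y.mulG_spec hs a b d).1
  mul_err := fun d a b => (Y.mulG_spec hs a b d).2

end Sys

/-- the level of the natural numbers -/
noncomputable def sys0 : Sys ℕ where
  ev := fun a => (a : ℝ)
  maj := id
  add := Nat.add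
  mul := mul0
  abs_ev := fun a => by simp
  ev_add := fun a b => by simp
  maj_add := fun a b => rfl
  mul_le := fun d a b => le_rfl
  mul_err := fun d a b => by simp [mul0]

/-- the linear facts of one level of coefficients, for the factor `c` -/
structure Fx (C : Type) (c : ℝ) where
  ev : C → ℝ
  zero : C
  fix : C → C → C
  cnt : C → ℕ
  ev_zero : ev zero = 0
  cnt_zero : cnt zero = 0
  err : ∀ a b, |c * (ev a - ev b) - (ev (fix a b) - ev (fix b a))| ≤ (cnt a : ℝ) + (cnt b : ℝ)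

namespace Fx

variable {C : Type} {c : ℝ} (Y : Fx C c) {s : ℝ}

lemma fixLR (hs : |s| ≤ 1) (p : List C) :
    |c * evG Y.ev s p - (evG Y.ev s (fixL Y.zero Y.fix p) - evG Y.ev s (fixR Y.zero Y.fix p))|
      ≤ (majG Y.cnt p : ℝ) := by
  induction p with
  | nil => simp [fixL, fixR, evG_nil, majG_nil]
  | cons a p ih =>
    have h1 := Y.err a Y.zero
    rw [Y.ev_zero, Y.cnt_zero] at h1
    simp only [fixL, fixR, evG_cons, majG_cons]
    have e : c * (Y.ev a + s * evG Y.ev s p)
        - (Y.ev (Y.fix a Y.zero) + s * evG Y.ev s (fixL Y.zero Y.fix p)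
          - (Y.ev (Y.fix Y.zero a) + s * evG Y.ev s (fixR Y.zero Y.fix p)))
        = (c * (Y.ev a - 0) - (Y.ev (Y.fix a Y.zero) - Y.ev (Y.fix Y.zero a)))
          + s * (c * evG Y.ev s p
            - (evG Y.ev s (fixL Y.zero Y.fix p) - evG Y.ev s (fixR Y.zero Y.fix p))) := by ring
    rw [e]
    refine (abs_add_le _ _).trans ?_
    have h2 := abs_smul_le' hs ih
    push_cast at h1 ⊢
    linarith

lemma fixG_nil_right (p : List C) : fixG Y.zero Y.fix p [] = fixL Y.zero Y.fix p := by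
  cases p <;> rfl

lemma fixG_err (hs : |s| ≤ 1) (p q : List C) :
    |c * (evG Y.ev s p - evG Y.ev s q)
        - (evG Y.ev s (fixG Y.zero Y.fix p q) - evG Y.ev s (fixG Y.zero Y.fix q p))|
      ≤ (majG Y.cnt p : ℝ) + (majG Y.cnt q : ℝ) := by
  induction p generalizing q with
  | nil =>
    have h := Y.fixLR hs q
    rw [Y.fixG_nil_right]
    have e : fixG Y.zero Y.fix [] q = fixR Y.zero Y.fix q := by simp [fixG]
    rw [e, evG_nil, majG_nil]
    rw [← abs_neg]
    convert h using 1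
    · congr 1; ring
    · simp
  | cons a p ih =>
    cases q with
    | nil =>
      have h := Y.fixLR hs (a :: p)
      rw [Y.fixG_nil_right]
      have e : fixG Y.zero Y.fix [] (a :: p) = fixR Y.zero Y.fix (a :: p) := by simp [fixG]
      rw [e, evG_nil, majG_nil]
      convert h using 1
      · congr 1; ring
      · simp
    | cons b q =>
      have h1 := Y.err a b
      have h2 := abs_smul_le' hs (ih q)
      simp only [fixG, evG_cons, majG_cons]
      have e : c * (Y.ev a + s * evG Y.ev s p - (Y.ev b + s * evG Y.ev s q))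
          - (Y.ev (Y.fix a b) + s * evG Y.ev s (fixG Y.zero Y.fix p q)
            - (Y.ev (Y.fix b a) + s * evG Y.ev s (fixG Y.zero Y.fix q p)))
          = (c * (Y.ev a - Y.ev b) - (Y.ev (Y.fix a b) - Y.ev (Y.fix b a)))
            + s * (c * (evG Y.ev s p - evG Y.ev s q)
              - (evG Y.ev s (fixG Y.zero Y.fix p q) - evG Y.ev s (fixG Y.zero Y.fix q p))) := by ring
      rw [e]
      refine (abs_add_le _ _).trans ?_
      push_cast
      linarith

/-- the next level -/
noncomputable def lift (hs : |s| ≤ 1) : Fx (List C) c where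
  ev := evG Y.ev s
  zero := []
  fix := fixG Y.zero Y.fix
  cnt := majG Y.cnt
  ev_zero := rfl
  cnt_zero := rfl
  err := Y.fixG_err hs

end Fx

lemma natdiv_eq (a b : ℕ) : Nat.div a b = a / b := rfl

/-- one for a nonzero number -/
def cnt0 (a : ℕ) : ℕ := if a = 0 then 0 else 1

lemma cnt0_le (a : ℕ) : cnt0 a ≤ 1 := by
  unfold cnt0
  split_ifs <;> omega

lemma div_bracket (n D : ℕ) (hD : 0 < D) :
    ((n / D : ℕ) : ℝ) ≤ (n : ℝ) / (D : ℝ) ∧ (n : ℝ) / (D : ℝ) ≤ ((n / D : ℕ) : ℝ) + 1 := by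
  have hD' : (0 : ℝ) < (D : ℝ) := by exact_mod_cast hD
  constructor
  · exact Nat.cast_div_le
  · rw [div_le_iff₀ hD']
    have h1 := Nat.div_add_mod n D
    have h2 := Nat.mod_lt n hD
    have h3 : (n : ℝ) = (D : ℝ) * ((n / D : ℕ) : ℝ) + ((n % D : ℕ) : ℝ) := by
      exact_mod_cast h1.symm
    have h4 : ((n % D : ℕ) : ℝ) ≤ (D : ℝ) := by exact_mod_cast h2.le
    nlinarith

/-- the level of the natural numbers, for the division by `D` -/
noncomputable def fxFix (D : ℕ) (hD : 0 < D) : Fx ℕ (1 / (D : ℝ)) where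
  ev := fun a => (a : ℝ)
  zero := 0
  fix := fix0 D
  cnt := cnt0
  ev_zero := by simp
  cnt_zero := rfl
  err := fun a b => by
    have hD' : (0 : ℝ) < (D : ℝ) := by exact_mod_cast hD
    have key : |1 / (D : ℝ) * ((a : ℝ) - (b : ℝ)) - (((fix0 D a b : ℕ) : ℝ) - ((fix0 D b a : ℕ) : ℝ))| ≤ 1 := by
      unfold fix0
      simp only [Nat.sub_eq, natdiv_eq]
      rcases le_total a b with h | h
      · have h1 : a - b = 0 := by omega
        have h2 := div_bracket (b - a) D hD
        have h3 : ((b - a : ℕ) : ℝ) = (b : ℝ) - (a : ℝ) := by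
          rw [Nat.cast_sub h]
        rw [h3] at h2
        rw [h1, Nat.zero_div]
        rw [abs_le]
        have e : 1 / (D : ℝ) * ((a : ℝ) - (b : ℝ)) = - (((b : ℝ) - (a : ℝ)) / (D : ℝ)) := by ring
        rw [e]
        simp only [Nat.cast_zero]
        constructor <;> linarith [h2.1, h2.2]
      · have h1 : b - a = 0 := by omega
        have h2 := div_bracket (a - b) D hD
        have h3 : ((a - b : ℕ) : ℝ) = (a : ℝ) - (b : ℝ) := by
          rw [Nat.cast_sub h]
        rw [h3] at h2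
        rw [h1, Nat.zero_div]
        rw [abs_le]
        have e : 1 / (D : ℝ) * ((a : ℝ) - (b : ℝ)) = ((a : ℝ) - (b : ℝ)) / (D : ℝ) := by ring
        rw [e]
        simp only [Nat.cast_zero]
        constructor <;> linarith [h2.1, h2.2]
    by_cases ha : a = 0
    · by_cases hb : b = 0
      · subst ha; subst hb
        simp [fix0]
      · have : cnt0 b = 1 := by simp [cnt0, hb]
        rw [this]
        push_cast
        have : (0 : ℝ) ≤ (cnt0 a : ℝ) := Nat.cast_nonneg _
        linarith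
    · have : cnt0 a = 1 := by simp [cnt0, ha]
      rw [this]
      push_cast
      have : (0 : ℝ) ≤ (cnt0 b : ℝ) := Nat.cast_nonneg _
      linarith

/-- the level of the natural numbers, for the truncated subtraction -/
noncomputable def fxCut : Fx ℕ 1 where
  ev := fun a => (a : ℝ)
  zero := 0
  fix := Nat.sub
  cnt := fun _ => 0
  ev_zero := by simp
  cnt_zero := rfl
  err := fun a b => by
    simp only [Nat.sub_eq]
    rcases le_total a b with h | h
    · have h1 : a - b = 0 := by omega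
      rw [h1, Nat.cast_sub h]
      simp
    · have h1 : b - a = 0 := by omega
      rw [h1, Nat.cast_sub h]
      simp

lemma majG_const_zero {C : Type} (cnt : C → ℕ) (hc : ∀ a, cnt a = 0) (p : List C) :
    majG cnt p = 0 := by
  induction p with
  | nil => rfl
  | cons a p ih => rw [majG_cons, ih, hc]

lemma scl_err {C : Type} (ev : C → ℝ) (g : C → C) (cnt : C → ℕ) {c s : ℝ} (hs : |s| ≤ 1)
    (h : ∀ a, |c * ev a - ev (g a)| ≤ (cnt a : ℝ)) (p : List C) :
    |c * evG ev s p - evG ev s (p.map g)| ≤ (majG cnt p : ℝ) := by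
  induction p with
  | nil => simp [evG_nil, majG_nil]
  | cons a p ih =>
    rw [List.map_cons, evG_cons, evG_cons, majG_cons]
    have e : c * (ev a + s * evG ev s p) - (ev (g a) + s * evG ev s (p.map g))
        = (c * ev a - ev (g a)) + s * (c * evG ev s p - evG ev s (p.map g)) := by ring
    rw [e]
    refine (abs_add_le _ _).trans ?_
    push_cast
    exact add_le_add (h a) (abs_smul_le' hs ih)

lemma scl_base (num den : ℕ) (hden : 0 < den) (a : ℕ) :
    |(num : ℝ) / (den : ℝ) * (a : ℝ) - ((scl0 num den a : ℕ) : ℝ)| ≤ (cnt0 a : ℝ) := by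
  by_cases ha : a = 0
  · subst ha
    simp [scl0, cnt0, natdiv_eq]
  · have h1 : cnt0 a = 1 := by simp [cnt0, ha]
    rw [h1]
    unfold scl0
    simp only [Nat.mul_eq, natdiv_eq]
    have h2 := div_bracket (a * num) den hden
    have e : (num : ℝ) / (den : ℝ) * (a : ℝ) = ((a * num : ℕ) : ℝ) / (den : ℝ) := by
      push_cast
      ring
    rw [e, abs_le]
    push_cast at h2 ⊢
    constructor <;> linarith [h2.1, h2.2]

end Generic

/-! ### flat polynomials on the cube -/

section Flat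

/-- the number of the nonzero coefficients -/
def cnt3 : P3 → ℕ := majG (majG (majG cnt0))

theorem cnt3_le (x : V) : cnt3 (toP3 x) ≤ 35 := by
  cases x with
  | mk x0 x1 x2 x3 x4 x5 x6 x7 x8 x9 x10 x11 x12 x13 x14 x15 x16 x17 x18 x19 x20 x21 x22 x23 x24 x25 x26 x27 x28 x29 x30 x31 x32 x33 x34 =>
    simp only [cnt3, toP3, majG_cons, majG_nil]
    have h0 := cnt0_le x0
    have h1 := cnt0_le x1
    have h2 := cnt0_le x2
    have h3 := cnt0_le x3
    have h4 := cnt0_le x4
    have h5 := cnt0_le x5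
    have h6 := cnt0_le x6
    have h7 := cnt0_le x7
    have h8 := cnt0_le x8
    have h9 := cnt0_le x9
    have h10 := cnt0_le x10
    have h11 := cnt0_le x11
    have h12 := cnt0_le x12
    have h13 := cnt0_le x13
    have h14 := cnt0_le x14
    have h15 := cnt0_le x15
    have h16 := cnt0_le x16
    have h17 := cnt0_le x17
    have h18 := cnt0_le x18
    have h19 := cnt0_le x19
    have h20 := cnt0_le x20
    have h21 := cnt0_le x21
    have h22 := cnt0_le x22
    have h23 := cnt0_le x23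
    have h24 := cnt0_le x24
    have h25 := cnt0_le x25
    have h26 := cnt0_le x26
    have h27 := cnt0_le x27
    have h28 := cnt0_le x28
    have h29 := cnt0_le x29
    have h30 := cnt0_le x30
    have h31 := cnt0_le x31
    have h32 := cnt0_le x32
    have h33 := cnt0_le x33
    have h34 := cnt0_le x34
    omega

/-- all levels at a point of the cube -/
noncomputable def sysS (s : S) (hs : Cube s) : Sys P3 :=
  ((sys0.lift hs.2.2).lift hs.2.1).lift hs.1

lemma evV_abs (x : V) {s : S} (hs : Cube s) : |evV x s| ≤ (majV x : ℝ) := by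
  rw [majV_eq]
  exact (sysS s hs).abs_ev (toP3 x)

lemma evV_add (x y : V) {s : S} (hs : Cube s) : evV (addV x y) s = evV x s + evV y s := by
  unfold evV
  rw [toP3_addV]
  exact (sysS s hs).ev_add (toP3 x) (toP3 y)

lemma majV_add (x y : V) : majV (addV x y) = majV x + majV y := by
  cases x; cases y
  simp only [addV, majV, Nat.add_eq]
  omega

lemma evV_mul (x y : V) {s : S} (hs : Cube s) :
    majV (mulV x y) ≤ majV x * majV y ∧
    |evV x s * evV y s - evV (mulV x y) s|
      ≤ (majV x : ℝ) * (majV y : ℝ) - (majV (mulV x y) : ℝ) := by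
  unfold evV
  rw [toP3_mulV, majV_eq, majV_eq, majV_eq]
  exact ⟨(sysS s hs).mul_le 4 (toP3 x) (toP3 y), (sysS s hs).mul_err 4 (toP3 x) (toP3 y)⟩

lemma evV_cut (x y : V) {s : S} (hs : Cube s) :
    evV (cutV x y) s - evV (cutV y x) s = evV x s - evV y s := by
  unfold evV
  rw [toP3_cutV, toP3_cutV]
  have h := ((fxCut.lift hs.2.2).lift hs.2.1).lift hs.1 |>.err (toP3 x) (toP3 y)
  have h0 : ∀ p : P3, majG (majG (majG (fun _ : ℕ => 0))) p = 0 := fun p =>
    majG_const_zero _ (fun a => majG_const_zero _ (fun b => majG_const_zero _ (fun _ => rfl) b) a) p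
  have h1 : |1 * (ev3 s.1 s.2.1 s.2.2 (toP3 x) - ev3 s.1 s.2.1 s.2.2 (toP3 y))
      - (ev3 s.1 s.2.1 s.2.2 (cut3 (toP3 x) (toP3 y)) - ev3 s.1 s.2.1 s.2.2 (cut3 (toP3 y) (toP3 x)))|
      ≤ ((majG (majG (majG (fun _ : ℕ => 0))) (toP3 x) : ℕ) : ℝ)
        + ((majG (majG (majG (fun _ : ℕ => 0))) (toP3 y) : ℕ) : ℝ) := h
  rw [h0, h0] at h1
  simp only [Nat.cast_zero, add_zero, abs_nonpos_iff, one_mul] at h1
  linarith

lemma evV_fix (D : ℕ) (hD : 0 < D) (x y : V) {s : S} (hs : Cube s) :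
    |1 / (D : ℝ) * (evV x s - evV y s) - (evV (fixV D x y) s - evV (fixV D y x) s)| ≤ 70 := by
  unfold evV
  rw [toP3_fixV, toP3_fixV]
  have h := (((fxFix D hD).lift hs.2.2).lift hs.2.1).lift hs.1 |>.err (toP3 x) (toP3 y)
  have h1 : |1 / (D : ℝ) * (ev3 s.1 s.2.1 s.2.2 (toP3 x) - ev3 s.1 s.2.1 s.2.2 (toP3 y))
      - (ev3 s.1 s.2.1 s.2.2 (fix3 D (toP3 x) (toP3 y)) - ev3 s.1 s.2.1 s.2.2 (fix3 D (toP3 y) (toP3 x)))|
      ≤ ((cnt3 (toP3 x) : ℕ) : ℝ) + ((cnt3 (toP3 y) : ℕ) : ℝ) := h
  refine h1.trans ?_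
  have h2 : ((cnt3 (toP3 x) : ℕ) : ℝ) ≤ 35 := by exact_mod_cast cnt3_le x
  have h3 : ((cnt3 (toP3 y) : ℕ) : ℝ) ≤ 35 := by exact_mod_cast cnt3_le y
  linarith

lemma evV_scl (num den : ℕ) (hden : 0 < den) (x : V) {s : S} (hs : Cube s) :
    |(num : ℝ) / (den : ℝ) * evV x s - evV (sclV num den x) s| ≤ 35 := by
  unfold evV
  rw [toP3_sclV]
  have h1 := scl_err (fun a : ℕ => (a : ℝ)) (scl0 num den) cnt0 hs.2.2 (scl_base num den hden)
  have h2 := scl_err (ev1 s.2.2) (scl1 num den) (majG cnt0) hs.2.1 h1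
  have h3 := scl_err (ev2 s.2.1 s.2.2) (scl2 num den) (majG (majG cnt0)) hs.1 h2 (toP3 x)
  refine h3.trans ?_
  have h4 : ((cnt3 (toP3 x) : ℕ) : ℝ) ≤ 35 := by exact_mod_cast cnt3_le x
  exact h4

lemma evV_drop (x : V) (s : S) : evV (dropV x) s = evV x s - (c0V x : ℝ) := by
  cases x
  simp only [evV, dropV, c0V, toP3, ev3, ev2, ev1, evG_cons, evG_nil]
  push_cast
  ring

lemma majV_drop (x : V) : majV (dropV x) + c0V x = majV x := by
  cases x
  simp only [majV, dropV, c0V, Nat.add_eq]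
  omega

lemma evV_cst (a : ℕ) (s : S) : evV (cstV a) s = (a : ℝ) := by
  simp only [evV, cstV, toP3, ev3, ev2, ev1, evG_cons, evG_nil]
  push_cast
  ring

lemma evV_zero (s : S) : evV zeroV s = 0 := by
  simp only [evV, zeroV, toP3, ev3, ev2, ev1, evG_cons, evG_nil]
  push_cast
  ring

end Flat

lemma rel_mul_iff {f : S → ℝ} {M : Md} : Rel f M ↔
    ∀ s, Cube s → |f s * (K : ℝ) - (evV M.pos s - evV M.neg s)| ≤ (M.e : ℝ) := by
  have hK := K_pos
  unfold Rel
  refine forall_congr' (fun s => forall_congr' (fun _ => ?_))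
  have e : f s * (K : ℝ) - (evV M.pos s - evV M.neg s)
      = (f s - (evV M.pos s - evV M.neg s) / (K : ℝ)) * (K : ℝ) := by
    field_simp
  rw [e, abs_mul, abs_of_pos hK, le_div_iff₀ hK]

/-! ### bounds of a model -/

theorem Rel.abs_le {f : S → ℝ} {M : Md} (h : Rel f M) {s : S} (hs : Cube s) :
    |f s| ≤ (absM M : ℝ) / (K : ℝ) := by
  have hK := K_pos
  have h1 := _root_.abs_le.1 (rel_mul_iff.1 h s hs)
  have h2 := _root_.abs_le.1 (evV_abs M.pos hs)
  have h3 := _root_.abs_le.1 (evV_abs M.neg hs)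
  have e : (absM M : ℝ) = (majV M.pos : ℝ) + (majV M.neg : ℝ) + (M.e : ℝ) := by
    simp [absM, Nat.add_eq]
  rw [e, le_div_iff₀ hK, ← abs_of_pos hK, ← abs_mul, _root_.abs_le]
  constructor <;> linarith [h1.1, h1.2, h2.1, h2.2, h3.1, h3.2]

/-- lower bound -/
theorem Rel.low_le {f : S → ℝ} {M : Md} (h : Rel f M) {s : S} (hs : Cube s) :
    ((lowP M : ℝ) - (lowN M : ℝ)) / (K : ℝ) ≤ f s := by
  have hK := K_pos
  have h1 := _root_.abs_le.1 (rel_mul_iff.1 h s hs)
  have h2 := _root_.abs_le.1 (evV_abs (dropV M.pos) hs)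
  have h3 := _root_.abs_le.1 (evV_abs (dropV M.neg) hs)
  rw [evV_drop] at h2 h3
  have e : (lowN M : ℝ) = (majV (dropV M.pos) : ℝ) + ((c0V M.neg : ℝ) + (majV (dropV M.neg) : ℝ))
      + (M.e : ℝ) := by
    simp [lowN, Nat.add_eq]
  have e' : (lowP M : ℝ) = (c0V M.pos : ℝ) := rfl
  rw [e, e', div_le_iff₀ hK]
  linarith [h1.1, h1.2, h2.1, h2.2, h3.1, h3.2]

/-- upper bound -/
theorem Rel.le_up {f : S → ℝ} {M : Md} (h : Rel f M) {s : S} (hs : Cube s) :
    f s ≤ (upP M : ℝ) / (K : ℝ) := by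
  have hK := K_pos
  have h1 := _root_.abs_le.1 (rel_mul_iff.1 h s hs)
  have h2 := _root_.abs_le.1 (evV_abs (dropV M.pos) hs)
  have h3 := _root_.abs_le.1 (evV_abs M.neg hs)
  rw [evV_drop] at h2
  have e : (upP M : ℝ) = (c0V M.pos : ℝ) + (majV (dropV M.pos) : ℝ)
      + ((majV M.neg : ℝ) + (M.e : ℝ)) := by
    simp [upP, Nat.add_eq]
  rw [e, le_div_iff₀ hK]
  linarith [h1.1, h1.2, h2.1, h2.2, h3.1, h3.2]

/-- the function without the constant coefficient of its model -/
theorem Rel.drop {f : S → ℝ} {M : Md} (h : Rel f M) :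
    Rel (fun s => f s - ((c0V M.pos : ℝ) - (c0V M.neg : ℝ)) / (K : ℝ)) (dropM M) := by
  have hK := K_pos
  rw [rel_mul_iff] at h ⊢
  intro s hs
  have h1 := h s hs
  simp only [dropM, evV_drop]
  have e : (f s - ((c0V M.pos : ℝ) - (c0V M.neg : ℝ)) / (K : ℝ)) * (K : ℝ)
      - (evV M.pos s - (c0V M.pos : ℝ) - (evV M.neg s - (c0V M.neg : ℝ)))
      = f s * (K : ℝ) - (evV M.pos s - evV M.neg s) := by
    field_simp
    ring
  rw [e]
  exact h1

/-! ### constants and variables -/

theorem rel_mkC {c : ℝ} {p n e : ℕ} (h : |c - ((p : ℝ) - (n : ℝ)) / (K : ℝ)| ≤ (e : ℝ) / (K : ℝ)) :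
    Rel (fun _ => c) (mkC p n e) := by
  intro s _
  simp only [mkC, evV_cst]
  exact h

theorem rel_one : Rel (fun _ => 1) oneM := by
  have hK := K_pos
  apply rel_mkC
  simp [hK.ne']

theorem rel_var1 (c w : ℕ) :
    Rel (fun s => ((c : ℝ) + (w : ℝ) * s.1) / (K : ℝ)) ⟨var1V c w, zeroV, 0⟩ := by
  intro s _
  simp only [evV_zero]
  have : evV (var1V c w) s = (c : ℝ) + (w : ℝ) * s.1 := by
    simp only [evV, var1V, toP3, ev3, ev2, ev1, evG_cons, evG_nil]
    push_cast
    ring
  rw [this]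
  simp

theorem rel_var2 (c w : ℕ) :
    Rel (fun s => ((c : ℝ) + (w : ℝ) * s.2.1) / (K : ℝ)) ⟨var2V c w, zeroV, 0⟩ := by
  intro s _
  simp only [evV_zero]
  have : evV (var2V c w) s = (c : ℝ) + (w : ℝ) * s.2.1 := by
    simp only [evV, var2V, toP3, ev3, ev2, ev1, evG_cons, evG_nil]
    push_cast
    ring
  rw [this]
  simp

theorem rel_var3 (c w : ℕ) :
    Rel (fun s => ((c : ℝ) + (w : ℝ) * s.2.2) / (K : ℝ)) ⟨var3V c w, zeroV, 0⟩ := by
  intro s _
  simp only [evV_zero]
  have : evV (var3V c w) s = (c : ℝ) + (w : ℝ) * s.2.2 := by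
    simp only [evV, var3V, toP3, ev3, ev2, ev1, evG_cons, evG_nil]
    push_cast
    ring
  rw [this]
  simp

/-! ### operations, in the forward form: the continuation gets a model of the result -/

theorem Rel.neg {f : S → ℝ} {M : Md} (h : Rel f M) : Rel (fun s => - f s) (negM M) := by
  rw [rel_mul_iff] at h ⊢
  intro s hs
  have h1 := h s hs
  simp only [negM]
  rw [← abs_neg]
  convert h1 using 2
  ring

theorem addC_spec {f g : S → ℝ} {x y : Md} {k : Md → Bool} (hf : Rel f x) (hg : Rel g y)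
    (h : addC x y k = true) : ∃ z, Rel (fun s => f s + g s) z ∧ k z = true := by
  simp only [addC, fV_eq, fN_eq] at h
  refine ⟨_, ?_, h⟩
  rw [rel_mul_iff] at hf hg ⊢
  intro s hs
  have h1 := abs_le.1 (hf s hs)
  have h2 := abs_le.1 (hg s hs)
  have h3 := evV_cut (addV x.pos y.pos) (addV x.neg y.neg) hs
  rw [evV_add _ _ hs, evV_add _ _ hs] at h3
  simp only
  rw [h3, _root_.abs_le]
  have e : ((Nat.add x.e y.e : ℕ) : ℝ) = (x.e : ℝ) + (y.e : ℝ) := by simp
  rw [e]
  constructor <;> nlinarith [h1.1, h1.2, h2.1, h2.2]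

theorem subC_spec {f g : S → ℝ} {x y : Md} {k : Md → Bool} (hf : Rel f x) (hg : Rel g y)
    (h : subC x y k = true) : ∃ z, Rel (fun s => f s - g s) z ∧ k z = true := by
  obtain ⟨z, hz, hk⟩ := addC_spec hf hg.neg h
  exact ⟨z, by simpa [sub_eq_add_neg] using hz, hk⟩

theorem sclC_spec {f : S → ℝ} {x : Md} {num den : ℕ} {k : Md → Bool} (hden : 0 < den)
    (hf : Rel f x) (h : sclC num den x k = true) :
    ∃ z, Rel (fun s => (num : ℝ) / (den : ℝ) * f s) z ∧ k z = true := by
  simp only [sclC, fV_eq, fN_eq] at h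
  refine ⟨_, ?_, h⟩
  rw [rel_mul_iff] at hf ⊢
  intro s hs
  have hden' : (0 : ℝ) < (den : ℝ) := by exact_mod_cast hden
  have hc : (0 : ℝ) ≤ (num : ℝ) / (den : ℝ) := by positivity
  have h1 := abs_le.1 (hf s hs)
  have h2 := abs_le.1 (evV_scl num den hden x.pos hs)
  have h3 := abs_le.1 (evV_scl num den hden x.neg hs)
  have h4 := div_bracket (x.e * num) den hden
  have e4 : ((x.e * num : ℕ) : ℝ) / (den : ℝ) = (num : ℝ) / (den : ℝ) * (x.e : ℝ) := by
    push_cast
    ring
  rw [e4] at h4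
  simp only
  have e : ((Nat.add (Nat.div (Nat.mul x.e num) den) 71 : ℕ) : ℝ)
      = ((x.e * num / den : ℕ) : ℝ) + 71 := by
    simp [Nat.add_eq, Nat.mul_eq, natdiv_eq]
  rw [e, _root_.abs_le]
  set c : ℝ := (num : ℝ) / (den : ℝ) with hcdef
  have h5 := mul_le_mul_of_nonneg_left h1.1 hc
  have h6 := mul_le_mul_of_nonneg_left h1.2 hc
  constructor <;> nlinarith [h2.1, h2.2, h3.1, h3.2, h4.1, h4.2]

theorem sclS_spec {f : S → ℝ} {x : Md} {cp cn den : ℕ} {k : Md → Bool} (hden : 0 < den)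
    (hf : Rel f x) (h : sclS cp cn den x k = true) :
    ∃ z, Rel (fun s => ((cp : ℝ) - (cn : ℝ)) / (den : ℝ) * f s) z ∧ k z = true := by
  unfold sclS at h
  by_cases hc : cn ≤ cp
  · rw [if_pos (Nat.ble_eq_true_of_le hc)] at h
    obtain ⟨z, hz, hk⟩ := sclC_spec hden hf h
    refine ⟨z, ?_, hk⟩
    have e : ((Nat.sub cp cn : ℕ) : ℝ) = (cp : ℝ) - (cn : ℝ) := by
      rw [Nat.sub_eq, Nat.cast_sub hc]
    rw [e] at hz
    exact hz
  · rw [if_neg (by simpa [Nat.ble_eq] using hc)] at h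
    obtain ⟨z, hz, hk⟩ := sclC_spec hden hf.neg h
    refine ⟨z, ?_, hk⟩
    have hc' : cp ≤ cn := by omega
    have e : ((Nat.sub cn cp : ℕ) : ℝ) = (cn : ℝ) - (cp : ℝ) := by
      rw [Nat.sub_eq, Nat.cast_sub hc']
    rw [e] at hz
    intro s hs
    have := hz s hs
    convert this using 3
    ring

theorem mulC_spec {f g : S → ℝ} {x y : Md} {k : Md → Bool} (hf : Rel f x) (hg : Rel g y)
    (h : mulC x y k = true) : ∃ z, Rel (fun s => f s * g s) z ∧ k z = true := by
  simp only [mulC, fV_eq, fN_eq] at h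
  refine ⟨_, ?_, h⟩
  rw [rel_mul_iff] at hf hg ⊢
  intro s hs
  have hK := K_pos
  have hKn : 0 < K := by decide
  simp only
  have hf1 := hf s hs
  have hg1 := hg s hs
  obtain ⟨hq1, hm1⟩ := evV_mul x.pos y.pos hs
  obtain ⟨hq2, hm2⟩ := evV_mul x.neg y.neg hs
  obtain ⟨hq3, hm3⟩ := evV_mul x.pos y.neg hs
  obtain ⟨hq4, hm4⟩ := evV_mul x.neg y.pos hs
  have h70 := evV_fix K hKn (addV (mulV x.pos y.pos) (mulV x.neg y.neg))
    (addV (mulV x.pos y.neg) (mulV x.neg y.pos)) hs
  rw [evV_add _ _ hs, evV_add _ _ hs] at h70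
  have a1 := evV_abs x.pos hs
  have a2 := evV_abs x.neg hs
  have a3 := evV_abs y.pos hs
  have a4 := evV_abs y.neg hs
  simp only [Nat.add_eq, Nat.mul_eq, Nat.sub_eq, natdiv_eq, majV_add]
  generalize evV (fixV K (addV (mulV x.pos y.pos) (mulV x.neg y.neg))
    (addV (mulV x.pos y.neg) (mulV x.neg y.pos))) s = Ep at h70 ⊢
  generalize evV (fixV K (addV (mulV x.pos y.neg) (mulV x.neg y.pos))
    (addV (mulV x.pos y.pos) (mulV x.neg y.neg))) s = En at h70 ⊢
  generalize evV (mulV x.pos y.pos) s = E1 at h70 hm1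
  generalize evV (mulV x.neg y.neg) s = E2 at h70 hm2
  generalize evV (mulV x.pos y.neg) s = E3 at h70 hm3
  generalize evV (mulV x.neg y.pos) s = E4 at h70 hm4
  generalize majV (mulV x.pos y.pos) = q1 at hq1 hm1 ⊢
  generalize majV (mulV x.neg y.neg) = q2 at hq2 hm2 ⊢
  generalize majV (mulV x.pos y.neg) = q3 at hq3 hm3 ⊢
  generalize majV (mulV x.neg y.pos) = q4 at hq4 hm4 ⊢
  generalize evV x.pos s = Pf at *
  generalize evV x.neg s = Nf at *
  generalize evV y.pos s = Pg at *
  generalize evV y.neg s = Ng at *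
  generalize majV x.pos = mp at *
  generalize majV x.neg = mn at *
  generalize majV y.pos = mp' at *
  generalize majV y.neg = mn' at *
  generalize x.e = ex at *
  generalize y.e = ey at *
  generalize f s = fs at *
  generalize g s = gs at *
  have hle : q1 + q2 + (q3 + q4) ≤ (mp + mn) * (mp' + mn') := by
    have : (mp + mn) * (mp' + mn') = mp * mp' + mn * mn' + (mp * mn' + mn * mp') := by ring
    omega
  set hi : ℕ := (mp + mn) * (mp' + mn') - (q1 + q2 + (q3 + q4)) with hhi
  have hic : (hi : ℝ) = ((mp : ℝ) + mn) * ((mp' : ℝ) + mn') - ((q1 : ℝ) + q2 + (q3 + q4)) := by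
    rw [hhi, Nat.cast_sub hle]
    push_cast
    ring
  set T : ℕ := hi + (ex * (mp' + mn' + ey) + (mp + mn) * ey) with hT
  have hTc : (T : ℝ) = (hi : ℝ) + ((ex : ℝ) * ((mp' : ℝ) + mn' + ey) + ((mp : ℝ) + mn) * ey) := by
    rw [hT]
    push_cast
    ring
  have hF : |Pf - Nf| ≤ (mp : ℝ) + mn := by
    rw [_root_.abs_le] at a1 a2 ⊢
    constructor <;> linarith [a1.1, a1.2, a2.1, a2.2]
  have hG : |Pg - Ng| ≤ (mp' : ℝ) + mn' := by
    rw [_root_.abs_le] at a3 a4 ⊢
    constructor <;> linarith [a3.1, a3.2, a4.1, a4.2]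
  have hb : |gs * (K : ℝ)| ≤ (mp' : ℝ) + mn' + ey := by
    rw [_root_.abs_le] at hG hg1 ⊢
    constructor <;> linarith [hG.1, hG.2, hg1.1, hg1.2]
  have step1 : |(fs * (K : ℝ)) * (gs * (K : ℝ)) - (Pf - Nf) * (Pg - Ng)|
      ≤ (ex : ℝ) * ((mp' : ℝ) + mn' + ey) + ((mp : ℝ) + mn) * ey := by
    have e : (fs * (K : ℝ)) * (gs * (K : ℝ)) - (Pf - Nf) * (Pg - Ng)
        = (fs * (K : ℝ) - (Pf - Nf)) * (gs * (K : ℝ)) + (Pf - Nf) * (gs * (K : ℝ) - (Pg - Ng)) := by
      ring
    rw [e]
    exact (abs_add_le _ _).trans (add_le_add (abs_mul_le' hf1 hb) (abs_mul_le' hF hg1))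
  have step2 : |(Pf - Nf) * (Pg - Ng) - ((E1 + E2) - (E3 + E4))| ≤ (hi : ℝ) := by
    rw [hic]
    rw [_root_.abs_le] at hm1 hm2 hm3 hm4 ⊢
    constructor <;>
      linarith [hm1.1, hm1.2, hm2.1, hm2.2, hm3.1, hm3.2, hm4.1, hm4.2]
  have step3 : |(fs * (K : ℝ)) * (gs * (K : ℝ)) - ((E1 + E2) - (E3 + E4))| ≤ (T : ℝ) := by
    rw [hTc]
    refine (abs_sub_le _ ((Pf - Nf) * (Pg - Ng)) _).trans ?_
    linarith
  have step4 : |fs * gs * (K : ℝ) - 1 / (K : ℝ) * ((E1 + E2) - (E3 + E4))| ≤ (T : ℝ) / (K : ℝ) := by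
    have e : fs * gs * (K : ℝ) - 1 / (K : ℝ) * ((E1 + E2) - (E3 + E4))
        = ((fs * (K : ℝ)) * (gs * (K : ℝ)) - ((E1 + E2) - (E3 + E4))) / (K : ℝ) := by
      field_simp
    rw [e, abs_div, abs_of_pos hK]
    exact div_le_div_of_nonneg_right step3 hK.le
  have step5 := (div_bracket T K hKn).2
  have hcast : (((T / K + 71 : ℕ)) : ℝ) = ((T / K : ℕ) : ℝ) + 71 := by
    push_cast
    ring
  rw [hcast]
  rw [_root_.abs_le] at step4 h70 ⊢
  constructor <;> linarith [step4.1, step4.2, h70.1, h70.2]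

end Vale.Agent.Lib.P154.TM
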