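import Vale.Agent.Lib.P154.TM.Code

/-!
The table of the multiplier and the constants of the certificates.
-/

namespace Vale.Agent.Lib.P154.TM

/-- the table of the multiplier: a piecewise linear function of the exponent -/
def tabU : List ACell := [⟨57, 144115188075855872, 594, 1616107719082647748608⟩,
  ⟨57, 432345564227567616, 545, 1451960519864247910400⟩,
  ⟨57, 720575940379279360, 405, 1315051091192184832000⟩,
  ⟨56, 936748722493063168, 405, 1227501114436102389760⟩,
  ⟨56, 1080863910568919040, 199, 1183978327637193916416⟩,
  ⟨57, 1297036692682702848, 199, 1140959943996550938624⟩,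
  ⟨57, 1585267068834414592, 0, 1112281021569455620096⟩,
  ⟨58, 2017612633061982208, 0, 1112281021569455620096⟩,
  ⟨60, 3458764513820540928, 0, 1112281021569455620096⟩,
  ⟨61, 6917529027641081856, 0, 1112281021569455620096⟩,
  ⟨62, 13835058055282163712, 0, 1112281021569455620096⟩]

/-- the same table, lowered by `1 / 256`, from the exponent `1 / 8` on -/
def tabS : List ACell := [⟨56, 216172782113783808, 594, 1568693822205691166720⟩,
  ⟨57, 432345564227567616, 545, 1447348833845820522496⟩,
  ⟨57, 720575940379279360, 405, 1310439405173757444096⟩,
  ⟨56, 936748722493063168, 405, 1222889428417675001856⟩,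
  ⟨56, 1080863910568919040, 199, 1179366641618766528512⟩,
  ⟨57, 1297036692682702848, 199, 1136348257978123550720⟩,
  ⟨57, 1585267068834414592, 0, 1107669335551028232192⟩,
  ⟨58, 2017612633061982208, 0, 1107669335551028232192⟩,
  ⟨60, 3458764513820540928, 0, 1107669335551028232192⟩,
  ⟨61, 6917529027641081856, 0, 1107669335551028232192⟩,
  ⟨62, 13835058055282163712, 0, 1107669335551028232192⟩]

/-- the constant `c0` in units of `1 / K` -/
def c0N : Nat := 1661828262499713024

/-- the central box, `1 / 32` -/
def hBox : Nat := 36028797018963968

/-- a bound of small coordinates, `2 ^ (-30)` -/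
def eabN : Nat := 1073741824

/-- a bound of the term of the potential far from the middle, at least `1 / 1000` -/
def eGN : Nat := 1152921504606847

/-- the exponent check: `E(A) >= A / 256` from `1 / 8` on -/
def eCheck : Bool :=
  aAll (mkC 0 0 0) oneM (mkC c0N 0 0) (mkC 0 0 0) 1 512 tabS

end Vale.Agent.Lib.P154.TM
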