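import Vale.Agent.Lib.P154.TM.Centre
import Vale.Agent.Lib.P154.TM.Tab

/-!
The table of the multiplier: every exponent up to `16` is in a cell, and the exponent part of the row.
-/

namespace Vale.Agent.Lib.P154.TM

open Vale.Agent.Lib.P154 Vale.Agent.Lib.P154.Neg

noncomputable section

theorem cellU0 {A : ℝ} (hlo : (0 : ℝ) ≤ A) (hhi : A ≤ (1 / 4 : ℝ)) :
    InTab tabU A ((369 / 256 : ℝ) - 594 / 1024 * A) := by
  refine ⟨⟨57, 144115188075855872, 594, 1616107719082647748608⟩, by simp [tabU], ?_, ?_⟩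
  · have e1 : ((144115188075855872 : ℕ) : ℝ) / (K : ℝ) = (1 / 8 : ℝ) := by norm_num [K]
    have e2 : ((Nat.pow 2 57 : ℕ) : ℝ) / (K : ℝ) = (1 / 8 : ℝ) := by norm_num [K, Nat.pow_eq]
    show |A - ((144115188075855872 : ℕ) : ℝ) / (K : ℝ)| ≤ ((Nat.pow 2 57 : ℕ) : ℝ) / (K : ℝ)
    rw [e1]
    try rw [e2]
    rw [abs_le]
    constructor <;> linarith
  · show _ = mFn 594 144115188075855872 1616107719082647748608 A
    unfold mFn
    have e3 : ((1616107719082647748608 : ℕ) : ℝ) / (1024 * (K : ℝ)) = (5607 / 4096 : ℝ) := by norm_num [K]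
    have e4 : ((144115188075855872 : ℕ) : ℝ) / (K : ℝ) = (1 / 8 : ℝ) := by norm_num [K]
    rw [e3, e4]
    push_cast
    ring

theorem cellS0 {A : ℝ} (hlo : (1 / 8 : ℝ) ≤ A) (hhi : A ≤ (1 / 4 : ℝ)) :
    InTab tabS A ((23 / 16 : ℝ) - 594 / 1024 * A) := by
  refine ⟨⟨56, 216172782113783808, 594, 1568693822205691166720⟩, by simp [tabS], ?_, ?_⟩
  · have e1 : ((216172782113783808 : ℕ) : ℝ) / (K : ℝ) = (3 / 16 : ℝ) := by norm_num [K]
    have e2 : ((Nat.pow 2 56 : ℕ) : ℝ) / (K : ℝ) = (1 / 16 : ℝ) := by norm_num [K, Nat.pow_eq]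
    show |A - ((216172782113783808 : ℕ) : ℝ) / (K : ℝ)| ≤ ((Nat.pow 2 56 : ℕ) : ℝ) / (K : ℝ)
    rw [e1]
    try rw [e2]
    rw [abs_le]
    constructor <;> linarith
  · show _ = mFn 594 216172782113783808 1568693822205691166720 A
    unfold mFn
    have e3 : ((1568693822205691166720 : ℕ) : ℝ) / (1024 * (K : ℝ)) = (10885 / 8192 : ℝ) := by norm_num [K]
    have e4 : ((216172782113783808 : ℕ) : ℝ) / (K : ℝ) = (3 / 16 : ℝ) := by norm_num [K]
    rw [e3, e4]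
    push_cast
    ring

theorem cellU1 {A : ℝ} (hlo : (1 / 4 : ℝ) ≤ A) (hhi : A ≤ (1 / 2 : ℝ)) :
    InTab tabU A ((5855 / 4096 : ℝ) - 545 / 1024 * A) := by
  refine ⟨⟨57, 432345564227567616, 545, 1451960519864247910400⟩, by simp [tabU], ?_, ?_⟩
  · have e1 : ((432345564227567616 : ℕ) : ℝ) / (K : ℝ) = (3 / 8 : ℝ) := by norm_num [K]
    have e2 : ((Nat.pow 2 57 : ℕ) : ℝ) / (K : ℝ) = (1 / 8 : ℝ) := by norm_num [K, Nat.pow_eq]
    show |A - ((432345564227567616 : ℕ) : ℝ) / (K : ℝ)| ≤ ((Nat.pow 2 57 : ℕ) : ℝ) / (K : ℝ)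
    rw [e1]
    try rw [e2]
    rw [abs_le]
    constructor <;> linarith
  · show _ = mFn 545 432345564227567616 1451960519864247910400 A
    unfold mFn
    have e3 : ((1451960519864247910400 : ℕ) : ℝ) / (1024 * (K : ℝ)) = (10075 / 8192 : ℝ) := by norm_num [K]
    have e4 : ((432345564227567616 : ℕ) : ℝ) / (K : ℝ) = (3 / 8 : ℝ) := by norm_num [K]
    rw [e3, e4]
    push_cast
    ring

theorem cellS1 {A : ℝ} (hlo : (1 / 4 : ℝ) ≤ A) (hhi : A ≤ (1 / 2 : ℝ)) :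
    InTab tabS A ((5839 / 4096 : ℝ) - 545 / 1024 * A) := by
  refine ⟨⟨57, 432345564227567616, 545, 1447348833845820522496⟩, by simp [tabS], ?_, ?_⟩
  · have e1 : ((432345564227567616 : ℕ) : ℝ) / (K : ℝ) = (3 / 8 : ℝ) := by norm_num [K]
    have e2 : ((Nat.pow 2 57 : ℕ) : ℝ) / (K : ℝ) = (1 / 8 : ℝ) := by norm_num [K, Nat.pow_eq]
    show |A - ((432345564227567616 : ℕ) : ℝ) / (K : ℝ)| ≤ ((Nat.pow 2 57 : ℕ) : ℝ) / (K : ℝ)
    rw [e1]
    try rw [e2]
    rw [abs_le]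
    constructor <;> linarith
  · show _ = mFn 545 432345564227567616 1447348833845820522496 A
    unfold mFn
    have e3 : ((1447348833845820522496 : ℕ) : ℝ) / (1024 * (K : ℝ)) = (10043 / 8192 : ℝ) := by norm_num [K]
    have e4 : ((432345564227567616 : ℕ) : ℝ) / (K : ℝ) = (3 / 8 : ℝ) := by norm_num [K]
    rw [e3, e4]
    push_cast
    ring

theorem cellU2 {A : ℝ} (hlo : (1 / 2 : ℝ) ≤ A) (hhi : A ≤ (3 / 4 : ℝ)) :
    InTab tabU A ((5575 / 4096 : ℝ) - 405 / 1024 * A) := by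
  refine ⟨⟨57, 720575940379279360, 405, 1315051091192184832000⟩, by simp [tabU], ?_, ?_⟩
  · have e1 : ((720575940379279360 : ℕ) : ℝ) / (K : ℝ) = (5 / 8 : ℝ) := by norm_num [K]
    have e2 : ((Nat.pow 2 57 : ℕ) : ℝ) / (K : ℝ) = (1 / 8 : ℝ) := by norm_num [K, Nat.pow_eq]
    show |A - ((720575940379279360 : ℕ) : ℝ) / (K : ℝ)| ≤ ((Nat.pow 2 57 : ℕ) : ℝ) / (K : ℝ)
    rw [e1]
    try rw [e2]
    rw [abs_le]
    constructor <;> linarith
  · show _ = mFn 405 720575940379279360 1315051091192184832000 A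
    unfold mFn
    have e3 : ((1315051091192184832000 : ℕ) : ℝ) / (1024 * (K : ℝ)) = (9125 / 8192 : ℝ) := by norm_num [K]
    have e4 : ((720575940379279360 : ℕ) : ℝ) / (K : ℝ) = (5 / 8 : ℝ) := by norm_num [K]
    rw [e3, e4]
    push_cast
    ring

theorem cellS2 {A : ℝ} (hlo : (1 / 2 : ℝ) ≤ A) (hhi : A ≤ (3 / 4 : ℝ)) :
    InTab tabS A ((5559 / 4096 : ℝ) - 405 / 1024 * A) := by
  refine ⟨⟨57, 720575940379279360, 405, 1310439405173757444096⟩, by simp [tabS], ?_, ?_⟩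
  · have e1 : ((720575940379279360 : ℕ) : ℝ) / (K : ℝ) = (5 / 8 : ℝ) := by norm_num [K]
    have e2 : ((Nat.pow 2 57 : ℕ) : ℝ) / (K : ℝ) = (1 / 8 : ℝ) := by norm_num [K, Nat.pow_eq]
    show |A - ((720575940379279360 : ℕ) : ℝ) / (K : ℝ)| ≤ ((Nat.pow 2 57 : ℕ) : ℝ) / (K : ℝ)
    rw [e1]
    try rw [e2]
    rw [abs_le]
    constructor <;> linarith
  · show _ = mFn 405 720575940379279360 1310439405173757444096 A
    unfold mFn
    have e3 : ((1310439405173757444096 : ℕ) : ℝ) / (1024 * (K : ℝ)) = (9093 / 8192 : ℝ) := by norm_num [K]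
    have e4 : ((720575940379279360 : ℕ) : ℝ) / (K : ℝ) = (5 / 8 : ℝ) := by norm_num [K]
    rw [e3, e4]
    push_cast
    ring

theorem cellU3 {A : ℝ} (hlo : (3 / 4 : ℝ) ≤ A) (hhi : A ≤ (7 / 8 : ℝ)) :
    InTab tabU A ((5575 / 4096 : ℝ) - 405 / 1024 * A) := by
  refine ⟨⟨56, 936748722493063168, 405, 1227501114436102389760⟩, by simp [tabU], ?_, ?_⟩
  · have e1 : ((936748722493063168 : ℕ) : ℝ) / (K : ℝ) = (13 / 16 : ℝ) := by norm_num [K]
    have e2 : ((Nat.pow 2 56 : ℕ) : ℝ) / (K : ℝ) = (1 / 16 : ℝ) := by norm_num [K, Nat.pow_eq]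
    show |A - ((936748722493063168 : ℕ) : ℝ) / (K : ℝ)| ≤ ((Nat.pow 2 56 : ℕ) : ℝ) / (K : ℝ)
    rw [e1]
    try rw [e2]
    rw [abs_le]
    constructor <;> linarith
  · show _ = mFn 405 936748722493063168 1227501114436102389760 A
    unfold mFn
    have e3 : ((1227501114436102389760 : ℕ) : ℝ) / (1024 * (K : ℝ)) = (17035 / 16384 : ℝ) := by norm_num [K]
    have e4 : ((936748722493063168 : ℕ) : ℝ) / (K : ℝ) = (13 / 16 : ℝ) := by norm_num [K]
    rw [e3, e4]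
    push_cast
    ring

theorem cellS3 {A : ℝ} (hlo : (3 / 4 : ℝ) ≤ A) (hhi : A ≤ (7 / 8 : ℝ)) :
    InTab tabS A ((5559 / 4096 : ℝ) - 405 / 1024 * A) := by
  refine ⟨⟨56, 936748722493063168, 405, 1222889428417675001856⟩, by simp [tabS], ?_, ?_⟩
  · have e1 : ((936748722493063168 : ℕ) : ℝ) / (K : ℝ) = (13 / 16 : ℝ) := by norm_num [K]
    have e2 : ((Nat.pow 2 56 : ℕ) : ℝ) / (K : ℝ) = (1 / 16 : ℝ) := by norm_num [K, Nat.pow_eq]
    show |A - ((936748722493063168 : ℕ) : ℝ) / (K : ℝ)| ≤ ((Nat.pow 2 56 : ℕ) : ℝ) / (K : ℝ)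
    rw [e1]
    try rw [e2]
    rw [abs_le]
    constructor <;> linarith
  · show _ = mFn 405 936748722493063168 1222889428417675001856 A
    unfold mFn
    have e3 : ((1222889428417675001856 : ℕ) : ℝ) / (1024 * (K : ℝ)) = (16971 / 16384 : ℝ) := by norm_num [K]
    have e4 : ((936748722493063168 : ℕ) : ℝ) / (K : ℝ) = (13 / 16 : ℝ) := by norm_num [K]
    rw [e3, e4]
    push_cast
    ring

theorem cellU4 {A : ℝ} (hlo : (7 / 8 : ℝ) ≤ A) (hhi : A ≤ (1 : ℝ)) :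
    InTab tabU A ((2427 / 2048 : ℝ) - 199 / 1024 * A) := by
  refine ⟨⟨56, 1080863910568919040, 199, 1183978327637193916416⟩, by simp [tabU], ?_, ?_⟩
  · have e1 : ((1080863910568919040 : ℕ) : ℝ) / (K : ℝ) = (15 / 16 : ℝ) := by norm_num [K]
    have e2 : ((Nat.pow 2 56 : ℕ) : ℝ) / (K : ℝ) = (1 / 16 : ℝ) := by norm_num [K, Nat.pow_eq]
    show |A - ((1080863910568919040 : ℕ) : ℝ) / (K : ℝ)| ≤ ((Nat.pow 2 56 : ℕ) : ℝ) / (K : ℝ)
    rw [e1]
    try rw [e2]
    rw [abs_le]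
    constructor <;> linarith
  · show _ = mFn 199 1080863910568919040 1183978327637193916416 A
    unfold mFn
    have e3 : ((1183978327637193916416 : ℕ) : ℝ) / (1024 * (K : ℝ)) = (16431 / 16384 : ℝ) := by norm_num [K]
    have e4 : ((1080863910568919040 : ℕ) : ℝ) / (K : ℝ) = (15 / 16 : ℝ) := by norm_num [K]
    rw [e3, e4]
    push_cast
    ring

theorem cellS4 {A : ℝ} (hlo : (7 / 8 : ℝ) ≤ A) (hhi : A ≤ (1 : ℝ)) :
    InTab tabS A ((2419 / 2048 : ℝ) - 199 / 1024 * A) := by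
  refine ⟨⟨56, 1080863910568919040, 199, 1179366641618766528512⟩, by simp [tabS], ?_, ?_⟩
  · have e1 : ((1080863910568919040 : ℕ) : ℝ) / (K : ℝ) = (15 / 16 : ℝ) := by norm_num [K]
    have e2 : ((Nat.pow 2 56 : ℕ) : ℝ) / (K : ℝ) = (1 / 16 : ℝ) := by norm_num [K, Nat.pow_eq]
    show |A - ((1080863910568919040 : ℕ) : ℝ) / (K : ℝ)| ≤ ((Nat.pow 2 56 : ℕ) : ℝ) / (K : ℝ)
    rw [e1]
    try rw [e2]
    rw [abs_le]
    constructor <;> linarith
  · show _ = mFn 199 1080863910568919040 1179366641618766528512 A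
    unfold mFn
    have e3 : ((1179366641618766528512 : ℕ) : ℝ) / (1024 * (K : ℝ)) = (16367 / 16384 : ℝ) := by norm_num [K]
    have e4 : ((1080863910568919040 : ℕ) : ℝ) / (K : ℝ) = (15 / 16 : ℝ) := by norm_num [K]
    rw [e3, e4]
    push_cast
    ring

theorem cellU5 {A : ℝ} (hlo : (1 : ℝ) ≤ A) (hhi : A ≤ (5 / 4 : ℝ)) :
    InTab tabU A ((2427 / 2048 : ℝ) - 199 / 1024 * A) := by
  refine ⟨⟨57, 1297036692682702848, 199, 1140959943996550938624⟩, by simp [tabU], ?_, ?_⟩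
  · have e1 : ((1297036692682702848 : ℕ) : ℝ) / (K : ℝ) = (9 / 8 : ℝ) := by norm_num [K]
    have e2 : ((Nat.pow 2 57 : ℕ) : ℝ) / (K : ℝ) = (1 / 8 : ℝ) := by norm_num [K, Nat.pow_eq]
    show |A - ((1297036692682702848 : ℕ) : ℝ) / (K : ℝ)| ≤ ((Nat.pow 2 57 : ℕ) : ℝ) / (K : ℝ)
    rw [e1]
    try rw [e2]
    rw [abs_le]
    constructor <;> linarith
  · show _ = mFn 199 1297036692682702848 1140959943996550938624 A
    unfold mFn
    have e3 : ((1140959943996550938624 : ℕ) : ℝ) / (1024 * (K : ℝ)) = (7917 / 8192 : ℝ) := by norm_num [K]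
    have e4 : ((1297036692682702848 : ℕ) : ℝ) / (K : ℝ) = (9 / 8 : ℝ) := by norm_num [K]
    rw [e3, e4]
    push_cast
    ring

theorem cellS5 {A : ℝ} (hlo : (1 : ℝ) ≤ A) (hhi : A ≤ (5 / 4 : ℝ)) :
    InTab tabS A ((2419 / 2048 : ℝ) - 199 / 1024 * A) := by
  refine ⟨⟨57, 1297036692682702848, 199, 1136348257978123550720⟩, by simp [tabS], ?_, ?_⟩
  · have e1 : ((1297036692682702848 : ℕ) : ℝ) / (K : ℝ) = (9 / 8 : ℝ) := by norm_num [K]
    have e2 : ((Nat.pow 2 57 : ℕ) : ℝ) / (K : ℝ) = (1 / 8 : ℝ) := by norm_num [K, Nat.pow_eq]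
    show |A - ((1297036692682702848 : ℕ) : ℝ) / (K : ℝ)| ≤ ((Nat.pow 2 57 : ℕ) : ℝ) / (K : ℝ)
    rw [e1]
    try rw [e2]
    rw [abs_le]
    constructor <;> linarith
  · show _ = mFn 199 1297036692682702848 1136348257978123550720 A
    unfold mFn
    have e3 : ((1136348257978123550720 : ℕ) : ℝ) / (1024 * (K : ℝ)) = (7885 / 8192 : ℝ) := by norm_num [K]
    have e4 : ((1297036692682702848 : ℕ) : ℝ) / (K : ℝ) = (9 / 8 : ℝ) := by norm_num [K]
    rw [e3, e4]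
    push_cast
    ring

theorem cellU6 {A : ℝ} (hlo : (5 / 4 : ℝ) ≤ A) (hhi : A ≤ (3 / 2 : ℝ)) :
    InTab tabU A ((3859 / 4096 : ℝ) - 0 / 1024 * A) := by
  refine ⟨⟨57, 1585267068834414592, 0, 1112281021569455620096⟩, by simp [tabU], ?_, ?_⟩
  · have e1 : ((1585267068834414592 : ℕ) : ℝ) / (K : ℝ) = (11 / 8 : ℝ) := by norm_num [K]
    have e2 : ((Nat.pow 2 57 : ℕ) : ℝ) / (K : ℝ) = (1 / 8 : ℝ) := by norm_num [K, Nat.pow_eq]
    show |A - ((1585267068834414592 : ℕ) : ℝ) / (K : ℝ)| ≤ ((Nat.pow 2 57 : ℕ) : ℝ) / (K : ℝ)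
    rw [e1]
    try rw [e2]
    rw [abs_le]
    constructor <;> linarith
  · show _ = mFn 0 1585267068834414592 1112281021569455620096 A
    unfold mFn
    have e3 : ((1112281021569455620096 : ℕ) : ℝ) / (1024 * (K : ℝ)) = (3859 / 4096 : ℝ) := by norm_num [K]
    have e4 : ((1585267068834414592 : ℕ) : ℝ) / (K : ℝ) = (11 / 8 : ℝ) := by norm_num [K]
    rw [e3, e4]
    push_cast
    ring

theorem cellS6 {A : ℝ} (hlo : (5 / 4 : ℝ) ≤ A) (hhi : A ≤ (3 / 2 : ℝ)) :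
    InTab tabS A ((3843 / 4096 : ℝ) - 0 / 1024 * A) := by
  refine ⟨⟨57, 1585267068834414592, 0, 1107669335551028232192⟩, by simp [tabS], ?_, ?_⟩
  · have e1 : ((1585267068834414592 : ℕ) : ℝ) / (K : ℝ) = (11 / 8 : ℝ) := by norm_num [K]
    have e2 : ((Nat.pow 2 57 : ℕ) : ℝ) / (K : ℝ) = (1 / 8 : ℝ) := by norm_num [K, Nat.pow_eq]
    show |A - ((1585267068834414592 : ℕ) : ℝ) / (K : ℝ)| ≤ ((Nat.pow 2 57 : ℕ) : ℝ) / (K : ℝ)
    rw [e1]
    try rw [e2]
    rw [abs_le]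
    constructor <;> linarith
  · show _ = mFn 0 1585267068834414592 1107669335551028232192 A
    unfold mFn
    have e3 : ((1107669335551028232192 : ℕ) : ℝ) / (1024 * (K : ℝ)) = (3843 / 4096 : ℝ) := by norm_num [K]
    have e4 : ((1585267068834414592 : ℕ) : ℝ) / (K : ℝ) = (11 / 8 : ℝ) := by norm_num [K]
    rw [e3, e4]
    push_cast
    ring

theorem cellU7 {A : ℝ} (hlo : (3 / 2 : ℝ) ≤ A) (hhi : A ≤ (2 : ℝ)) :
    InTab tabU A ((3859 / 4096 : ℝ) - 0 / 1024 * A) := by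
  refine ⟨⟨58, 2017612633061982208, 0, 1112281021569455620096⟩, by simp [tabU], ?_, ?_⟩
  · have e1 : ((2017612633061982208 : ℕ) : ℝ) / (K : ℝ) = (7 / 4 : ℝ) := by norm_num [K]
    have e2 : ((Nat.pow 2 58 : ℕ) : ℝ) / (K : ℝ) = (1 / 4 : ℝ) := by norm_num [K, Nat.pow_eq]
    show |A - ((2017612633061982208 : ℕ) : ℝ) / (K : ℝ)| ≤ ((Nat.pow 2 58 : ℕ) : ℝ) / (K : ℝ)
    rw [e1]
    try rw [e2]
    rw [abs_le]
    constructor <;> linarith
  · show _ = mFn 0 2017612633061982208 1112281021569455620096 A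
    unfold mFn
    have e3 : ((1112281021569455620096 : ℕ) : ℝ) / (1024 * (K : ℝ)) = (3859 / 4096 : ℝ) := by norm_num [K]
    have e4 : ((2017612633061982208 : ℕ) : ℝ) / (K : ℝ) = (7 / 4 : ℝ) := by norm_num [K]
    rw [e3, e4]
    push_cast
    ring

theorem cellS7 {A : ℝ} (hlo : (3 / 2 : ℝ) ≤ A) (hhi : A ≤ (2 : ℝ)) :
    InTab tabS A ((3843 / 4096 : ℝ) - 0 / 1024 * A) := by
  refine ⟨⟨58, 2017612633061982208, 0, 1107669335551028232192⟩, by simp [tabS], ?_, ?_⟩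
  · have e1 : ((2017612633061982208 : ℕ) : ℝ) / (K : ℝ) = (7 / 4 : ℝ) := by norm_num [K]
    have e2 : ((Nat.pow 2 58 : ℕ) : ℝ) / (K : ℝ) = (1 / 4 : ℝ) := by norm_num [K, Nat.pow_eq]
    show |A - ((2017612633061982208 : ℕ) : ℝ) / (K : ℝ)| ≤ ((Nat.pow 2 58 : ℕ) : ℝ) / (K : ℝ)
    rw [e1]
    try rw [e2]
    rw [abs_le]
    constructor <;> linarith
  · show _ = mFn 0 2017612633061982208 1107669335551028232192 A
    unfold mFn
    have e3 : ((1107669335551028232192 : ℕ) : ℝ) / (1024 * (K : ℝ)) = (3843 / 4096 : ℝ) := by norm_num [K]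
    have e4 : ((2017612633061982208 : ℕ) : ℝ) / (K : ℝ) = (7 / 4 : ℝ) := by norm_num [K]
    rw [e3, e4]
    push_cast
    ring

theorem cellU8 {A : ℝ} (hlo : (2 : ℝ) ≤ A) (hhi : A ≤ (4 : ℝ)) :
    InTab tabU A ((3859 / 4096 : ℝ) - 0 / 1024 * A) := by
  refine ⟨⟨60, 3458764513820540928, 0, 1112281021569455620096⟩, by simp [tabU], ?_, ?_⟩
  · have e1 : ((3458764513820540928 : ℕ) : ℝ) / (K : ℝ) = (3 : ℝ) := by norm_num [K]
    have e2 : ((Nat.pow 2 60 : ℕ) : ℝ) / (K : ℝ) = (1 : ℝ) := by norm_num [K, Nat.pow_eq]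
    show |A - ((3458764513820540928 : ℕ) : ℝ) / (K : ℝ)| ≤ ((Nat.pow 2 60 : ℕ) : ℝ) / (K : ℝ)
    rw [e1]
    try rw [e2]
    rw [abs_le]
    constructor <;> linarith
  · show _ = mFn 0 3458764513820540928 1112281021569455620096 A
    unfold mFn
    have e3 : ((1112281021569455620096 : ℕ) : ℝ) / (1024 * (K : ℝ)) = (3859 / 4096 : ℝ) := by norm_num [K]
    have e4 : ((3458764513820540928 : ℕ) : ℝ) / (K : ℝ) = (3 : ℝ) := by norm_num [K]
    rw [e3, e4]
    push_cast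
    ring

theorem cellS8 {A : ℝ} (hlo : (2 : ℝ) ≤ A) (hhi : A ≤ (4 : ℝ)) :
    InTab tabS A ((3843 / 4096 : ℝ) - 0 / 1024 * A) := by
  refine ⟨⟨60, 3458764513820540928, 0, 1107669335551028232192⟩, by simp [tabS], ?_, ?_⟩
  · have e1 : ((3458764513820540928 : ℕ) : ℝ) / (K : ℝ) = (3 : ℝ) := by norm_num [K]
    have e2 : ((Nat.pow 2 60 : ℕ) : ℝ) / (K : ℝ) = (1 : ℝ) := by norm_num [K, Nat.pow_eq]
    show |A - ((3458764513820540928 : ℕ) : ℝ) / (K : ℝ)| ≤ ((Nat.pow 2 60 : ℕ) : ℝ) / (K : ℝ)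
    rw [e1]
    try rw [e2]
    rw [abs_le]
    constructor <;> linarith
  · show _ = mFn 0 3458764513820540928 1107669335551028232192 A
    unfold mFn
    have e3 : ((1107669335551028232192 : ℕ) : ℝ) / (1024 * (K : ℝ)) = (3843 / 4096 : ℝ) := by norm_num [K]
    have e4 : ((3458764513820540928 : ℕ) : ℝ) / (K : ℝ) = (3 : ℝ) := by norm_num [K]
    rw [e3, e4]
    push_cast
    ring

theorem cellU9 {A : ℝ} (hlo : (4 : ℝ) ≤ A) (hhi : A ≤ (8 : ℝ)) :
    InTab tabU A ((3859 / 4096 : ℝ) - 0 / 1024 * A) := by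
  refine ⟨⟨61, 6917529027641081856, 0, 1112281021569455620096⟩, by simp [tabU], ?_, ?_⟩
  · have e1 : ((6917529027641081856 : ℕ) : ℝ) / (K : ℝ) = (6 : ℝ) := by norm_num [K]
    have e2 : ((Nat.pow 2 61 : ℕ) : ℝ) / (K : ℝ) = (2 : ℝ) := by norm_num [K, Nat.pow_eq]
    show |A - ((6917529027641081856 : ℕ) : ℝ) / (K : ℝ)| ≤ ((Nat.pow 2 61 : ℕ) : ℝ) / (K : ℝ)
    rw [e1]
    try rw [e2]
    rw [abs_le]
    constructor <;> linarith
  · show _ = mFn 0 6917529027641081856 1112281021569455620096 A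
    unfold mFn
    have e3 : ((1112281021569455620096 : ℕ) : ℝ) / (1024 * (K : ℝ)) = (3859 / 4096 : ℝ) := by norm_num [K]
    have e4 : ((6917529027641081856 : ℕ) : ℝ) / (K : ℝ) = (6 : ℝ) := by norm_num [K]
    rw [e3, e4]
    push_cast
    ring

theorem cellS9 {A : ℝ} (hlo : (4 : ℝ) ≤ A) (hhi : A ≤ (8 : ℝ)) :
    InTab tabS A ((3843 / 4096 : ℝ) - 0 / 1024 * A) := by
  refine ⟨⟨61, 6917529027641081856, 0, 1107669335551028232192⟩, by simp [tabS], ?_, ?_⟩
  · have e1 : ((6917529027641081856 : ℕ) : ℝ) / (K : ℝ) = (6 : ℝ) := by norm_num [K]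
    have e2 : ((Nat.pow 2 61 : ℕ) : ℝ) / (K : ℝ) = (2 : ℝ) := by norm_num [K, Nat.pow_eq]
    show |A - ((6917529027641081856 : ℕ) : ℝ) / (K : ℝ)| ≤ ((Nat.pow 2 61 : ℕ) : ℝ) / (K : ℝ)
    rw [e1]
    try rw [e2]
    rw [abs_le]
    constructor <;> linarith
  · show _ = mFn 0 6917529027641081856 1107669335551028232192 A
    unfold mFn
    have e3 : ((1107669335551028232192 : ℕ) : ℝ) / (1024 * (K : ℝ)) = (3843 / 4096 : ℝ) := by norm_num [K]
    have e4 : ((6917529027641081856 : ℕ) : ℝ) / (K : ℝ) = (6 : ℝ) := by norm_num [K]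
    rw [e3, e4]
    push_cast
    ring

theorem cellU10 {A : ℝ} (hlo : (8 : ℝ) ≤ A) (hhi : A ≤ (16 : ℝ)) :
    InTab tabU A ((3859 / 4096 : ℝ) - 0 / 1024 * A) := by
  refine ⟨⟨62, 13835058055282163712, 0, 1112281021569455620096⟩, by simp [tabU], ?_, ?_⟩
  · have e1 : ((13835058055282163712 : ℕ) : ℝ) / (K : ℝ) = (12 : ℝ) := by norm_num [K]
    have e2 : ((Nat.pow 2 62 : ℕ) : ℝ) / (K : ℝ) = (4 : ℝ) := by norm_num [K, Nat.pow_eq]
    show |A - ((13835058055282163712 : ℕ) : ℝ) / (K : ℝ)| ≤ ((Nat.pow 2 62 : ℕ) : ℝ) / (K : ℝ)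
    rw [e1]
    try rw [e2]
    rw [abs_le]
    constructor <;> linarith
  · show _ = mFn 0 13835058055282163712 1112281021569455620096 A
    unfold mFn
    have e3 : ((1112281021569455620096 : ℕ) : ℝ) / (1024 * (K : ℝ)) = (3859 / 4096 : ℝ) := by norm_num [K]
    have e4 : ((13835058055282163712 : ℕ) : ℝ) / (K : ℝ) = (12 : ℝ) := by norm_num [K]
    rw [e3, e4]
    push_cast
    ring

theorem cellS10 {A : ℝ} (hlo : (8 : ℝ) ≤ A) (hhi : A ≤ (16 : ℝ)) :
    InTab tabS A ((3843 / 4096 : ℝ) - 0 / 1024 * A) := by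
  refine ⟨⟨62, 13835058055282163712, 0, 1107669335551028232192⟩, by simp [tabS], ?_, ?_⟩
  · have e1 : ((13835058055282163712 : ℕ) : ℝ) / (K : ℝ) = (12 : ℝ) := by norm_num [K]
    have e2 : ((Nat.pow 2 62 : ℕ) : ℝ) / (K : ℝ) = (4 : ℝ) := by norm_num [K, Nat.pow_eq]
    show |A - ((13835058055282163712 : ℕ) : ℝ) / (K : ℝ)| ≤ ((Nat.pow 2 62 : ℕ) : ℝ) / (K : ℝ)
    rw [e1]
    try rw [e2]
    rw [abs_le]
    constructor <;> linarith
  · show _ = mFn 0 13835058055282163712 1107669335551028232192 A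
    unfold mFn
    have e3 : ((1107669335551028232192 : ℕ) : ℝ) / (1024 * (K : ℝ)) = (3843 / 4096 : ℝ) := by norm_num [K]
    have e4 : ((13835058055282163712 : ℕ) : ℝ) / (K : ℝ) = (12 : ℝ) := by norm_num [K]
    rw [e3, e4]
    push_cast
    ring

theorem eCheck_true : eCheck = true := by decide +kernel

/-- the exponent part of the row from `1 / 8` on -/
theorem e_large {A m : ℝ} (h : InTab tabS A m) :
    A / 256 ≤ (m + 1 / 256) * A - c0R * (1 - Real.exp (-A)) - 1 / 512 * A ^ 2 := by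
  have h0 : Rel (fun _ => (0 : ℝ)) (mkC 0 0 0) := rel_const0 (by simp)
  have hc : Rel (fun _ => c0R) (mkC c0N 0 0) := by
    apply rel_mkC
    have e : ((c0N : ℕ) : ℝ) / (K : ℝ) = c0R := by
      unfold c0R c0N
      norm_num [K]
    simp only [Nat.cast_zero, sub_zero, e, sub_self, abs_zero, zero_div, le_refl]
  have h1 := aAll_sound h0 rel_one hc h0 (fun _ _ => by unfold c0R; norm_num)
    (gn := 1) (gd := 512) (by norm_num) tabS eCheck_true (0, 0, 0) ⟨by simp, by simp, by simp⟩ A m h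
  simp only [tVal] at h1
  norm_num at h1
  nlinarith

/-- the property of the multiplier at an exponent -/
def MOK (A m : ℝ) : Prop :=
  InTab tabU A m ∧ m ≤ c0R ∧
    ((A ≤ 1 / 8 ∧ m = c0R - 594 / 1024 * A ∧ (1 / 512 : ℝ) ≤ 1 / 512) ∨
      A / 256 ≤ m * A - c0R * (1 - Real.exp (-A)) - 1 / 512 * A ^ 2)

theorem case_large {A m : ℝ} (h1 : InTab tabU A m) (h2 : InTab tabS A (m - 1 / 256))
    (h3 : m ≤ c0R) : ∃ m, MOK A m := by
  refine ⟨m, h1, h3, Or.inr ?_⟩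
  have := e_large h2
  have e : m - 1 / 256 + 1 / 256 = m := by ring
  rwa [e] at this

theorem exists_m {A : ℝ} (h0 : 0 ≤ A) (h1 : A ≤ 16) : ∃ m, MOK A m := by
  by_cases h8 : A ≤ 1 / 8
  · refine ⟨c0R - 594 / 1024 * A, ?_, ?_, Or.inl ⟨h8, rfl, le_refl _⟩⟩
    · have := cellU0 (A := A) (by linarith) (by linarith)
      have e : c0R = (369 / 256 : ℝ) := rfl
      rw [e]
      exact this
    · have : 0 ≤ 594 / 1024 * A := by positivity
      linarith
  have h8' : 1 / 8 ≤ A := le_of_lt (lt_of_not_ge h8)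
  by_cases h0 : A ≤ (1 / 4 : ℝ)
  · have hs := cellS0 (A := A) (by linarith) (by linarith)
    have hs' : InTab tabS A (((369 / 256 : ℝ) - 594 / 1024 * A) - 1 / 256) := by
      convert hs using 1
      ring
    refine case_large (cellU0 (by linarith) (by linarith)) hs' ?_
    unfold c0R
    linarith
  have h0' : (1 / 4 : ℝ) ≤ A := le_of_lt (lt_of_not_ge h0)
  by_cases h1 : A ≤ (1 / 2 : ℝ)
  · have hs := cellS1 (A := A) (by linarith) (by linarith)
    have hs' : InTab tabS A (((5855 / 4096 : ℝ) - 545 / 1024 * A) - 1 / 256) := by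
      convert hs using 1
      ring
    refine case_large (cellU1 (by linarith) (by linarith)) hs' ?_
    unfold c0R
    linarith
  have h1' : (1 / 2 : ℝ) ≤ A := le_of_lt (lt_of_not_ge h1)
  by_cases h2 : A ≤ (3 / 4 : ℝ)
  · have hs := cellS2 (A := A) (by linarith) (by linarith)
    have hs' : InTab tabS A (((5575 / 4096 : ℝ) - 405 / 1024 * A) - 1 / 256) := by
      convert hs using 1
      ring
    refine case_large (cellU2 (by linarith) (by linarith)) hs' ?_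
    unfold c0R
    linarith
  have h2' : (3 / 4 : ℝ) ≤ A := le_of_lt (lt_of_not_ge h2)
  by_cases h3 : A ≤ (7 / 8 : ℝ)
  · have hs := cellS3 (A := A) (by linarith) (by linarith)
    have hs' : InTab tabS A (((5575 / 4096 : ℝ) - 405 / 1024 * A) - 1 / 256) := by
      convert hs using 1
      ring
    refine case_large (cellU3 (by linarith) (by linarith)) hs' ?_
    unfold c0R
    linarith
  have h3' : (7 / 8 : ℝ) ≤ A := le_of_lt (lt_of_not_ge h3)
  by_cases h4 : A ≤ (1 : ℝ)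
  · have hs := cellS4 (A := A) (by linarith) (by linarith)
    have hs' : InTab tabS A (((2427 / 2048 : ℝ) - 199 / 1024 * A) - 1 / 256) := by
      convert hs using 1
      ring
    refine case_large (cellU4 (by linarith) (by linarith)) hs' ?_
    unfold c0R
    linarith
  have h4' : (1 : ℝ) ≤ A := le_of_lt (lt_of_not_ge h4)
  by_cases h5 : A ≤ (5 / 4 : ℝ)
  · have hs := cellS5 (A := A) (by linarith) (by linarith)
    have hs' : InTab tabS A (((2427 / 2048 : ℝ) - 199 / 1024 * A) - 1 / 256) := by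
      convert hs using 1
      ring
    refine case_large (cellU5 (by linarith) (by linarith)) hs' ?_
    unfold c0R
    linarith
  have h5' : (5 / 4 : ℝ) ≤ A := le_of_lt (lt_of_not_ge h5)
  by_cases h6 : A ≤ (3 / 2 : ℝ)
  · have hs := cellS6 (A := A) (by linarith) (by linarith)
    have hs' : InTab tabS A (((3859 / 4096 : ℝ) - 0 / 1024 * A) - 1 / 256) := by
      convert hs using 1
      ring
    refine case_large (cellU6 (by linarith) (by linarith)) hs' ?_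
    unfold c0R
    linarith
  have h6' : (3 / 2 : ℝ) ≤ A := le_of_lt (lt_of_not_ge h6)
  by_cases h7 : A ≤ (2 : ℝ)
  · have hs := cellS7 (A := A) (by linarith) (by linarith)
    have hs' : InTab tabS A (((3859 / 4096 : ℝ) - 0 / 1024 * A) - 1 / 256) := by
      convert hs using 1
      ring
    refine case_large (cellU7 (by linarith) (by linarith)) hs' ?_
    unfold c0R
    linarith
  have h7' : (2 : ℝ) ≤ A := le_of_lt (lt_of_not_ge h7)
  by_cases h8 : A ≤ (4 : ℝ)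
  · have hs := cellS8 (A := A) (by linarith) (by linarith)
    have hs' : InTab tabS A (((3859 / 4096 : ℝ) - 0 / 1024 * A) - 1 / 256) := by
      convert hs using 1
      ring
    refine case_large (cellU8 (by linarith) (by linarith)) hs' ?_
    unfold c0R
    linarith
  have h8' : (4 : ℝ) ≤ A := le_of_lt (lt_of_not_ge h8)
  by_cases h9 : A ≤ (8 : ℝ)
  · have hs := cellS9 (A := A) (by linarith) (by linarith)
    have hs' : InTab tabS A (((3859 / 4096 : ℝ) - 0 / 1024 * A) - 1 / 256) := by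
      convert hs using 1
      ring
    refine case_large (cellU9 (by linarith) (by linarith)) hs' ?_
    unfold c0R
    linarith
  have h9' : (8 : ℝ) ≤ A := le_of_lt (lt_of_not_ge h9)
  have hs := cellS10 (A := A) (by linarith) (by linarith)
  have hs' : InTab tabS A (((3859 / 4096 : ℝ) - 0 / 1024 * A) - 1 / 256) := by
    convert hs using 1
    ring
  refine case_large (cellU10 (by linarith) (by linarith)) hs' ?_
  unfold c0R
  linarith

end

end Vale.Agent.Lib.P154.TM
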